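import Crest.Agent.R95.Bridge

/-! # rid 95: completeness of balls and closedness of commutants for the vector trace -/

set_option autoImplicit false

open Filter Topology Crest.OpAlg
open scoped InnerProductSpace

namespace Crest.Agent.R95

variable {H : Type*} [NormedAddCommGroup H] [InnerProductSpace ℂ H] [CompleteSpace H]
variable {M : VonNeumannAlgebra H} {ξ : ℕ → H}

/-- `M' ξ` spans a dense subspace.  Proof. Let `K` be the closure of the span, `p` the orthogonal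
projection onto `K`.  `K` is invariant under `M'`, so `p ∈ M'' = M`
(`VonNeumannAlgebra.IsStarProjection.mem_iff`, or directly), `(1 - p) (ξ n) = 0` (`y = 1`), so
`1 - p = 0` because the `ξ n` separate `M`. -/
theorem dense_commutant_orbit (hξ : IsFaithfulTracialVectorState M ξ) :
    Dense (Submodule.span ℂ {η : H | ∃ y ∈ M.commutant, ∃ n, η = y (ξ n)} : Set H) := by
  set D := Submodule.span ℂ {η : H | ∃ y ∈ M.commutant, ∃ n, η = y (ξ n)} with hD
  have hinv : ∀ y ∈ M.commutant, D ∈ Module.End.invtSubmodule (y : H →ₗ[ℂ] H) := by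
    intro y hy
    rw [Module.End.mem_invtSubmodule, hD, Submodule.span_le]
    rintro _ ⟨z, hz, n, rfl⟩
    exact Submodule.subset_span ⟨y * z, mul_mem hy hz, n, rfl⟩
  have hp : D.topologicalClosure.starProjection ∈ M := by
    rw [VonNeumannAlgebra.IsStarProjection.mem_iff isStarProjection_starProjection]
    intro y hy
    rw [Submodule.range_starProjection]
    exact Submodule.topologicalClosure_mem_invtSubmodule (hinv y hy)
  have h1 : (1 : H →L[ℂ] H) - D.topologicalClosure.starProjection = 0 := by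
    refine hξ.2.2 _ (sub_mem (one_mem M) hp) fun n => ?_
    have : D.topologicalClosure.starProjection (ξ n) = ξ n :=
      Submodule.starProjection_eq_self_iff.2 (D.le_topologicalClosure
        (Submodule.subset_span ⟨1, one_mem _, n, rfl⟩))
    simp [this]
  rw [Submodule.dense_iff_topologicalClosure_eq_top, eq_top_iff]
  intro η _
  have h2 : η = D.topologicalClosure.starProjection η := by
    have := congrArg (fun T : H →L[ℂ] H => T η) h1
    simpa [sub_eq_zero] using this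
  rw [h2]
  exact Submodule.starProjection_apply_mem _ _

omit [CompleteSpace H] in
theorem b2_summable (hξ : HasSum (fun n => ‖ξ n‖ ^ 2) 1) (x : H →L[ℂ] H) :
    Summable fun n => ‖x (ξ n)‖ ^ 2 := by
  refine Summable.of_nonneg_of_le (fun n => by positivity) (fun n => ?_)
    (hξ.summable.mul_left (‖x‖ ^ 2))
  rw [← mul_pow]
  exact pow_le_pow_left₀ (norm_nonneg _) (x.le_opNorm _) 2

theorem b2_le (hξ : IsFaithfulTracialVectorState M ξ) {τ : Tr M.toStarSubalgebra}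
    (hτ : ∀ x : M.toStarSubalgebra, τ.n x ^ 2 = traceNormSq ξ x) (x : M.toStarSubalgebra) (n : ℕ) :
    ‖(x : H →L[ℂ] H) (ξ n)‖ ≤ τ.n x := by
  refine (abs_le_of_sq_le_sq' ?_ (τ.n_nonneg x)).2
  rw [hτ, traceNormSq]
  exact (b2_summable hξ.1 x).le_tsum n fun j _ => by positivity

theorem b2_bound (hξ : IsFaithfulTracialVectorState M ξ) {τ : Tr M.toStarSubalgebra}
    (hτ : ∀ x : M.toStarSubalgebra, τ.n x ^ 2 = traceNormSq ξ x) {η : H}
    (hη : η ∈ Submodule.span ℂ {η : H | ∃ y ∈ M.commutant, ∃ n, η = y (ξ n)}) :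
    ∃ c : ℝ, 0 ≤ c ∧ ∀ x : M.toStarSubalgebra, ‖(x : H →L[ℂ] H) η‖ ≤ c * τ.n x := by
  induction hη using Submodule.span_induction with
  | mem η hη =>
    obtain ⟨y, hy, n, rfl⟩ := hη
    refine ⟨‖y‖, norm_nonneg _, fun x => ?_⟩
    have h1 : (x : H →L[ℂ] H) * y = y * x := VonNeumannAlgebra.mem_commutant_iff.1 hy _ x.2
    have h2 : (x : H →L[ℂ] H) (y (ξ n)) = y ((x : H →L[ℂ] H) (ξ n)) :=
      congrArg (fun T : H →L[ℂ] H => T (ξ n)) h1
    rw [h2]
    exact (y.le_opNorm _).trans (mul_le_mul_of_nonneg_left (b2_le hξ hτ x n) (norm_nonneg _))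
  | zero => exact ⟨0, le_rfl, fun x => by simp⟩
  | add η ζ _ _ h1 h2 =>
    obtain ⟨c, hc, h1⟩ := h1
    obtain ⟨d, hd, h2⟩ := h2
    refine ⟨c + d, add_nonneg hc hd, fun x => ?_⟩
    rw [map_add, add_mul]
    exact (norm_add_le _ _).trans (add_le_add (h1 x) (h2 x))
  | smul a η _ h1 =>
    obtain ⟨c, hc, h1⟩ := h1
    refine ⟨‖a‖ * c, mul_nonneg (norm_nonneg _) hc, fun x => ?_⟩
    rw [map_smul, norm_smul, mul_assoc]
    exact mul_le_mul_of_nonneg_left (h1 x) (norm_nonneg _)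

theorem b2_tendsto (hξ : IsFaithfulTracialVectorState M ξ) {τ : Tr M.toStarSubalgebra}
    (hτ : ∀ x : M.toStarSubalgebra, τ.n x ^ 2 = traceNormSq ξ x) {η : H}
    (hη : η ∈ Submodule.span ℂ {η : H | ∃ y ∈ M.commutant, ∃ n, η = y (ξ n)})
    {u : ℕ → M.toStarSubalgebra} {x : M.toStarSubalgebra} (hu : τ.Lim u x) :
    Tendsto (fun k => (u k : H →L[ℂ] H) η) atTop (𝓝 ((x : H →L[ℂ] H) η)) := by
  obtain ⟨c, -, hc⟩ := b2_bound hξ hτ hη
  rw [tendsto_iff_norm_sub_tendsto_zero]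
  refine squeeze_zero (fun _ => norm_nonneg _) (fun k => ?_) (by simpa using Tendsto.const_mul c hu)
  simpa using hc (u k - x)

/-- Proof. Faithful: `‖x (ξ n)‖² ≤ traceNormSq ξ x = 0` (`Summable.le_tsum`).  Complete: for
`η = y (ξ n)`, `y ∈ M'`, `‖(u j - u k) η‖ = ‖y ((u j - u k) (ξ n))‖ ≤ ‖y‖ n (u j - u k)`, so
`u k η` is Cauchy for `η` in the dense span, hence for all `η` (uniform bound `C`; the set of such
`η` is a closed submodule).  The pointwise limit is a bounded operator `x` with `‖x‖ ≤ C`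
(`continuousLinearMapOfTendsto`, or `LinearMap.mkContinuous`), commuting with `M'`, so `x ∈ M`;
`traceNormSq ξ (u k - x) → 0` by `tendsto_tsum_of_dominated_convergence` with bound
`(2C)² ‖ξ n‖²`. -/
theorem vTr_isW (hξ : IsFaithfulTracialVectorState M ξ) {τ : Tr M.toStarSubalgebra}
    (hτ : ∀ x : M.toStarSubalgebra, τ.n x ^ 2 = traceNormSq ξ x) : τ.IsW := by
  refine ⟨fun x hx => ?_, fun u C hC hu => ?_⟩
  · refine Subtype.ext (hξ.2.2 _ x.2 fun n => ?_)
    have := b2_le hξ hτ x n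
    rw [hx] at this
    exact norm_le_zero_iff.1 this
  have hC0 : 0 ≤ C := (norm_nonneg _).trans (hC 0)
  have hC' : ∀ k, ‖(u k : H →L[ℂ] H)‖ ≤ C := hC
  have hcau : ∀ η : H, CauchySeq fun k => (u k : H →L[ℂ] H) η := by
    intro η
    rw [Metric.cauchySeq_iff]
    intro ε hε
    obtain ⟨ζ, hζ, hd⟩ := (dense_commutant_orbit hξ).exists_dist_lt η
      (show 0 < ε / (4 * (C + 1)) by positivity)
    obtain ⟨c, hc0, hc⟩ := b2_bound hξ hτ hζ
    obtain ⟨N, hN⟩ := hu (ε / (2 * (c + 1))) (by positivity)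
    refine ⟨N, fun j hj k hk => ?_⟩
    have h1 := hc (u j - u k)
    have h2 := hN j hj k hk
    rw [dist_eq_norm] at hd ⊢
    have h3 : (u j : H →L[ℂ] H) η - (u k : H →L[ℂ] H) η =
        (u j : H →L[ℂ] H) (η - ζ) - (u k : H →L[ℂ] H) (η - ζ) +
          ((u j - u k : M.toStarSubalgebra) : H →L[ℂ] H) ζ := by
      simp only [map_sub, AddSubgroupClass.coe_sub, _root_.sub_apply]
      abel
    have h4 : ∀ i, ‖(u i : H →L[ℂ] H) (η - ζ)‖ ≤ ε / 4 := fun i => by
      calc _ ≤ ‖(u i : H →L[ℂ] H)‖ * ‖η - ζ‖ := ContinuousLinearMap.le_opNorm _ _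
        _ ≤ (C + 1) * (ε / (4 * (C + 1))) :=
          mul_le_mul ((hC' i).trans (by linarith)) hd.le (norm_nonneg _) (by linarith)
        _ = ε / 4 := by field_simp
    have h5 : c * τ.n (u j - u k) < ε / 2 := by
      calc _ ≤ (c + 1) * τ.n (u j - u k) :=
            mul_le_mul_of_nonneg_right (by linarith) (τ.n_nonneg _)
        _ < (c + 1) * (ε / (2 * (c + 1))) := mul_lt_mul_of_pos_left h2 (by linarith)
        _ = ε / 2 := by field_simp
    rw [h3]
    have h6 := norm_add_le ((u j : H →L[ℂ] H) (η - ζ) - (u k : H →L[ℂ] H) (η - ζ))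
      (((u j - u k : M.toStarSubalgebra) : H →L[ℂ] H) ζ)
    have h7 := norm_sub_le ((u j : H →L[ℂ] H) (η - ζ)) ((u k : H →L[ℂ] H) (η - ζ))
    linarith [h4 j, h4 k]
  choose f hf using fun η => cauchySeq_tendsto_of_complete (hcau η)
  let x : H →L[ℂ] H :=
    continuousLinearMapOfTendsto (fun k => (u k : H →L[ℂ] H)) (tendsto_pi_nhds.2 hf)
  have hx : ∀ η, Tendsto (fun k => (u k : H →L[ℂ] H) η) atTop (𝓝 (x η)) := hf
  have hxC : ‖x‖ ≤ C := by
    refine x.opNorm_le_bound hC0 fun η => le_of_tendsto' (hx η).norm fun k => ?_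
    exact (ContinuousLinearMap.le_opNorm _ _).trans
      (mul_le_mul_of_nonneg_right (hC' k) (norm_nonneg _))
  have hxM : x ∈ M := by
    refine mem_of_comm_commutant fun T hT => ?_
    ext η
    refine tendsto_nhds_unique ((T.continuous.tendsto _).comp (hx η)) ((hx (T η)).congr fun k => ?_)
    have h1 : (u k : H →L[ℂ] H) * T = T * u k := VonNeumannAlgebra.mem_commutant_iff.1 hT _ (u k).2
    exact congrArg (fun S : H →L[ℂ] H => S η) h1
  refine ⟨⟨x, hxM⟩, hxC, ?_⟩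
  have h1 : Tendsto (fun k => ∑' n, ‖((u k : H →L[ℂ] H) - x) (ξ n)‖ ^ 2) atTop
      (𝓝 (∑' _n : ℕ, (0 : ℝ))) := by
    refine tendsto_tsum_of_dominated_convergence (bound := fun n => (2 * C) ^ 2 * ‖ξ n‖ ^ 2)
      (hξ.1.summable.mul_left _) (fun n => ?_) (Eventually.of_forall fun k n => ?_)
    · have := (tendsto_iff_norm_sub_tendsto_zero.1 (hx (ξ n))).pow 2
      simpa using this
    · rw [Real.norm_of_nonneg (by positivity), ← mul_pow]
      refine pow_le_pow_left₀ (norm_nonneg _) ((ContinuousLinearMap.le_opNorm _ _).trans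
        (mul_le_mul_of_nonneg_right ?_ (norm_nonneg _))) 2
      linarith [norm_sub_le (u k : H →L[ℂ] H) x, hC' k]
  rw [tsum_zero] at h1
  have h2 := h1.sqrt
  rw [Real.sqrt_zero] at h2
  refine h2.congr fun k => ?_
  rw [← Real.sqrt_sq (τ.n_nonneg (u k - ⟨x, hxM⟩)), hτ]
  rfl

/-- `‖·‖₂`-limits of a ⋆-subalgebra `S` lie in `S''`.  Proof. `a k → x` in `n`, so also
`(a k)⋆ → x⋆`, and `a k η → x η`, `(a k)⋆ η → x⋆ η` for `η` in the span `D` of `M' ξ`.  For
`η, ζ ∈ D`: `⟪ζ, T (x η)⟫ = lim ⟪ζ, T (a k η)⟫ = lim ⟪(a k)⋆ ζ, T η⟫ = ⟪x⋆ ζ, T η⟫ = ⟪ζ, x (T η)⟫`.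
Density of `D` twice (`Dense.eq_of_inner_right`, `ContinuousLinearMap.ext_on`). -/
theorem comm_of_approx (hξ : IsFaithfulTracialVectorState M ξ) {τ : Tr M.toStarSubalgebra}
    (hτ : ∀ x : M.toStarSubalgebra, τ.n x ^ 2 = traceNormSq ξ x)
    (S : StarSubalgebra ℂ M.toStarSubalgebra) {x : M.toStarSubalgebra}
    (hx : ∀ ε > 0, ∃ a ∈ S, τ.n (x - a) < ε) {T : H →L[ℂ] H}
    (hT : ∀ a ∈ S, T * (a : H →L[ℂ] H) = a * T) : T * (x : H →L[ℂ] H) = x * T := by
  obtain ⟨a, ha, hl⟩ := Tr.exists_lim_of_approx (S := (S : Set M.toStarSubalgebra)) hx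
  have hD := dense_commutant_orbit hξ
  refine ContinuousLinearMap.ext_on hD fun η hη => ?_
  have hη' := Submodule.subset_span (R := ℂ) hη
  refine hD.eq_of_inner_right ℂ fun ζ hζ => ?_
  have h1 : Tendsto (fun k => ⟪ζ, T ((a k : H →L[ℂ] H) η)⟫_ℂ) atTop
      (𝓝 ⟪ζ, T ((x : H →L[ℂ] H) η)⟫_ℂ) :=
    tendsto_const_nhds.inner ((T.continuous.tendsto _).comp (b2_tendsto hξ hτ hη' hl))
  have h2 : Tendsto (fun k => ⟪((star (a k) : M.toStarSubalgebra) : H →L[ℂ] H) ζ, T η⟫_ℂ) atTop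
      (𝓝 ⟪((star x : M.toStarSubalgebra) : H →L[ℂ] H) ζ, T η⟫_ℂ) :=
    (b2_tendsto hξ hτ hζ hl.star).inner tendsto_const_nhds
  have h3 : ∀ y : M.toStarSubalgebra, ⟪((star y : M.toStarSubalgebra) : H →L[ℂ] H) ζ, T η⟫_ℂ =
      ⟪ζ, (y : H →L[ℂ] H) (T η)⟫_ℂ := fun y => by
    rw [StarMemClass.coe_star, ContinuousLinearMap.star_eq_adjoint,
      ContinuousLinearMap.adjoint_inner_left]
  simp only [h3] at h2
  refine tendsto_nhds_unique h1 (h2.congr fun k => ?_)
  have h4 : T ((a k : H →L[ℂ] H) η) = (a k : H →L[ℂ] H) (T η) :=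
    congrArg (fun S : H →L[ℂ] H => S η) (hT _ (ha k))
  rw [h4]

end Crest.Agent.R95
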