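import Crest.Agent.R95.Basic

/-! # rid 95: Pauli decomposition and the Rosenblum norm argument -/

set_option autoImplicit false

namespace Crest.Agent.R95

variable {A : Type*} [CStarAlgebra A]

/-- averaging over the group generated by a symmetry -/
noncomputable def ev (Z y : A) : A := (2⁻¹ : ℂ) • (y + Z * y * Z)

theorem ev_comm {Z : A} (hZ : Z * Z = 1) (y : A) : Z * ev Z y = ev Z y * Z := by
  have h1 : Z * (Z * y * Z) = y * Z := by rw [← mul_assoc, ← mul_assoc, hZ, one_mul]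
  have h2 : Z * y * Z * Z = Z * y := by rw [mul_assoc, hZ, mul_one]
  rw [ev, mul_smul_comm, smul_mul_assoc, mul_add, add_mul, h1, h2, add_comm]

theorem ev_of_comm {Z y : A} (hZ : Z * Z = 1) (h : Z * y = y * Z) : ev Z y = y := by
  rw [ev, h, mul_assoc, hZ, mul_one]; module

theorem ev_comm_of {Z X y : A} (hXZ : X * Z = -(Z * X) ∨ X * Z = Z * X) (h : X * y = y * X) :
    X * ev Z y = ev Z y * X := by
  have h1 : X * (Z * y * Z) = Z * y * Z * X := by
    rcases hXZ with hXZ | hXZ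
    · calc X * (Z * y * Z) = (X * Z) * y * Z := by noncomm_ring
        _ = -(Z * (X * y) * Z) := by rw [hXZ]; noncomm_ring
        _ = -(Z * y * (X * Z)) := by rw [h]; noncomm_ring
        _ = _ := by rw [hXZ]; noncomm_ring
    · calc X * (Z * y * Z) = (X * Z) * y * Z := by noncomm_ring
        _ = Z * (X * y) * Z := by rw [hXZ]; noncomm_ring
        _ = Z * y * (X * Z) := by rw [h]; noncomm_ring
        _ = _ := by rw [hXZ]; noncomm_ring
  rw [ev, mul_smul_comm, smul_mul_assoc, mul_add, add_mul, h1, h]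

theorem ev_add_mul {Z X : A} (hX : X * X = 1) (hXZ : X * Z = -(Z * X)) (y : A) :
    ev Z y + X * ev Z (X * y) = y := by
  have h1 : X * (X * y) = y := by rw [← mul_assoc, hX, one_mul]
  have h2 : X * (Z * (X * y) * Z) = -(Z * y * Z) := by
    calc X * (Z * (X * y) * Z) = (X * Z) * (X * y) * Z := by noncomm_ring
      _ = -(Z * (X * (X * y)) * Z) := by rw [hXZ]; noncomm_ring
      _ = _ := by rw [h1]
  rw [ev, ev, mul_smul_comm, mul_add, h1, h2]; module

theorem ev_mem {Q : StarSubalgebra ℂ A} {Z y : A} (hZ : Z ∈ Q) (hy : y ∈ Q) : ev Z y ∈ Q := by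
  exact Q.smul_mem (add_mem hy (mul_mem (mul_mem hZ hy) hZ)) _

/-- Pauli decomposition -/
theorem pauli {Q : StarSubalgebra ℂ A} {Z X y : A} (hZ : Z * Z = 1) (hX : X * X = 1)
    (hXZ : X * Z = -(Z * X)) (hZQ : Z ∈ Q) (hXQ : X ∈ Q) (hy : y ∈ Q) :
    ∃ y₀ y₁ y₂ y₃ : A, (∀ w ∈ ({y₀, y₁, y₂, y₃} : Set A), w ∈ Q ∧ Z * w = w * Z ∧ X * w = w * X) ∧
      y = y₀ + Z * y₁ + X * y₂ + X * Z * y₃ := by
  have hZX : Z * X = -(X * Z) := by rw [hXZ, neg_neg]
  have key : ∀ w ∈ Q, Z * w = w * Z → ev X w ∈ Q ∧ Z * ev X w = ev X w * Z ∧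
      X * ev X w = ev X w * X := fun w hw h =>
    ⟨ev_mem hXQ hw, ev_comm_of (Or.inl hZX) h, ev_comm hX w⟩
  have hZZ : ∀ w, Z * w = w * Z → Z * (Z * w) = Z * w * Z := fun w h => by rw [mul_assoc, h]
  have m0 := ev_mem hZQ hy
  have m1 := ev_mem hZQ (mul_mem hXQ hy)
  refine ⟨ev X (ev Z y), ev X (Z * ev Z y), ev X (ev Z (X * y)), ev X (Z * ev Z (X * y)), ?_, ?_⟩
  · rintro w (rfl | rfl | rfl | rfl)
    · exact key _ m0 (ev_comm hZ _)
    · exact key _ (mul_mem hZQ m0) (hZZ _ (ev_comm hZ _))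
    · exact key _ m1 (ev_comm hZ _)
    · exact key _ (mul_mem hZQ m1) (hZZ _ (ev_comm hZ _))
  · rw [ev_add_mul hZ hZX, add_assoc, mul_assoc, ← mul_add, ev_add_mul hZ hZX, ev_add_mul hX hXZ]

/-- Rosenblum argument -/
theorem comm_of_comm_add {Z r T : A} (hZ : IsSym Z) (hr : ‖r‖ < 1) (hrZ : Z * r = r * Z)
    (hT : T * (Z + r) = (Z + r) * T) : T * Z = Z * T := by
  set T' := T - Z * T * Z with hT'
  have hZZ := hZ.2
  have h1 : Z * T' = -(T' * Z) := by
    have a : Z * (Z * T * Z) = T * Z := by rw [← mul_assoc, ← mul_assoc, hZZ, one_mul]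
    have b : Z * T * Z * Z = Z * T := by rw [mul_assoc, hZZ, mul_one]
    rw [hT', mul_sub, sub_mul, a, b, neg_sub]
  have h2 : T' * (Z + r) = (Z + r) * T' := by
    have c : Z * (Z + r) = (Z + r) * Z := by rw [mul_add, add_mul, hrZ]
    have : Z * T * Z * (Z + r) = (Z + r) * (Z * T * Z) := by
      calc Z * T * Z * (Z + r) = Z * (T * (Z + r)) * Z := by rw [mul_assoc, c]; noncomm_ring
        _ = (Z * (Z + r)) * T * Z := by rw [hT]; noncomm_ring
        _ = _ := by rw [c]; noncomm_ring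
    rw [hT', sub_mul, mul_sub, hT, this]
  have h3 : (2 : ℂ) • (T' * Z) = r * T' - T' * r := by
    rw [mul_add, add_mul, h1] at h2
    rw [two_smul, eq_sub_iff_add_eq, add_assoc, h2]; abel
  have h4 : ‖T' * Z‖ = ‖T'‖ := CStarRing.norm_mul_mem_unitary _ hZ.mem_unitary
  have h5 : 2 * ‖T'‖ ≤ ‖r‖ * ‖T'‖ + ‖T'‖ * ‖r‖ := by
    calc 2 * ‖T'‖ = ‖(2 : ℂ) • (T' * Z)‖ := by rw [norm_smul, h4]; simp
      _ ≤ _ := by
        rw [h3]; exact (norm_sub_le _ _).trans (add_le_add (norm_mul_le _ _) (norm_mul_le _ _))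
  have h6 : T' = 0 := by
    by_contra h0
    have := norm_pos_iff.mpr h0
    nlinarith
  have h7 : T = Z * T * Z := sub_eq_zero.mp h6
  calc T * Z = Z * T * Z * Z := by rw [← h7]
    _ = Z * T := by rw [mul_assoc, hZZ, mul_one]

/-- one self-adjoint element remembers a sequence of commuting symmetries -/
theorem exists_encode (Z : ℕ → A) (hZ : ∀ i, IsSym (Z i)) (hc : ∀ i j, Z i * Z j = Z j * Z i) :
    ∃ a : A, star a = a ∧ ‖a‖ ≤ 1 / 2 ∧ (∀ T, (∀ i, T * Z i = Z i * T) → T * a = a * T) ∧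
      (∀ T, T * a = a * T → ∀ i, T * Z i = Z i * T) ∧
      ∀ Q : StarSubalgebra ℂ A, IsClosed (Q : Set A) → (∀ i, Z i ∈ Q) → a ∈ Q := by
  let c : ℕ → ℂ := fun i => (3⁻¹ : ℂ) ^ (i + 1)
  have hc' : ∀ i, ‖c i‖ = 3⁻¹ * (3⁻¹ : ℝ) ^ i := fun i => by simp [c, pow_succ, mul_comm]
  have hb : ∀ m i, ‖c i • Z (i + m)‖ ≤ 3⁻¹ * (3⁻¹ : ℝ) ^ i := fun m i => by
    rw [norm_smul, hc']
    exact mul_le_of_le_one_right (by positivity) (hZ _).norm_le
  have hg : HasSum (fun i : ℕ => 3⁻¹ * (3⁻¹ : ℝ) ^ i) (1 / 2) := by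
    have := (hasSum_geometric_of_lt_one (r := (3⁻¹ : ℝ)) (by norm_num) (by norm_num)).mul_left 3⁻¹
    rwa [show (3⁻¹ * (1 - 3⁻¹)⁻¹ : ℝ) = 1 / 2 by norm_num] at this
  have hs : ∀ m, Summable fun i => c i • Z (i + m) := fun m =>
    .of_norm_bounded hg.summable (hb m)
  let a : ℕ → A := fun m => ∑' i, c i • Z (i + m)
  have ha : ∀ m, ‖a m‖ ≤ 1 / 2 := fun m => tsum_of_norm_bounded hg (hb m)
  have hcomm : ∀ m T, (∀ i, T * Z i = Z i * T) → T * a m = a m * T := fun m T hT => by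
    rw [← (hs m).tsum_mul_left, ← (hs m).tsum_mul_right]
    exact tsum_congr fun i => by rw [mul_smul_comm, smul_mul_assoc, hT]
  have hrec : ∀ m, a m = (3⁻¹ : ℂ) • (Z m + a (m + 1)) := fun m => by
    have := (hs m).tsum_eq_zero_add
    rw [smul_add, ← (hs (m + 1)).tsum_const_smul]
    refine this.trans ?_
    congr 1
    · simp [c]
    · exact tsum_congr fun i => by
        rw [smul_smul, show i + 1 + m = i + (m + 1) by ring]; simp [c, pow_succ, mul_comm]
  refine ⟨a 0, ?_, ha 0, hcomm 0, fun T hT => ?_, fun Q hQ hZQ => ?_⟩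
  · rw [tsum_star]
    exact tsum_congr fun i => by rw [star_smul, (hZ _).1]; simp [c]
  · have step : ∀ m, T * a m = a m * T → T * Z m = Z m * T ∧ T * a (m + 1) = a (m + 1) * T := by
      intro m hm
      rw [hrec, mul_smul_comm, smul_mul_assoc] at hm
      have hm' := smul_right_injective A (show (3⁻¹ : ℂ) ≠ 0 by norm_num) hm
      have h1 := comm_of_comm_add (hZ m) ((ha (m + 1)).trans_lt (by norm_num))
        (hcomm _ _ (hc m)) hm'
      refine ⟨h1, ?_⟩
      rw [mul_add, add_mul, h1] at hm'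
      exact add_left_cancel hm'
    have all : ∀ m, T * a m = a m * T := fun m => by
      induction m with
      | zero => exact hT
      | succ m ih => exact (step m ih).2
    exact fun i => (step i (all i)).1
  · exact hQ.mem_of_tendsto (hs 0).hasSum.tendsto_sum_nat (.of_forall fun k =>
      sum_mem fun i _ => Q.smul_mem (hZQ _) _)

end Crest.Agent.R95
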