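import Crest.Agent.R95.Halve
import Crest.Agent.R95.Pauli

/-! # rid 95: a Pauli pair that contracts a given element -/

set_option autoImplicit false

open Filter Topology

namespace Crest.Agent.R95

variable {A : Type*} [CStarAlgebra A] {τ : Tr A}

/-- **Anticommuting partner.** Proof. `exists_maximal_psym` for the partial symmetries `X` with
`X Z = - Z X` (contains `0`, closed).  Let `X` be maximal, `p = 1 - X X` (commutes with `Z`),
`e = p (1+Z)/2`, `f = p (1-Z)/2`.  `τ (X X Z) = -τ (X Z X) = -τ (X X Z)`, so it is `0`, and `τ e - τ f = τ (p Z) = 0`.  If `p ≠ 0`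
then `e, f ≠ 0` (faithfulness), `factor_lemma` gives `y = f a e ≠ 0`; `b = y + y⋆` is
self-adjoint, `f b e = y ≠ 0`, `Z b = - b Z`, `X b = 0`.  `s` from `exists_sign` for `b` is a
partial symmetry with `X s = 0`, `Z s = - s Z`, `s ≠ 0` (`s s b = b`), and `X + s` contradicts
maximality (`IsPSym.add`). -/
theorem exists_anticomm (h : Setup τ ⊤) {Z : A} (hZ : IsSym Z) (hZ0 : τ Z = 0) :
    ∃ X, IsSym X ∧ X * Z = -(Z * X) := by
  obtain ⟨X, ⟨hX, hXZ⟩, hmax⟩ := exists_maximal_psym h.W {X | IsPSym X ∧ X * Z = -(Z * X)}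
    (fun _ hv => hv.1) ⟨0, ⟨by simp, by simp⟩, by simp⟩ fun v w hv hl hw =>
      ⟨hw, h.W.eq_of_lim (hl.mul_const Z) (hl.const_mul Z).neg fun k => (hv k).2⟩
  refine ⟨X, ⟨hX.1, ?_⟩, hXZ⟩
  by_contra hne
  obtain ⟨p, hp⟩ : ∃ p, p = 1 - X * X := ⟨_, rfl⟩
  have hpp : IsStarProjection p := hp ▸ hX.proj.one_sub
  have hp0 : p ≠ 0 := fun e => hne (by rw [hp, sub_eq_zero] at e; exact e.symm)
  have hτp : τ p ≠ 0 := fun e => by simpa [e] using h.W.proj_pos hpp hp0
  have hZX : Z * X = -(X * Z) := by rw [hXZ, neg_neg]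
  have hpZ : Z * p = p * Z := by
    have : Z * (X * X) = X * X * Z := by
      rw [← mul_assoc, hZX, neg_mul, mul_assoc X Z X, hZX]; noncomm_ring
    rw [hp, mul_sub, sub_mul, this, mul_one, one_mul]
  have hXp : X * p = 0 := by rw [hp, mul_sub, ← mul_assoc, hX.2, mul_one, sub_self]
  have hτ : τ (p * Z) = 0 := by
    have e1 : τ (X * X * Z) = -τ (X * X * Z) := by
      conv_lhs => rw [mul_assoc, hXZ, mul_neg, map_neg, ← mul_assoc, τ.comm3]
    have e2 : τ (X * X * Z) = 0 := by linear_combination e1 / 2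
    rw [hp, sub_mul, one_mul, map_sub, hZ0, e2, sub_zero]
  have hE : p * (1 + Z) ≠ 0 := fun e => hτp (by
    have := congrArg τ e
    rwa [mul_add, mul_one, map_add, hτ, add_zero, map_zero] at this)
  have hF : p * (1 - Z) ≠ 0 := fun e => hτp (by
    have := congrArg τ e
    rwa [mul_sub, mul_one, map_sub, hτ, sub_zero, map_zero] at this)
  obtain ⟨a, ha⟩ : ∃ a, p * (1 - Z) * a * (p * (1 + Z)) ≠ 0 := by
    by_contra hc
    push Not at hc
    exact (factor_lemma h fun a _ => hc a).elim hF hE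
  obtain ⟨y, hy⟩ : ∃ y, y = p * (1 - Z) * a * (p * (1 + Z)) := ⟨_, rfl⟩
  rw [← hy] at ha
  have e1 : Z * y = -y := by
    have : Z * (p * (1 - Z)) = -(p * (1 - Z)) := by
      rw [← mul_assoc, hpZ, mul_assoc, mul_sub, hZ.2]; noncomm_ring
    rw [hy, ← mul_assoc Z, ← mul_assoc Z, this]; noncomm_ring
  have e2 : y * Z = y := by
    have : p * (1 + Z) * Z = p * (1 + Z) := by rw [mul_assoc, add_mul, hZ.2, one_mul, add_comm]
    rw [hy, mul_assoc _ _ Z, this]
  have e3 : X * y = 0 := by rw [hy, ← mul_assoc X, ← mul_assoc X, ← mul_assoc X, hXp]; simp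
  have e4 : y * X = 0 := by
    have h1 : p * X = 0 := by rw [hp, sub_mul, hX.2, one_mul, sub_self]
    have : p * (1 + Z) * X = 0 := by
      rw [mul_add, mul_one, ← hpZ, add_mul, mul_assoc, h1]; simp
    rw [hy, mul_assoc _ _ X, this, mul_zero]
  have e5 : star y * Z = -star y := by simpa [hZ.1] using congrArg star e1
  have e6 : Z * star y = star y := by simpa [hZ.1] using congrArg star e2
  have e7 : X * star y = 0 := by simpa [hX.1] using congrArg star e4
  obtain ⟨s, hs, hs1, -, -, hs2, -, hs3⟩ := exists_sign h.W (a := y + star y) (by simp [add_comm])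
  have f1 : X * s = 0 := hs2 X (by rw [mul_add, e3, e7, add_zero])
  have f2 : Z * s = -(s * Z) := hs3 Z (by rw [mul_add, add_mul, e1, e2, e5, e6]; abel)
  have f3 := hmax s ⟨hX.add hs f1, by rw [add_mul, mul_add, hXZ, f2]; abel⟩ f1
  rw [f3, zero_mul, zero_mul] at hs1
  have f4 : (y + star y) * Z = 0 := by rw [← hs1, zero_mul]
  rw [add_mul, e2, e5] at f4
  have f5 : (2 : ℂ) • y = 0 := by
    rw [two_smul, add_neg_eq_zero] at *
    rw [hs1, ← f4]
  exact ha ((smul_eq_zero.1 f5).resolve_left two_ne_zero)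

theorem anti_n_conj {Z : A} (hZ : IsSym Z) (a : A) : τ.n (Z * a * Z) = τ.n a := by
  rw [τ.n_mul_unitary hZ.mem_unitary, τ.n_unitary_mul hZ.mem_unitary]

theorem anti_n_ev {Z : A} (hZ : IsSym Z) (a : A) : τ.n (ev Z a) ≤ τ.n a := by
  have h2 := map_add_le_add τ.n a (Z * a * Z)
  rw [anti_n_conj hZ] at h2
  rw [ev, map_smul_eq_mul]
  simp only [norm_inv, Complex.norm_ofNat]
  linarith

/-- **One step, absolute form.** Proof. `split` with `q = 1`, `F = ∅`, `Y = y` gives `f` of trace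
`1/2`; `Z = 2f - 1`, `ev Z y = f y f + (1-f) y (1-f)` and
`n y² = n (ev Z y)² + n (f y (1-f))² + n ((1-f) y f)²`; `X` from `exists_anticomm`;
`n (ev X w) ≤ n w`. -/
theorem pauli_step_top (h : Setup τ ⊤) {y : A} (hy : τ y = 0) :
    ∃ Z X, IsSym Z ∧ IsSym X ∧ X * Z = -(Z * X) ∧
      τ.n (ev X (ev Z y)) ^ 2 ≤ 127 / 128 * τ.n y ^ 2 := by
  obtain ⟨f, -, hf, -, hf2, -, hf3⟩ := split h (q := 1) (IsStarProjection.one A)
    StarSubalgebra.mem_top ∅ one_pos (one_mul y) (mul_one y) hy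
  have hZ := isSym_of_proj hf
  obtain ⟨X, hX, hXZ⟩ := exists_anticomm h hZ (by simp [hf2])
  refine ⟨_, X, hZ, hX, hXZ, (pow_le_pow_left₀ (τ.n_nonneg _) (anti_n_ev hX _) 2).trans ?_⟩
  have h1 := τ.parallelogram y (((2 : ℂ) • f - 1) * y * ((2 : ℂ) • f - 1))
  rw [anti_n_conj hZ] at h1
  have h2 : y - ((2 : ℂ) • f - 1) * y * ((2 : ℂ) • f - 1) =
      (2 : ℂ) • (f * (y * (1 - f)) + (1 - f) * (y * f)) := by
    simp only [sub_mul, mul_sub, smul_mul_assoc, mul_smul_comm, one_mul, mul_one, mul_assoc]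
    module
  rw [h2, map_smul_eq_mul, mul_pow, τ.n_add_mul_sq hf (by
    rw [mul_sub, hf.isIdempotentElem.eq, mul_one, sub_self]), ← mul_assoc, ← mul_assoc] at h1
  rw [ev, map_smul_eq_mul, mul_pow]
  simp only [norm_inv, Complex.norm_ofNat] at h1 ⊢
  linarith

end Crest.Agent.R95
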