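import Crest.Agent.R95.Near

/-! # rid 95: generating unitaries are dense (abstract form) -/

set_option autoImplicit false

open Filter Topology

namespace Crest.Agent.R95

variable {A : Type*} [CStarAlgebra A] {τ : Tr A}

/-- Proof. `x = C • (x₁ + I • x₂)` with self-adjoint contractions `xᵢ`, `C = ‖x‖ + 1`; apply
`near_dense_sa` to `x₁`, then `near_open`, then `near_dense_sa` to `x₂` near the first unitary. -/
theorem near_dense {P : StarSubalgebra ℂ A} (h : Setup τ P) (x : A) {ε : ℝ} (hε : 0 < ε) {u₀ : A}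
    (hu₀ : u₀ ∈ unitary A) {δ : ℝ} (hδ : 0 < δ) :
    ∃ u ∈ unitary A, τ.n (u - u₀) < δ ∧ u ∈ Near τ P x ε := by
  set C : ℝ := ‖x‖ + 1 with hC
  have hC0 : 0 < C := by positivity
  set x₁ : A := ((2 * C : ℝ) : ℂ)⁻¹ • (x + star x) with hx₁
  set x₂ : A := (((2 * C : ℝ) : ℂ)⁻¹ * Complex.I) • (star x - x) with hx₂
  have hn : ‖((2 * C : ℝ) : ℂ)⁻¹‖ = (2 * C)⁻¹ := by
    rw [norm_inv, Complex.norm_real, Real.norm_of_nonneg (by positivity)]
  have hs₁ : star x₁ = x₁ := by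
    rw [hx₁, star_smul, star_add, star_star, add_comm]
    congr 1
    rw [← Complex.ofReal_inv]; exact Complex.conj_ofReal _
  have hs₂ : star x₂ = x₂ := by
    rw [hx₂, star_smul, star_sub, star_star, ← neg_sub (star x) x, smul_neg, ← neg_smul]
    congr 1
    rw [← Complex.ofReal_inv, Complex.star_def, map_mul, Complex.conj_ofReal, Complex.conj_I]
    ring
  have hb : ∀ y : A, ‖y‖ ≤ ‖x‖ + ‖x‖ → (2 * C)⁻¹ * ‖y‖ ≤ 1 := by
    intro y hy
    rw [inv_mul_le_iff₀ (by positivity)]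
    linarith
  have hn₁ : ‖x₁‖ ≤ 1 := by
    rw [hx₁, norm_smul, hn]
    exact hb _ ((norm_add_le _ _).trans (by rw [norm_star]))
  have hn₂ : ‖x₂‖ ≤ 1 := by
    rw [hx₂, norm_smul, norm_mul, hn, Complex.norm_I, mul_one]
    exact hb _ ((norm_sub_le _ _).trans (by rw [norm_star]))
  have hx : x = (C : ℂ) • (x₁ + Complex.I • x₂) := by
    have hC' : (C : ℂ) ≠ 0 := by exact_mod_cast hC0.ne'
    have e1 : (C : ℂ) * ((2 * C : ℝ) : ℂ)⁻¹ = 2⁻¹ := by push_cast; field_simp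
    have e2 : (C : ℂ) * (Complex.I * (((2 * C : ℝ) : ℂ)⁻¹ * Complex.I)) = -2⁻¹ := by
      rw [← e1]
      linear_combination (C : ℂ) * ((2 * C : ℝ) : ℂ)⁻¹ * Complex.I_mul_I
    rw [hx₁, hx₂, smul_add, smul_smul, smul_smul, smul_smul, mul_assoc, e1, e2]
    module
  have hε' : 0 < ε / (2 * C) := by positivity
  obtain ⟨u₁, hu₁, hd₁, hN₁⟩ := near_dense_sa h hs₁ hn₁ hε' hu₀ hδ
  obtain ⟨δ', hδ', hopen⟩ := near_open τ P hN₁
  obtain ⟨u, hu, hd, a₂, ha₂, hN₂⟩ := near_dense_sa h hs₂ hn₂ hε' hu₁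
    (lt_min hδ' (sub_pos.2 hd₁))
  obtain ⟨a₁, ha₁, hN₁'⟩ := hopen u hu (hd.trans_le (min_le_left _ _))
  refine ⟨u, hu, ?_, (C : ℂ) • (a₁ + Complex.I • a₂),
    SMulMemClass.smul_mem _ (add_mem ha₁ (SMulMemClass.smul_mem _ ha₂)), ?_⟩
  · have := τ.n_sub_le u u₁ u₀
    have := hd.trans_le (min_le_right _ _)
    linarith
  · have e : x - (C : ℂ) • (a₁ + Complex.I • a₂) =
        (C : ℂ) • ((x₁ - a₁) + Complex.I • (x₂ - a₂)) := by
      conv_lhs => rw [hx]
      module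
    rw [e, map_smul_eq_mul, Complex.norm_real, Real.norm_of_nonneg hC0.le]
    have h1 := map_add_le_add τ.n (x₁ - a₁) (Complex.I • (x₂ - a₂))
    rw [map_smul_eq_mul, Complex.norm_I, one_mul] at h1
    calc C * τ.n (x₁ - a₁ + Complex.I • (x₂ - a₂)) < C * (ε / (2 * C) + ε / (2 * C)) := by
          gcongr; linarith
      _ = ε := by field_simp; ring

/-- Proof. Triangle inequality. -/
theorem gen_iff (τ : Tr A) (P : StarSubalgebra ℂ A) {x : ℕ → A}
    (hx : ∀ y, ∀ ε > 0, ∃ j, τ.n (y - x j) < ε) (u : A) :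
    Gen τ P u ↔ ∀ k : ℕ, u ∈ Near τ P (x k.unpair.1) (1 / ((k.unpair.2 : ℝ) + 1)) := by
  refine ⟨fun hg k => hg _ _ (by positivity), fun hk y ε hε => ?_⟩
  obtain ⟨j, hj⟩ := hx y (ε / 2) (by positivity)
  obtain ⟨m, hm⟩ := exists_nat_one_div_lt (show 0 < ε / 2 by positivity)
  obtain ⟨a, ha, h⟩ := hk (Nat.pair j m)
  rw [Nat.unpair_pair] at h
  refine ⟨a, ha, ?_⟩
  have := τ.n_sub_le y (x j) a
  simp only at h
  linarith

/-- the unitary group with the `‖·‖₂`-pseudometric -/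
@[nolint unusedArguments]
def BaU (_ : Tr A) : Type _ := {u : A // u ∈ unitary A}

noncomputable instance (τ : Tr A) : PseudoMetricSpace (BaU τ) where
  dist u v := τ.n (u.1 - v.1)
  dist_self u := by simp
  dist_comm u v := map_sub_rev _ _ _
  dist_triangle u v w := τ.n_sub_le _ _ _

lemma ba_dist (u v : BaU τ) : dist u v = τ.n (u.1 - v.1) := rfl

lemma ba_complete (h : τ.IsW) : CompleteSpace (BaU τ) := by
  refine Metric.complete_of_cauchySeq_tendsto fun u hu => ?_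
  rw [Metric.cauchySeq_iff] at hu
  obtain ⟨x, -, hx⟩ := h.complete (fun k => (u k).1) 1
    (fun k => norm_le_one_of_unitary (u k).2) fun ε hε => hu ε hε
  have h1 : star x * x = 1 :=
    h.eq_of_lim (hx.star.mul hx (C := 1) fun k => by
      rw [norm_star]; exact norm_le_one_of_unitary (u k).2) (Tr.Lim.const 1) fun k => (u k).2.1
  have h2 : x * star x = 1 :=
    h.eq_of_lim (hx.mul hx.star (C := 1) fun k => norm_le_one_of_unitary (u k).2)
      (Tr.Lim.const 1) fun k => (u k).2.2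
  exact ⟨⟨x, h1, h2⟩, tendsto_iff_dist_tendsto_zero.2 hx⟩

/-- **Baire.** Proof. Make a type synonym of `unitary A` a `PseudoMetricSpace` with
`dist u v = τ.n (u - v)`; it is complete (`IsW.complete`, a limit of unitaries is unitary by
`Lim.mul`, `Lim.star`, `IsW.eq_of_lim`; `Metric.complete_of_cauchySeq_tendsto`), hence Baire;
`dense_iInter_of_isOpen` with `near_open`, `near_dense`, `gen_iff`. -/
theorem gen_dense {P : StarSubalgebra ℂ A} (h : Setup τ P) (hsep : τ.Sep) {u₀ : A}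
    (hu₀ : u₀ ∈ unitary A) {δ : ℝ} (hδ : 0 < δ) :
    ∃ u ∈ unitary A, τ.n (u - u₀) < δ ∧ Gen τ P u := by
  obtain ⟨x, hx⟩ := hsep
  have := ba_complete h.W
  have hd : Dense (⋂ k : ℕ, {u : BaU τ |
      u.1 ∈ Near τ P (x k.unpair.1) (1 / ((k.unpair.2 : ℝ) + 1))}) := by
    refine dense_iInter_of_isOpen (fun k => ?_) fun k => ?_
    · rw [Metric.isOpen_iff]
      intro u hu
      obtain ⟨δ', hδ', hopen⟩ := near_open τ P hu
      exact ⟨δ', hδ', fun v hv => hopen v.1 v.2 hv⟩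
    · rw [Metric.dense_iff]
      intro u r hr
      obtain ⟨v, hv, hvu, hN⟩ := near_dense h (x k.unpair.1)
        (show 0 < 1 / ((k.unpair.2 : ℝ) + 1) by positivity) u.2 hr
      exact ⟨⟨v, hv⟩, hvu, hN⟩
  obtain ⟨v, hv, hN⟩ := Metric.dense_iff.1 hd ⟨u₀, hu₀⟩ δ hδ
  exact ⟨v.1, v.2, hv, (gen_iff τ P hx v.1).2 fun k => Set.mem_iInter.1 hN k⟩

end Crest.Agent.R95
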