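import Mathlib

/-!
# rid 95 (generator problem for II₁ factors): tracial states on C⋆-algebras

`Tr A` is a tracial state on a unital C⋆-algebra `A`; `τ.n` is the trace 2-seminorm.
`τ.IsW` says that `τ` is faithful and norm-bounded sets are complete for `τ.n` (this is what we use of
"finite von Neumann algebra with faithful normal trace").  `τ.Closed Q` says that the
⋆-subalgebra `Q` is `τ.n`-closed (a von Neumann subalgebra).  No order on `A` is used anywhere.
Everything in this file is proved.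
-/

set_option autoImplicit false

open Filter Topology
open scoped ComplexConjugate InnerProductSpace

namespace Crest.Agent.R95

/-- A tracial state. -/
structure Tr (A : Type*) [CStarAlgebra A] where
  toLin : A →ₗ[ℂ] ℂ
  one' : toLin 1 = 1
  comm' : ∀ x y, toLin (x * y) = toLin (y * x)
  star' : ∀ x, toLin (star x) = conj (toLin x)
  nonneg' : ∀ x, 0 ≤ (toLin (star x * x)).re

variable {A : Type*} [CStarAlgebra A]

noncomputable instance : CoeFun (Tr A) (fun _ => A → ℂ) := ⟨fun τ => τ.toLin⟩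

/-- symmetry: self-adjoint unitary -/
def IsSym (s : A) : Prop := star s = s ∧ s * s = 1

/-- partial symmetry: self-adjoint partial isometry -/
def IsPSym (v : A) : Prop := star v = v ∧ v * v * v = v

/-- `P` is irreducible in `A`: only scalars commute with `P`. -/
def Irred (P : StarSubalgebra ℂ A) : Prop :=
  ∀ z : A, (∀ y ∈ P, z * y = y * z) → ∃ c : ℂ, z = c • (1 : A)

theorem IsSym.mem_unitary {s : A} (h : IsSym s) : s ∈ unitary A :=
  ⟨by rw [h.1, h.2], by rw [h.1, h.2]⟩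

theorem norm_le_one_of_unitary {u : A} (h : u ∈ unitary A) : ‖u‖ ≤ 1 := by
  rcases subsingleton_or_nontrivial A with hA | hA
  · simp [Subsingleton.elim u 0]
  · exact (CStarRing.norm_of_mem_unitary h).le

theorem IsSym.norm_le {s : A} (h : IsSym s) : ‖s‖ ≤ 1 := norm_le_one_of_unitary h.mem_unitary

theorem IsSym.isPSym {s : A} (h : IsSym s) : IsPSym s := ⟨h.1, by rw [h.2, one_mul]⟩

theorem IsPSym.proj {v : A} (h : IsPSym v) : IsStarProjection (v * v) :=
  ⟨by rw [IsIdempotentElem, ← mul_assoc, h.2], by rw [IsSelfAdjoint, star_mul, h.1]⟩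

theorem IsPSym.norm_le {v : A} (h : IsPSym v) : ‖v‖ ≤ 1 := by
  have h1 : ‖v * v‖ ≤ 1 := h.proj.norm_le
  have h2 : ‖star v * v‖ = ‖v‖ * ‖v‖ := CStarRing.norm_star_mul_self
  rw [h.1] at h2
  nlinarith [norm_nonneg v]

theorem isPSym_of_proj {p : A} (h : IsStarProjection p) : IsPSym p :=
  ⟨h.isSelfAdjoint, by rw [h.isIdempotentElem.eq, h.isIdempotentElem.eq]⟩

theorem IsPSym.add {v w : A} (hv : IsPSym v) (hw : IsPSym w) (h : v * w = 0) : IsPSym (v + w) := by
  have h' : w * v = 0 := by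
    have := congrArg star h
    rwa [star_mul, hv.1, hw.1, star_zero] at this
  refine ⟨by rw [star_add, hv.1, hw.1], ?_⟩
  have e : (v + w) * (v + w) = v * v + w * w := by
    rw [add_mul, mul_add, mul_add, h, h', add_zero, zero_add]
  rw [e, add_mul, mul_add, mul_add, hv.2, hw.2, mul_assoc v v w, h, mul_assoc w w v, h']
  simp

/-- the projection `(1+s)/2` of a symmetry -/
theorem IsSym.proj {s : A} (h : IsSym s) : IsStarProjection ((2⁻¹ : ℂ) • (1 + s)) := by
  refine ⟨?_, ?_⟩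
  · rw [IsIdempotentElem, smul_mul_smul_comm, add_mul, mul_add, mul_add, h.2, one_mul, one_mul,
      mul_one]
    module
  · rw [IsSelfAdjoint, star_smul, star_add, star_one, h.1]; simp

/-- the symmetry `2p-1` of a projection -/
theorem isSym_of_proj {p : A} (h : IsStarProjection p) : IsSym ((2 : ℂ) • p - 1) := by
  refine ⟨?_, ?_⟩
  · rw [star_sub, star_smul, star_one, h.isSelfAdjoint.star_eq]; simp
  · rw [sub_mul, mul_sub, mul_sub, smul_mul_smul_comm, h.isIdempotentElem.eq, one_mul, mul_one,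
      one_mul]
    module

/-- `p * q = q` for projections means `q ≤ p`; then also `q * p = q`. -/
theorem proj_mul_comm {p q : A} (hp : IsStarProjection p) (hq : IsStarProjection q)
    (h : p * q = q) : q * p = q := by
  have := congrArg star h
  rwa [star_mul, hp.isSelfAdjoint.star_eq, hq.isSelfAdjoint.star_eq] at this

theorem proj_sub {p q : A} (hp : IsStarProjection p) (hq : IsStarProjection q)
    (h : p * q = q) : IsStarProjection (p - q) := by
  refine ⟨?_, hp.isSelfAdjoint.sub hq.isSelfAdjoint⟩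
  rw [IsIdempotentElem, sub_mul, mul_sub, mul_sub, hp.isIdempotentElem.eq, hq.isIdempotentElem.eq,
    h, proj_mul_comm hp hq h]
  simp

theorem proj_add {p q : A} (hp : IsStarProjection p) (hq : IsStarProjection q)
    (h : p * q = 0) : IsStarProjection (p + q) := hp.add hq h

namespace Tr

variable (τ : Tr A)

@[simp] theorem map_one : τ 1 = 1 := τ.one'
theorem comm (x y : A) : τ (x * y) = τ (y * x) := τ.comm' x y
theorem map_star (x : A) : τ (star x) = conj (τ x) := τ.star' x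
theorem comm3 (x y z : A) : τ (x * y * z) = τ (z * x * y) := by rw [τ.comm, mul_assoc]

include τ in
theorem nontrivial : Nontrivial A := by
  refine ⟨⟨1, 0, fun h => ?_⟩⟩
  have := τ.map_one
  rw [h, map_zero] at this
  exact zero_ne_one this

theorem im_of_sa {x : A} (hx : star x = x) : (τ x).im = 0 := by
  have := τ.map_star x
  rw [hx] at this
  exact Complex.conj_eq_iff_im.mp this.symm

theorem eq_re_of_sa {x : A} (hx : star x = x) : τ x = ((τ x).re : ℂ) :=
  Complex.ext (by simp) (by simp [τ.im_of_sa hx])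

/-- `A` with the trace inner product `⟪x, y⟫ = τ (x⋆ y)` (a type synonym). -/
@[nolint unusedArguments]
def L2 (_ : Tr A) : Type _ := A

instance : AddCommGroup τ.L2 := inferInstanceAs (AddCommGroup A)
instance : Module ℂ τ.L2 := inferInstanceAs (Module ℂ A)

/-- identity map `A → τ.L2` -/
noncomputable def toL2 : A ≃ₗ[ℂ] τ.L2 := LinearEquiv.refl ℂ _

/-- the pre-inner product -/
noncomputable abbrev core : PreInnerProductSpace.Core ℂ τ.L2 where
  inner a b := τ (star (τ.toL2.symm a) * τ.toL2.symm b)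
  conj_inner_symm a b := by rw [← τ.map_star, star_mul, star_star]
  re_inner_nonneg a := τ.nonneg' _
  add_left _ _ _ := by rw [map_add, star_add, add_mul, map_add]
  smul_left a b r := by rw [map_smul, star_smul, smul_mul_assoc, map_smul]; rfl

noncomputable instance : SeminormedAddCommGroup τ.L2 :=
  InnerProductSpace.Core.toSeminormedAddCommGroup (c := τ.core)
noncomputable instance : InnerProductSpace ℂ τ.L2 := InnerProductSpace.ofCore τ.core

theorem inner_toL2 (x y : A) : ⟪τ.toL2 x, τ.toL2 y⟫_ℂ = τ (star x * y) := rfl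

/-- the trace 2-seminorm `‖x‖₂ = √τ(x⋆x)`; use the `Seminorm` API (`map_add_le_add`,
`map_smul_eq_mul`, `map_neg_eq_map`, `map_sub_rev`, `apply_nonneg`, `map_sub_le_add`, …). -/
noncomputable def n : Seminorm ℂ A := (normSeminorm ℂ τ.L2).comp τ.toL2.toLinearMap

theorem n_eq_norm (x : A) : τ.n x = ‖τ.toL2 x‖ := rfl

theorem n_nonneg (x : A) : 0 ≤ τ.n x := apply_nonneg _ _

theorem n_sq (x : A) : τ.n x ^ 2 = (τ (star x * x)).re := by
  rw [n_eq_norm, @norm_sq_eq_re_inner ℂ]; rfl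

theorem star_mul_self (x : A) : τ (star x * x) = ((τ.n x ^ 2 : ℝ) : ℂ) := by
  rw [n_sq]; exact τ.eq_re_of_sa (by simp)

theorem n_star (x : A) : τ.n (star x) = τ.n x := by
  rw [← sq_eq_sq₀ (τ.n_nonneg _) (τ.n_nonneg _), n_sq, n_sq, star_star, τ.comm]

theorem n_sq_of_sa {x : A} (hx : star x = x) : τ.n x ^ 2 = (τ (x * x)).re := by rw [n_sq, hx]

theorem norm_star_mul_le (x y : A) : ‖τ (star x * y)‖ ≤ τ.n x * τ.n y :=
  norm_inner_le_norm (𝕜 := ℂ) (τ.toL2 x) (τ.toL2 y)

/-- Cauchy–Schwarz -/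
theorem norm_mul_le (x y : A) : ‖τ (x * y)‖ ≤ τ.n x * τ.n y := by
  simpa [n_star] using τ.norm_star_mul_le (star x) y

theorem n_add_sq (x y : A) :
    τ.n (x + y) ^ 2 = τ.n x ^ 2 + 2 * (τ (star x * y)).re + τ.n y ^ 2 := by
  rw [n_eq_norm, map_add, @norm_add_sq ℂ]; rfl

theorem n_sub_sq (x y : A) :
    τ.n (x - y) ^ 2 = τ.n x ^ 2 - 2 * (τ (star x * y)).re + τ.n y ^ 2 := by
  rw [n_eq_norm, map_sub, @norm_sub_sq ℂ]; rfl

theorem parallelogram (x y : A) :
    τ.n (x + y) ^ 2 + τ.n (x - y) ^ 2 = 2 * (τ.n x ^ 2 + τ.n y ^ 2) := by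
  rw [n_add_sq, n_sub_sq]; ring

theorem n_add_sq_of_orth {x y : A} (h : τ (star x * y) = 0) :
    τ.n (x + y) ^ 2 = τ.n x ^ 2 + τ.n y ^ 2 := by
  rw [n_add_sq, h]; simp

theorem n_sub_le (x y z : A) : τ.n (x - z) ≤ τ.n (x - y) + τ.n (y - z) := by
  simpa using map_add_le_add τ.n (x - y) (y - z)

@[simp] theorem n_one : τ.n 1 = 1 := by
  have := τ.n_sq 1
  simp only [star_one, mul_one, map_one, Complex.one_re] at this
  nlinarith [τ.n_nonneg 1]

theorem norm_le_n (x : A) : ‖τ x‖ ≤ τ.n x := by simpa using τ.norm_mul_le x 1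

/-- positivity on `cfc f a` for `f ≥ 0` on the spectrum, also conjugated -/
theorem conj_cfc_nonneg (f : ℝ → ℝ) (a x : A) (hf : ∀ t ∈ spectrum ℝ a, 0 ≤ f t) :
    0 ≤ (τ (star x * cfc f a * x)).re := by
  refine cfc_cases (fun b => 0 ≤ (τ (star x * b * x)).re) a f (by simp) fun hc ha => ?_
  have e : cfc f a = star (cfc (fun t => √(f t)) a) * cfc (fun t => √(f t)) a := by
    rw [IsSelfAdjoint.cfc.star_eq, ← cfc_mul _ _ a (by fun_prop) (by fun_prop)]
    exact cfc_congr fun t ht => (Real.mul_self_sqrt (hf t ht)).symm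
  rw [← cfc_apply f a, e]
  have := τ.nonneg' (cfc (fun t => √(f t)) a * x)
  simpa [mul_assoc] using this

theorem cfc_nonneg (f : ℝ → ℝ) (a : A) (hf : ∀ t ∈ spectrum ℝ a, 0 ≤ f t) :
    0 ≤ (τ (cfc f a)).re := by simpa using τ.conj_cfc_nonneg f a 1 hf

theorem n_mul_le (a x : A) : τ.n (a * x) ≤ ‖a‖ * τ.n x := by
  have := τ.nontrivial
  have hb : IsSelfAdjoint (star a * a) := IsSelfAdjoint.star_mul_self a
  have h := τ.conj_cfc_nonneg (fun t => ‖a‖ ^ 2 - t) (star a * a) x fun t ht => by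
    have := spectrum.norm_le_norm_of_mem ht
    rw [CStarRing.norm_star_mul_self, Real.norm_eq_abs] at this
    nlinarith [le_abs_self t]
  rw [cfc_sub _ _ _, cfc_const _ _, cfc_id' ℝ _, Algebra.algebraMap_eq_smul_one] at h
  have e : star x * ((‖a‖ ^ 2) • (1 : A) - star a * a) * x
      = ((‖a‖ ^ 2 : ℝ) : ℂ) • (star x * x) - star (a * x) * (a * x) := by
    simp only [mul_sub, sub_mul, star_mul, mul_assoc, Complex.coe_smul, mul_smul_comm,
      smul_mul_assoc, one_mul]
  rw [e, map_sub, map_smul, star_mul_self, star_mul_self, smul_eq_mul, ← Complex.ofReal_mul,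
    ← Complex.ofReal_sub, Complex.ofReal_re] at h
  refine abs_le_of_sq_le_sq' ?_ (mul_nonneg (norm_nonneg _) (τ.n_nonneg _)) |>.2
  rw [mul_pow]; linarith

theorem n_mul_le' (x a : A) : τ.n (x * a) ≤ τ.n x * ‖a‖ := by
  rw [← n_star, star_mul, mul_comm, ← τ.n_star x, ← norm_star a]; exact τ.n_mul_le _ _

theorem n_le_norm (x : A) : τ.n x ≤ ‖x‖ := by simpa using τ.n_mul_le x 1

theorem norm_le (x : A) : ‖τ x‖ ≤ ‖x‖ := (τ.norm_le_n x).trans (τ.n_le_norm x)

theorem n_mul_le_of_le_one {a : A} (ha : ‖a‖ ≤ 1) (x : A) : τ.n (a * x) ≤ τ.n x :=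
  (τ.n_mul_le a x).trans (mul_le_of_le_one_left (τ.n_nonneg x) ha)

theorem n_mul_le_of_le_one' (x : A) {a : A} (ha : ‖a‖ ≤ 1) : τ.n (x * a) ≤ τ.n x :=
  (τ.n_mul_le' x a).trans (mul_le_of_le_one_right (τ.n_nonneg x) ha)

theorem n_unitary_mul {u : A} (hu : u ∈ unitary A) (x : A) : τ.n (u * x) = τ.n x := by
  rw [← sq_eq_sq₀ (τ.n_nonneg _) (τ.n_nonneg _), n_sq, n_sq, star_mul, mul_assoc,
    ← mul_assoc (star u), hu.1, one_mul]

theorem n_mul_unitary {u : A} (hu : u ∈ unitary A) (x : A) : τ.n (x * u) = τ.n x := by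
  rw [← n_star, star_mul, τ.n_unitary_mul (Unitary.star_mem hu), n_star]

theorem n_smul_one (c : ℂ) : τ.n (c • (1 : A)) = ‖c‖ := by rw [map_smul_eq_mul, n_one, mul_one]

/-- `τ` is continuous for the operator norm -/
theorem continuous : Continuous fun x : A => τ x :=
  (τ.toLin.mkContinuous 1 fun x => by simpa using τ.norm_le x).continuous

theorem continuous_n : Continuous fun x : A => τ.n x := by
  refine Seminorm.continuous_of_le (q := normSeminorm ℂ A) continuous_norm fun x => ?_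
  exact τ.n_le_norm x

/-- `|τ (x c⋆c)| ≤ ‖x‖ ‖c‖₂²` -/
theorem norm_mul_star_mul_self_le (x c : A) : ‖τ (x * (star c * c))‖ ≤ ‖x‖ * τ.n c ^ 2 := by
  rw [← mul_assoc, τ.comm3, mul_assoc]
  calc _ ≤ τ.n c * τ.n (x * star c) := τ.norm_mul_le _ _
    _ ≤ τ.n c * (‖x‖ * τ.n (star c)) := by gcongr; exact τ.n_mul_le _ _
    _ = _ := by rw [n_star]; ring

section proj
variable {p q : A}

theorem n_proj_sq (hp : IsStarProjection p) : τ.n p ^ 2 = (τ p).re := by
  rw [n_sq, hp.isSelfAdjoint.star_eq, hp.isIdempotentElem.eq]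

theorem proj_nonneg (hp : IsStarProjection p) : 0 ≤ (τ p).re := by
  rw [← τ.n_proj_sq hp]; positivity

theorem proj_le_one (hp : IsStarProjection p) : (τ p).re ≤ 1 :=
  (Complex.re_le_norm _).trans ((τ.norm_le p).trans hp.norm_le)

theorem proj_eq_re (hp : IsStarProjection p) : τ p = ((τ p).re : ℂ) :=
  τ.eq_re_of_sa hp.isSelfAdjoint

theorem norm_proj (hp : IsStarProjection p) : ‖τ p‖ = (τ p).re := by
  rw [τ.proj_eq_re hp, Complex.norm_real, Complex.ofReal_re, Real.norm_of_nonneg (τ.proj_nonneg hp)]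

theorem proj_mono (hp : IsStarProjection p) (hq : IsStarProjection q) (h : p * q = q) :
    (τ q).re ≤ (τ p).re := by
  have := τ.proj_nonneg (proj_sub hp hq h)
  rw [map_sub, Complex.sub_re] at this
  linarith

/-- `|τ (p y)| ≤ ‖y‖ τ(p)` -/
theorem norm_proj_mul_le (hp : IsStarProjection p) (y : A) : ‖τ (p * y)‖ ≤ ‖y‖ * (τ p).re := by
  have := τ.norm_mul_star_mul_self_le y p
  rwa [hp.isSelfAdjoint.star_eq, hp.isIdempotentElem.eq, τ.comm, τ.n_proj_sq hp] at this

/-- Pythagoras, left multiplication by orthogonal projections -/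
theorem n_add_mul_sq (hp : IsStarProjection p) (h : p * q = 0) (x y : A) :
    τ.n (p * x + q * y) ^ 2 = τ.n (p * x) ^ 2 + τ.n (q * y) ^ 2 :=
  τ.n_add_sq_of_orth (by
    rw [star_mul, hp.isSelfAdjoint.star_eq, mul_assoc, ← mul_assoc p, h]; simp)

/-- Pythagoras, right multiplication by orthogonal projections -/
theorem n_mul_add_sq (hp : IsStarProjection p) (h : q * p = 0) (x y : A) :
    τ.n (x * p + y * q) ^ 2 = τ.n (x * p) ^ 2 + τ.n (y * q) ^ 2 :=
  τ.n_add_sq_of_orth (by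
    rw [star_mul, hp.isSelfAdjoint.star_eq, ← mul_assoc, τ.comm3, ← mul_assoc, h]; simp)

end proj

/-- `u k → x` in `‖·‖₂` -/
def Lim (u : ℕ → A) (x : A) : Prop := Tendsto (fun k => τ.n (u k - x)) atTop (𝓝 0)

section lim
variable {τ} {u v : ℕ → A} {x y : A}

theorem Lim.of_le {g : ℕ → ℝ} (h : ∀ k, τ.n (u k - x) ≤ g k) (hg : Tendsto g atTop (𝓝 0)) :
    τ.Lim u x := squeeze_zero (fun _ => τ.n_nonneg _) h hg

theorem Lim.const (x : A) : τ.Lim (fun _ => x) x := by simp [Lim]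

theorem Lim.of_tendsto (h : Tendsto u atTop (𝓝 x)) : τ.Lim u x :=
  Lim.of_le (fun _ => τ.n_le_norm _) (tendsto_iff_norm_sub_tendsto_zero.mp h)

theorem Lim.add (hu : τ.Lim u x) (hv : τ.Lim v y) : τ.Lim (fun k => u k + v k) (x + y) := by
  refine Lim.of_le (fun k => ?_) (by simpa using Tendsto.add hu hv)
  rw [add_sub_add_comm]; exact map_add_le_add _ _ _

theorem Lim.smul (c : ℂ) (hu : τ.Lim u x) : τ.Lim (fun k => c • u k) (c • x) := by
  refine Lim.of_le (fun k => ?_) (by simpa using Tendsto.const_mul ‖c‖ hu)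
  rw [← smul_sub, map_smul_eq_mul]

theorem Lim.neg (hu : τ.Lim u x) : τ.Lim (fun k => -u k) (-x) := by
  simpa using hu.smul (-1)

theorem Lim.sub (hu : τ.Lim u x) (hv : τ.Lim v y) : τ.Lim (fun k => u k - v k) (x - y) := by
  simpa [sub_eq_add_neg] using hu.add hv.neg

theorem Lim.star (hu : τ.Lim u x) : τ.Lim (fun k => star (u k)) (star x) := by
  refine Lim.of_le (fun k => ?_) hu
  rw [← star_sub, n_star]

theorem Lim.mul {C : ℝ} (hu : τ.Lim u x) (hv : τ.Lim v y) (hC : ∀ k, ‖u k‖ ≤ C) :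
    τ.Lim (fun k => u k * v k) (x * y) := by
  refine Lim.of_le (g := fun k => C * τ.n (v k - y) + τ.n (u k - x) * ‖y‖) (fun k => ?_)
    (by simpa using (Tendsto.const_mul C hv).add (Tendsto.mul_const ‖y‖ hu))
  have : u k * v k - x * y = u k * (v k - y) + (u k - x) * y := by noncomm_ring
  rw [this]
  refine (map_add_le_add _ _ _).trans (add_le_add ((τ.n_mul_le _ _).trans ?_) (τ.n_mul_le' _ _))
  exact mul_le_mul_of_nonneg_right (hC k) (τ.n_nonneg _)

theorem Lim.const_mul (a : A) (hu : τ.Lim u x) : τ.Lim (fun k => a * u k) (a * x) :=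
  (Lim.const a).mul hu fun _ => le_rfl

theorem Lim.mul_const (hu : τ.Lim u x) (a : A) : τ.Lim (fun k => u k * a) (x * a) := by
  simpa using (hu.star.const_mul (Star.star a)).star

theorem Lim.tr (hu : τ.Lim u x) : Tendsto (fun k => τ (u k)) atTop (𝓝 (τ x)) := by
  rw [tendsto_iff_norm_sub_tendsto_zero]
  refine squeeze_zero (fun _ => norm_nonneg _) (fun k => ?_) hu
  rw [← map_sub]; exact τ.norm_le_n _

theorem Lim.n (hu : τ.Lim u x) : Tendsto (fun k => τ.n (u k)) atTop (𝓝 (τ.n x)) := by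
  rw [tendsto_iff_norm_sub_tendsto_zero]
  exact squeeze_zero (fun _ => norm_nonneg _) (fun k => Seminorm.norm_sub_map_le_sub _ _ _) hu

theorem Lim.congr (hu : τ.Lim u x) (h : ∀ k, u k = v k) : τ.Lim v x := by
  rwa [← funext h]

end lim

/-- faithful, and operator-norm balls are `‖·‖₂`-complete -/
structure IsW : Prop where
  faithful : ∀ x, τ.n x = 0 → x = 0
  complete : ∀ (u : ℕ → A) (C : ℝ), (∀ k, ‖u k‖ ≤ C) →
    (∀ ε > 0, ∃ N, ∀ j ≥ N, ∀ k ≥ N, τ.n (u j - u k) < ε) → ∃ x, ‖x‖ ≤ C ∧ τ.Lim u x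

/-- `Q` is `‖·‖₂`-closed -/
def Closed (Q : StarSubalgebra ℂ A) : Prop :=
  ∀ x, (∀ ε > 0, ∃ q ∈ Q, τ.n (x - q) < ε) → x ∈ Q

/-- `A` is `‖·‖₂`-separable -/
def Sep : Prop := ∃ x : ℕ → A, ∀ y, ∀ ε > 0, ∃ j, τ.n (y - x j) < ε

variable {τ}

theorem IsW.eq_of_n (h : τ.IsW) {x y : A} (hxy : τ.n (x - y) = 0) : x = y :=
  sub_eq_zero.mp (h.faithful _ hxy)

theorem IsW.n_pos (h : τ.IsW) {x : A} (hx : x ≠ 0) : 0 < τ.n x :=
  (τ.n_nonneg x).lt_of_ne fun e => hx (h.faithful x e.symm)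

theorem IsW.proj_pos (h : τ.IsW) {p : A} (hp : IsStarProjection p) (h0 : p ≠ 0) :
    0 < (τ p).re := by
  rw [← τ.n_proj_sq hp]; exact pow_pos (h.n_pos h0) 2

theorem IsW.lim_unique (h : τ.IsW) {u : ℕ → A} {x y : A} (hx : τ.Lim u x) (hy : τ.Lim u y) :
    x = y := by
  have h1 := (hx.sub hy).n
  simp only [sub_self, map_zero] at h1
  exact h.eq_of_n (tendsto_nhds_unique h1 tendsto_const_nhds)

theorem IsW.eq_of_lim (h : τ.IsW) {u v : ℕ → A} {x y : A} (hx : τ.Lim u x) (hy : τ.Lim v y)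
    (huv : ∀ k, u k = v k) : x = y := h.lim_unique (hx.congr huv) hy

theorem Closed.mem_of_lim {Q : StarSubalgebra ℂ A} (hQ : τ.Closed Q) {u : ℕ → A} {x : A}
    (hu : ∀ k, u k ∈ Q) (hx : τ.Lim u x) : x ∈ Q := by
  refine hQ x fun ε hε => ?_
  obtain ⟨k, hk⟩ := (hx.eventually (gt_mem_nhds hε)).exists
  exact ⟨u k, hu k, by rwa [map_sub_rev]⟩

theorem Closed.isClosed {Q : StarSubalgebra ℂ A} (hQ : τ.Closed Q) : IsClosed (Q : Set A) :=
  isSeqClosed_iff_isClosed.mp fun _ _ hu hx => hQ.mem_of_lim hu (Lim.of_tendsto hx)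

theorem closed_top : τ.Closed ⊤ := fun _ _ => StarSubalgebra.mem_top

theorem Closed.inf {Q R : StarSubalgebra ℂ A} (hQ : τ.Closed Q) (hR : τ.Closed R) :
    τ.Closed (Q ⊓ R) := fun x hx =>
  ⟨hQ x fun ε hε => let ⟨q, hq, h⟩ := hx ε hε; ⟨q, hq.1, h⟩,
    hR x fun ε hε => let ⟨q, hq, h⟩ := hx ε hε; ⟨q, hq.2, h⟩⟩

theorem exists_lim_of_approx {S : Set A} {x : A} (hx : ∀ ε > 0, ∃ q ∈ S, τ.n (x - q) < ε) :
    ∃ u : ℕ → A, (∀ k, u k ∈ S) ∧ τ.Lim u x := by
  choose u hu h using fun k : ℕ => hx (1 / ((k : ℝ) + 1)) (by positivity)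
  exact ⟨u, hu, Lim.of_le (fun k => by rw [map_sub_rev]; exact (h k).le)
    tendsto_one_div_add_atTop_nhds_zero_nat⟩

theorem IsW.closed_centralizer (h : τ.IsW) (S : Set A) :
    τ.Closed (StarSubalgebra.centralizer ℂ S) := by
  intro x hx
  obtain ⟨u, hu, hl⟩ := exists_lim_of_approx (S := (StarSubalgebra.centralizer ℂ S : Set A)) hx
  rw [StarSubalgebra.mem_centralizer_iff]
  intro g hg
  have hu' := fun k => (StarSubalgebra.mem_centralizer_iff ℂ).mp (hu k) g hg
  exact ⟨h.eq_of_lim (hl.const_mul g) (hl.mul_const g) fun k => (hu' k).1,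
    h.eq_of_lim (hl.const_mul _) (hl.mul_const _) fun k => (hu' k).2⟩

end Tr

/-- membership in `P ∩ {r}'` for self-adjoint `r` -/
theorem mem_inf_centralizer {P : StarSubalgebra ℂ A} {r z : A} (hr : star r = r) :
    z ∈ P ⊓ StarSubalgebra.centralizer ℂ {r} ↔ z ∈ P ∧ r * z = z * r := by
  rw [StarSubalgebra.mem_inf, StarSubalgebra.mem_centralizer_iff]; simp [hr]

/-- The standing hypotheses: `(A, τ)` is a finite von Neumann algebra with faithful normal trace,
`P` an infinite-dimensional irreducible von Neumann subalgebra. -/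
structure Setup (τ : Tr A) (P : StarSubalgebra ℂ A) : Prop where
  W : τ.IsW
  closed : τ.Closed P
  irred : Irred P
  inf : ¬ FiniteDimensional ℂ P

end Crest.Agent.R95
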