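import Crest.Agent.R95.Bridge

/-! # rid 95: the amplified bicommutant theorem -/

set_option autoImplicit false

open Filter Topology Crest.OpAlg
open scoped InnerProductSpace ENNReal

namespace Crest.Agent.R95

variable {H : Type*} [NormedAddCommGroup H] [InnerProductSpace ℂ H] [CompleteSpace H]

omit [InnerProductSpace ℂ H] [CompleteSpace H] in
theorem bicomm_summable (f : lp (fun _ : ℕ => H) 2) : Summable fun n => ‖f n‖ ^ 2 := by
  simpa using (lp.memℓp f).summable (by norm_num)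

omit [InnerProductSpace ℂ H] [CompleteSpace H] in
theorem bicomm_norm_sq (f : lp (fun _ : ℕ => H) 2) : ‖f‖ ^ 2 = ∑' n, ‖f n‖ ^ 2 := by
  simpa using lp.norm_rpow_eq_tsum (p := 2) (by norm_num) f

omit [InnerProductSpace ℂ H] [CompleteSpace H] in
theorem bicomm_mem {ξ : ℕ → H} (hξ : Summable fun n => ‖ξ n‖ ^ 2) : Memℓp ξ 2 :=
  memℓp_gen (by simpa using hξ)

omit [CompleteSpace H] in
theorem bicomm_le (a : H →L[ℂ] H) (v : H) : ‖a v‖ ^ 2 ≤ ‖a‖ ^ 2 * ‖v‖ ^ 2 := by
  rw [← mul_pow]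
  exact pow_le_pow_left₀ (norm_nonneg _) (a.le_opNorm v) 2

theorem bicomm_summable' (a : H →L[ℂ] H) (f : lp (fun _ : ℕ => H) 2) :
    Summable fun n => ‖a (f n)‖ ^ 2 :=
  Summable.of_nonneg_of_le (fun _ => by positivity) (fun n => bicomm_le a (f n))
    ((bicomm_summable f).mul_left _)

/-- the amplification of an operator -/
noncomputable def bicommAmp (a : H →L[ℂ] H) :
    lp (fun _ : ℕ => H) 2 →L[ℂ] lp (fun _ : ℕ => H) 2 :=
  LinearMap.mkContinuous
    { toFun := fun f => ⟨fun n => a (f n), bicomm_mem (bicomm_summable' a f)⟩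
      map_add' := fun f g => lp.ext (funext fun n => by simp)
      map_smul' := fun c f => lp.ext (funext fun n => by simp) } ‖a‖ fun f => by
    refine (pow_le_pow_iff_left₀ (norm_nonneg _) (by positivity) two_ne_zero).1 ?_
    rw [mul_pow, bicomm_norm_sq, bicomm_norm_sq, ← tsum_mul_left]
    exact Summable.tsum_le_tsum (fun n => bicomm_le a (f n)) (bicomm_summable' a f)
      ((bicomm_summable f).mul_left _)

theorem bicommAmp_apply (a : H →L[ℂ] H) (f : lp (fun _ : ℕ => H) 2) (n : ℕ) :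
    bicommAmp a f n = a (f n) := rfl

theorem bicommAmp_inner (a : H →L[ℂ] H) (f g : lp (fun _ : ℕ => H) 2) :
    ⟪bicommAmp a f, g⟫_ℂ = ⟪f, bicommAmp (star a) g⟫_ℂ := by
  rw [lp.inner_eq_tsum, lp.inner_eq_tsum]
  refine tsum_congr fun n => ?_
  rw [bicommAmp_apply, bicommAmp_apply, ContinuousLinearMap.star_eq_adjoint,
    ContinuousLinearMap.adjoint_inner_right]

theorem bicommAmp_single (a : H →L[ℂ] H) (j : ℕ) (v : H) :
    bicommAmp a (lp.single 2 j v) = lp.single 2 j (a v) := by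
  refine lp.ext (funext fun n => ?_)
  rw [bicommAmp_apply]
  by_cases h : n = j
  · subst h
    rw [lp.single_apply_self, lp.single_apply_self]
  · rw [lp.single_apply_ne _ _ _ h, lp.single_apply_ne _ _ _ h, map_zero]

/-- **Amplified bicommutant theorem.** Proof. Let `𝓗 = lp (fun _ : ℕ => H) 2`, `Ξ = (ξ n) ∈ 𝓗`,
and for `a : H →L[ℂ] H` let `amp a : 𝓗 →L[ℂ] 𝓗` act coordinatewise (`LinearMap.mkContinuous` with
`‖a‖`; `memℓp_gen`, `lp.norm_le_of_tsum_le`/`lp.norm_rpow_eq_tsum`); `amp` is multiplicative and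
`⟪amp a f, g⟫ = ⟪f, amp a⋆ g⟫` (`lp.inner_eq_tsum`).  Let `K` be the closure of the submodule
`{amp a Ξ | a ∈ S}` and `p = K.starProjection`.  For `a ∈ S`, `amp a` maps `K` to `K` and `Kᗮ` to
`Kᗮ`, so it commutes with `p`.  Then `p i j = evalCLM i ∘ p ∘ singleContinuousLinearMap j`
commutes with every `a ∈ S`, hence with `x`.  By `lp.hasSum_single`,
`(p (amp x Ξ)) i = ∑_j p i j (x (ξ j)) = x (∑_j p i j (ξ j)) = x ((p Ξ) i) = x (ξ i)` as
`Ξ = amp 1 Ξ ∈ K`.  So `amp x Ξ ∈ K`, and `‖amp x Ξ - amp a Ξ‖² = traceNormSq ξ (x - a)`. -/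
theorem approx_of_bicomm {ξ : ℕ → H} (hξ : Summable fun n => ‖ξ n‖ ^ 2)
    (S : StarSubalgebra ℂ (H →L[ℂ] H)) {x : H →L[ℂ] H}
    (hx : ∀ T : H →L[ℂ] H, (∀ a ∈ S, T * a = a * T) → T * x = x * T) {ε : ℝ} (hε : 0 < ε) :
    ∃ a ∈ S, traceNormSq ξ (x - a) < ε := by
  let Ξ : lp (fun _ : ℕ => H) 2 := ⟨ξ, bicomm_mem hξ⟩
  let Φ : (H →L[ℂ] H) →ₗ[ℂ] lp (fun _ : ℕ => H) 2 :=
    { toFun := fun a => bicommAmp a Ξ
      map_add' := fun a b => lp.ext (funext fun n => by simp [bicommAmp_apply])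
      map_smul' := fun c a => lp.ext (funext fun n => by simp [bicommAmp_apply]) }
  have hΦ : ∀ a, Φ a = bicommAmp a Ξ := fun _ => rfl
  let K₀ : Submodule ℂ (lp (fun _ : ℕ => H) 2) := S.toSubalgebra.toSubmodule.map Φ
  let K : Submodule ℂ (lp (fun _ : ℕ => H) 2) := K₀.topologicalClosure
  have hinv : ∀ a ∈ S, ∀ v ∈ K, bicommAmp a v ∈ K := by
    intro a ha v hv
    have hsub : K₀ ≤ K.comap (bicommAmp a : _ →ₗ[ℂ] _) := by
      rintro _ ⟨b, hb, rfl⟩
      exact K₀.le_topologicalClosure ⟨a * b, S.mul_mem ha hb, lp.ext (funext fun n => rfl)⟩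
    exact Submodule.topologicalClosure_minimal _ hsub
      (K₀.isClosed_topologicalClosure.preimage (bicommAmp a).continuous) hv
  have hcomm : ∀ a ∈ S, ∀ v, K.starProjection (bicommAmp a v) =
      bicommAmp a (K.starProjection v) := by
    intro a ha v
    refine Submodule.eq_starProjection_of_mem_of_inner_eq_zero
      (hinv a ha _ (K.starProjection_apply_mem v)) fun w hw => ?_
    rw [← map_sub, bicommAmp_inner]
    exact Submodule.starProjection_inner_eq_zero _ _ (hinv _ (star_mem ha) w hw)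
  have hc : ∀ i j v, K.starProjection (lp.single 2 j (x v)) i =
      x (K.starProjection (lp.single 2 j v) i) := by
    intro i j v
    have := hx (lp.evalCLM ℂ (fun _ : ℕ => H) 2 i ∘L K.starProjection ∘L
      lp.singleContinuousLinearMap ℂ (fun _ : ℕ => H) 2 j) fun a ha => by
        ext w
        change K.starProjection (lp.single 2 j (a w)) i = a (K.starProjection (lp.single 2 j w) i)
        rw [← bicommAmp_single, hcomm a ha, bicommAmp_apply]
    exact congrArg (fun T : H →L[ℂ] H => T v) this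
  have hΞ : K.starProjection Ξ = Ξ := by
    rw [Submodule.starProjection_eq_self_iff]
    exact K₀.le_topologicalClosure ⟨1, S.one_mem, lp.ext (funext fun n => rfl)⟩
  have hmem : bicommAmp x Ξ ∈ K := by
    rw [← Submodule.starProjection_eq_self_iff]
    refine lp.ext (funext fun i => ?_)
    have h1 := (lp.evalCLM ℂ (fun _ : ℕ => H) 2 i ∘L K.starProjection).hasSum
      (lp.hasSum_single (p := 2) (by norm_num) (bicommAmp x Ξ))
    have h2 := (x ∘L lp.evalCLM ℂ (fun _ : ℕ => H) 2 i ∘L K.starProjection).hasSum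
      (lp.hasSum_single (p := 2) (by norm_num) Ξ)
    have h3 : K.starProjection (bicommAmp x Ξ) i = x (K.starProjection Ξ i) :=
      h1.unique (by
        have h4 : (fun j => (lp.evalCLM ℂ (fun _ : ℕ => H) 2 i ∘L K.starProjection)
            (lp.single 2 j (bicommAmp x Ξ j))) = fun j => (x ∘L lp.evalCLM ℂ (fun _ : ℕ => H) 2 i ∘L
              K.starProjection) (lp.single 2 j (Ξ j)) := funext fun j => hc i j (Ξ j)
        rw [h4]
        exact h2)
    rw [h3, hΞ, bicommAmp_apply]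
  obtain ⟨_, ⟨a, ha, rfl⟩, hd⟩ := Metric.mem_closure_iff.1
    (show bicommAmp x Ξ ∈ closure (K₀ : Set (lp (fun _ : ℕ => H) 2)) from hmem) (√ε)
    (Real.sqrt_pos.2 hε)
  refine ⟨a, ha, ?_⟩
  rw [dist_eq_norm, Real.lt_sqrt (norm_nonneg _), bicomm_norm_sq] at hd
  exact hd

end Crest.Agent.R95
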