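import Crest.Prelude.Def_VNFactor
import Crest.Agent.R95.Basic

/-! # rid 95: concrete von Neumann algebras with a tracial vector state satisfy the axioms -/

set_option autoImplicit false

open Filter Topology Crest.OpAlg
open scoped InnerProductSpace

namespace Crest.Agent.R95

variable {H : Type*} [NormedAddCommGroup H] [InnerProductSpace ℂ H] [CompleteSpace H]

instance isClosed_vN (M : VonNeumannAlgebra H) :
    IsClosed (M.toStarSubalgebra : Set (H →L[ℂ] H)) := by
  rw [VonNeumannAlgebra.coe_toStarSubalgebra, ← M.centralizer_centralizer]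
  exact Set.isClosed_centralizer _

/-- the commutant of a set (and its adjoints) as a von Neumann algebra -/
noncomputable def vnCent (S : Set (H →L[ℂ] H)) : VonNeumannAlgebra H where
  toStarSubalgebra := StarSubalgebra.centralizer ℂ S
  centralizer_centralizer' := by simp

theorem mem_vnCent {S : Set (H →L[ℂ] H)} {z : H →L[ℂ] H} :
    z ∈ vnCent S ↔ ∀ g ∈ S, g * z = z * g ∧ star g * z = z * star g :=
  StarSubalgebra.mem_centralizer_iff ℂ

theorem mem_of_comm_commutant {M : VonNeumannAlgebra H} {x : H →L[ℂ] H}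
    (hx : ∀ T ∈ M.commutant, T * x = x * T) : x ∈ M := by
  rw [← M.commutant_commutant, VonNeumannAlgebra.mem_commutant_iff]; exact hx

variable {M : VonNeumannAlgebra H} {ξ : ℕ → H}

omit [CompleteSpace H] in
theorem bridge_summable_inner (hs : Summable fun n => ‖ξ n‖ ^ 2) (x : H →L[ℂ] H) :
    Summable fun n => ⟪ξ n, x (ξ n)⟫_ℂ := by
  refine Summable.of_norm_bounded (hs.mul_left ‖x‖) fun n => ?_
  calc ‖⟪ξ n, x (ξ n)⟫_ℂ‖ ≤ ‖ξ n‖ * ‖x (ξ n)‖ := norm_inner_le_norm _ _
    _ ≤ ‖ξ n‖ * (‖x‖ * ‖ξ n‖) := mul_le_mul_of_nonneg_left (x.le_opNorm _) (norm_nonneg _)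
    _ = ‖x‖ * ‖ξ n‖ ^ 2 := by ring

theorem bridge_vectorState_star_mul_self (ξ : ℕ → H) (x : H →L[ℂ] H) :
    vectorState ξ (star x * x) = ((traceNormSq ξ x : ℝ) : ℂ) := by
  unfold vectorState traceNormSq
  rw [Complex.ofReal_tsum]
  refine tsum_congr fun n => ?_
  rw [ContinuousLinearMap.star_eq_adjoint, mul_apply_eq_comp,
    ContinuousLinearMap.adjoint_inner_right, inner_self_eq_norm_sq_to_K]
  norm_cast

/-- The vector trace.  Proof. `‖⟪ξ n, x (ξ n)⟫‖ ≤ ‖x‖ ‖ξ n‖²` gives summability, hence linearity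
(`Summable.tsum_add`, `tsum_mul_left`/`tsum_const_smul`); `⟪ξ, x⋆ x ξ⟫ = ‖x ξ‖²`
(`ContinuousLinearMap.star_eq_adjoint`, `adjoint_inner_right`), `Complex.ofReal_tsum`,
`Complex.conj_tsum`/`tsum_star`. -/
theorem exists_vTr (hξ : IsFaithfulTracialVectorState M ξ) :
    ∃ τ : Tr M.toStarSubalgebra, (∀ x : M.toStarSubalgebra, τ x = vectorState ξ x) ∧
      ∀ x : M.toStarSubalgebra, τ.n x ^ 2 = traceNormSq ξ x := by
  have hs : Summable fun n => ‖ξ n‖ ^ 2 := hξ.1.summable
  let L : M.toStarSubalgebra →ₗ[ℂ] ℂ :=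
    { toFun := fun x => vectorState ξ x
      map_add' := fun x y => by
        unfold vectorState
        rw [← (bridge_summable_inner hs _).tsum_add (bridge_summable_inner hs _)]
        refine tsum_congr fun n => ?_
        rw [← inner_add_right]
        rfl
      map_smul' := fun c x => by
        unfold vectorState
        rw [RingHom.id_apply, smul_eq_mul, ← tsum_mul_left]
        refine tsum_congr fun n => ?_
        rw [← inner_smul_right]
        rfl }
  have hL : ∀ x : M.toStarSubalgebra, L x = vectorState ξ x := fun _ => rfl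
  let τ : Tr M.toStarSubalgebra :=
    { toLin := L
      one' := by
        rw [hL]
        have h := bridge_vectorState_star_mul_self ξ 1
        rw [star_one, mul_one] at h
        have h1 : traceNormSq ξ 1 = 1 := hξ.1.tsum_eq
        rw [h1] at h
        exact h
      comm' := fun x y => hξ.2.1 x x.2 y y.2
      star' := fun x => by
        rw [hL, hL]
        unfold vectorState
        rw [Complex.conj_tsum]
        refine tsum_congr fun n => ?_
        rw [inner_conj_symm, ← ContinuousLinearMap.adjoint_inner_right,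
          ← ContinuousLinearMap.star_eq_adjoint]
        rfl
      nonneg' := fun x => by
        have h : L (star x * x) = ((traceNormSq ξ x : ℝ) : ℂ) :=
          bridge_vectorState_star_mul_self ξ x
        rw [h, Complex.ofReal_re]
        exact tsum_nonneg fun n => sq_nonneg _ }
  refine ⟨τ, fun _ => rfl, fun x => ?_⟩
  rw [Tr.n_sq]
  have h : τ (star x * x) = ((traceNormSq ξ x : ℝ) : ℂ) := bridge_vectorState_star_mul_self ξ x
  rw [h, Complex.ofReal_re]

/-- Proof. `Φ x = fun n => x (ξ n)` maps to the second countable space `ℕ → H`.  For `R : ℕ` the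
image of the ball `‖x‖ ≤ R` has a countable dense subset
(`TopologicalSpace.exists_countable_dense_subset`/`IsSeparable.exists_countable_dense_subset`);
choose preimages in the ball.  If `Φ (x k) → Φ y` with `‖x k‖, ‖y‖ ≤ R` then
`traceNormSq ξ (y - x k) → 0` by dominated convergence.  The countable union is nonempty;
enumerate it (`Set.Countable.exists_eq_range`). -/
theorem vTr_sep [TopologicalSpace.SeparableSpace H] (hξ : IsFaithfulTracialVectorState M ξ)
    {τ : Tr M.toStarSubalgebra} (hτ : ∀ x : M.toStarSubalgebra, τ.n x ^ 2 = traceNormSq ξ x) :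
    τ.Sep := by
  have hs : Summable fun n => ‖ξ n‖ ^ 2 := hξ.1.summable
  have : SecondCountableTopology H := UniformSpace.secondCountable_of_separable H
  let Φ : M.toStarSubalgebra → (ℕ → H) := fun x n => (x : H →L[ℂ] H) (ξ n)
  have key : ∀ R : ℕ, ∃ T : Set M.toStarSubalgebra, T.Countable ∧
      ∀ y : M.toStarSubalgebra, ‖y‖ ≤ R → ∀ ε > 0, ∃ x ∈ T, τ.n (y - x) < ε := by
    intro R
    obtain ⟨t, htS, htc, htd⟩ := (TopologicalSpace.IsSeparable.of_separableSpace
      (Φ '' {x : M.toStarSubalgebra | ‖x‖ ≤ R})).exists_countable_dense_subset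
    have hg : ∀ v : t, ∃ x : M.toStarSubalgebra, ‖x‖ ≤ R ∧ Φ x = v := fun v => htS v.2
    choose g hgR hgΦ using hg
    have := htc.to_subtype
    refine ⟨Set.range g, Set.countable_range g, fun y hy ε hε => ?_⟩
    obtain ⟨u, hu, hlim⟩ := mem_closure_iff_seq_limit.1 (htd ⟨y, hy, rfl⟩)
    have h1 : Tendsto (fun k => traceNormSq ξ ((y - g ⟨u k, hu k⟩ : M.toStarSubalgebra)))
        atTop (𝓝 (∑' _ : ℕ, (0 : ℝ))) := by
      unfold traceNormSq
      refine tendsto_tsum_of_dominated_convergence (bound := fun n => (2 * R) ^ 2 * ‖ξ n‖ ^ 2)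
        (hs.mul_left _) (fun n => ?_) (Eventually.of_forall fun k n => ?_)
      · have h2 : Tendsto (fun k => u k n) atTop (𝓝 (Φ y n)) :=
          ((continuous_apply n).tendsto _).comp hlim
        have h3 : Tendsto (fun k => ‖Φ y n - u k n‖ ^ 2) atTop (𝓝 (‖Φ y n - Φ y n‖ ^ 2)) :=
          ((tendsto_const_nhds.sub h2).norm).pow 2
        rw [sub_self, norm_zero, zero_pow two_ne_zero] at h3
        refine h3.congr fun k => ?_
        have h4 : u k n = Φ (g ⟨u k, hu k⟩) n := by rw [hgΦ]
        rw [h4]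
        rfl
      · rw [Real.norm_of_nonneg (sq_nonneg _), ← mul_pow]
        refine pow_le_pow_left₀ (norm_nonneg _) ?_ 2
        refine (ContinuousLinearMap.le_opNorm _ _).trans
          (mul_le_mul_of_nonneg_right ?_ (norm_nonneg _))
        have h5 : ‖y - g ⟨u k, hu k⟩‖ ≤ 2 * R := by
          have := norm_sub_le y (g ⟨u k, hu k⟩)
          have := hgR ⟨u k, hu k⟩
          linarith
        exact h5
    rw [tsum_zero] at h1
    obtain ⟨k, hk⟩ := (h1.eventually (gt_mem_nhds (pow_pos hε 2))).exists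
    refine ⟨g ⟨u k, hu k⟩, ⟨_, rfl⟩, ?_⟩
    rw [← hτ] at hk
    exact lt_of_pow_lt_pow_left₀ 2 hε.le hk
  choose T hTc hT using key
  have hc : (insert 0 (⋃ R, T R)).Countable := (Set.countable_iUnion hTc).insert 0
  obtain ⟨x, hx⟩ := hc.exists_eq_range ⟨0, Set.mem_insert _ _⟩
  refine ⟨x, fun y ε hε => ?_⟩
  obtain ⟨R, hR⟩ := exists_nat_ge ‖y‖
  obtain ⟨z, hz, hyz⟩ := hT R y hR ε hε
  have hz' : z ∈ Set.range x := by
    rw [← hx]; exact Set.mem_insert_of_mem _ (Set.mem_iUnion.2 ⟨R, hz⟩)
  obtain ⟨j, rfl⟩ := hz'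
  exact ⟨j, hyz⟩

end Crest.Agent.R95
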