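import Crest.Agent.R95.Basic

/-! # rid 95: Dixmier averaging in `‖·‖₂` and consequences -/

set_option autoImplicit false

open Filter Topology

namespace Crest.Agent.R95

variable {A : Type*} [CStarAlgebra A] {τ : Tr A}

/-- averaging operators over the unitary group of `Q` -/
inductive Avg (Q : StarSubalgebra ℂ A) : (A → A) → Prop
  | conj (u : A) (hu : u ∈ Q) (hu' : u ∈ unitary A) : Avg Q fun x => u * x * star u
  | mid (S T : A → A) (hS : Avg Q S) (hT : Avg Q T) : Avg Q fun x => (2⁻¹ : ℂ) • (S x + T x)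
  | comp (S T : A → A) (hS : Avg Q S) (hT : Avg Q T) : Avg Q fun x => S (T x)

section dx
variable {Q : StarSubalgebra ℂ A} {T : A → A}

theorem Avg.dx_add (h : Avg Q T) (x y : A) : T (x + y) = T x + T y := by
  induction h generalizing x y with
  | conj u _ _ => simp only [mul_add, add_mul]
  | mid S T _ _ ihS ihT => simp only [ihS, ihT]; module
  | comp S T _ _ ihS ihT => simp only [ihS, ihT]

theorem Avg.dx_smul (h : Avg Q T) (c : ℂ) (x : A) : T (c • x) = c • T x := by
  induction h generalizing x with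
  | conj u _ _ => simp only [mul_smul_comm, smul_mul_assoc]
  | mid S T _ _ ihS ihT => simp only [ihS, ihT]; module
  | comp S T _ _ ihS ihT => simp only [ihS, ihT]

theorem Avg.dx_one (h : Avg Q T) : T 1 = 1 := by
  induction h with
  | conj u _ hu => simp only [mul_one]; exact hu.2
  | mid S T _ _ ihS ihT => simp only [ihS, ihT]; module
  | comp S T _ _ ihS ihT => simp only [ihS, ihT]

theorem Avg.dx_sub_smul_one (h : Avg Q T) (x : A) (c : ℂ) : T (x - c • 1) = T x - c • 1 := by
  rw [sub_eq_add_neg, ← neg_smul, h.dx_add, h.dx_smul, h.dx_one, neg_smul, sub_eq_add_neg]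

theorem dx_n_conj (τ : Tr A) {u : A} (hu : u ∈ unitary A) (x : A) :
    τ.n (u * x * star u) = τ.n x := by
  rw [τ.n_mul_unitary (Unitary.star_mem hu), τ.n_unitary_mul hu]

theorem Avg.dx_norm (h : Avg Q T) (x : A) : ‖T x‖ ≤ ‖x‖ := by
  induction h generalizing x with
  | conj u _ hu =>
    have h1 := norm_le_one_of_unitary hu
    have h2 := norm_le_one_of_unitary (Unitary.star_mem hu)
    calc ‖u * x * star u‖ ≤ ‖u‖ * ‖x‖ * ‖star u‖ :=
          (norm_mul_le _ _).trans (mul_le_mul_of_nonneg_right (norm_mul_le _ _) (norm_nonneg _))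
      _ ≤ 1 * ‖x‖ * 1 := by gcongr
      _ = ‖x‖ := by ring
  | mid S T _ _ ihS ihT =>
    have := norm_add_le (S x) (T x)
    have h1 := ihS x
    have h2 := ihT x
    simp only [norm_smul, norm_inv, Complex.norm_ofNat]
    linarith
  | comp S T _ _ ihS ihT => exact (ihS _).trans (ihT _)

theorem Avg.dx_n (τ : Tr A) (h : Avg Q T) (x : A) : τ.n (T x) ≤ τ.n x := by
  induction h generalizing x with
  | conj u _ hu => exact (dx_n_conj τ hu x).le
  | mid S T _ _ ihS ihT =>
    have := map_add_le_add τ.n (S x) (T x)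
    have h1 := ihS x
    have h2 := ihT x
    simp only [map_smul_eq_mul, norm_inv, Complex.norm_ofNat]
    linarith
  | comp S T _ _ ihS ihT => exact (ihS _).trans (ihT _)

theorem Avg.dx_tr (τ : Tr A) (h : Avg Q T) (x : A) : τ (T x) = τ x := by
  induction h generalizing x with
  | conj u _ hu => simp only; rw [τ.comm3, hu.1, one_mul]
  | mid S T _ _ ihS ihT => simp only [map_smul, map_add, ihS, ihT, smul_eq_mul]; ring
  | comp S T _ _ ihS ihT => exact (ihS _).trans (ihT _)

theorem Avg.dx_id (Q : StarSubalgebra ℂ A) : Avg Q fun x => 1 * x * star 1 :=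
  Avg.conj 1 (one_mem Q) (one_mem _)

/-- A midpoint-closed relation which holds on all simultaneous unitary conjugates of `(X, Y)` holds
for `(T X, T Y)`. -/
theorem Avg.dx_rel (R : A → A → Prop)
    (hR : ∀ a b a' b', R a b → R a' b' → R ((2⁻¹ : ℂ) • (a + a')) ((2⁻¹ : ℂ) • (b + b')))
    (h : Avg Q T) (X Y : A)
    (hXY : ∀ p ∈ Q, p ∈ unitary A → R (p * X * star p) (p * Y * star p)) : R (T X) (T Y) := by
  have key : ∀ p ∈ Q, p ∈ unitary A → R (p * T X * star p) (p * T Y * star p) := by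
    induction h generalizing X Y with
    | conj u hu hu' =>
      intro p hp hp'
      have := hXY (p * u) (mul_mem hp hu) (mul_mem hp' hu')
      simpa only [star_mul, mul_assoc] using this
    | mid S T _ _ ihS ihT =>
      intro p hp hp'
      have := hR _ _ _ _ (ihS X Y hXY p hp hp') (ihT X Y hXY p hp hp')
      simpa only [mul_smul_comm, smul_mul_assoc, mul_add, add_mul] using this
    | comp S T _ _ ihS ihT => exact ihS _ _ (ihT X Y hXY)
  simpa using key 1 (one_mem Q) (one_mem _)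

theorem dx_eq_zero_of_le (hτ : τ.IsW) {x : A} {C : ℝ} (hx : ∀ ε > 0, τ.n x ≤ C * ε) : x = 0 := by
  refine hτ.faithful x (le_antisymm ?_ (τ.n_nonneg x))
  refine le_of_forall_pos_le_add fun δ hδ => ?_
  have h1 : 0 < |C| + 1 := by positivity
  have h2 := hx (δ / (|C| + 1)) (by positivity)
  have h3 : C * (δ / (|C| + 1)) ≤ δ := by
    rw [← mul_div_assoc, div_le_iff₀ h1]
    nlinarith [le_abs_self C]
  linarith

end dx

/-- An element commuting with the unitaries of a norm-closed `Q` commutes with `Q`.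
Proof. Enough for self-adjoint `a ∈ Q` with `‖a‖ ≤ 1` (real and imaginary parts, scaling); then
`u = a + I • cfc (fun t => √(1 - t²)) a ∈ Q` is unitary and `a = (u + u⋆)/2`; `u⋆` is a unitary of
`Q` as well.  (Mathlib: `selfAdjoint.unitarySelfAddISMul`, which needs
`CStarAlgebra.spectralOrder`; or directly with `cfc`.) -/
theorem comm_of_comm_unitary {Q : StarSubalgebra ℂ A} (hQ : IsClosed (Q : Set A)) {z : A}
    (hz : ∀ u ∈ Q, u ∈ unitary A → z * u = u * z) : ∀ y ∈ Q, z * y = y * z := by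
  intro y hy
  have : IsClosed (Q : Set A) := hQ
  obtain ⟨u, c, hu, -⟩ := CStarAlgebra.exists_sum_four_unitary (⟨y, hy⟩ : Q)
  have e : y = ∑ i, c i • (((u i : Q)) : A) := by
    have := congrArg (Subtype.val : Q → A) hu
    simpa using this
  have hc : ∀ i, z * ((u i : Q) : A) = ((u i : Q) : A) * z := fun i =>
    hz _ (u i : Q).2 ⟨congrArg Subtype.val (u i).2.1, congrArg Subtype.val (u i).2.2⟩
  rw [e, Finset.mul_sum, Finset.sum_mul]
  exact Finset.sum_congr rfl fun i _ => by rw [mul_smul_comm, smul_mul_assoc, hc]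

/-- **Dixmier averaging.** Proof. By induction on `Avg`: every `T` is additive and homogeneous,
`‖T x‖ ≤ ‖x‖`, `n (T x) ≤ n x`, `T 1 = 1`, `τ (T x) = τ x`.  Let `d = inf {n (T x)}`; the set
`K = {T x}` is closed under midpoints and under conjugation by unitaries of `Q`.  For `k, k' ∈ K`
the parallelogram law gives `n (k - k')² = 2 n k² + 2 n k'² - 4 n((k+k')/2)² ≤ 2 n k² + 2 n k'² - 4d²`.
So a minimizing sequence `k j` is Cauchy, norm-bounded by `‖x‖`, with limit `z`
(`IsW.complete`); for a unitary `u ∈ Q`, `u (k j) u⋆` is minimizing too and the same inequality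
gives `n (u (k j) u⋆ - k j) → 0`, so `u z u⋆ = z`.  Conclude with `comm_of_comm_unitary`. -/
theorem dixmier (hτ : τ.IsW) {Q : StarSubalgebra ℂ A} (hQ : τ.Closed Q) (x : A) :
    ∃ z : A, (∀ y ∈ Q, z * y = y * z) ∧ ∀ ε > 0, ∃ T, Avg Q T ∧ τ.n (T x - z) < ε := by
  set S : Set ℝ := {r | ∃ T, Avg Q T ∧ τ.n (T x) = r} with hS
  have hne : S.Nonempty := ⟨_, _, Avg.dx_id Q, rfl⟩
  have hbd : BddBelow S := ⟨0, by rintro _ ⟨T, -, rfl⟩; exact τ.n_nonneg _⟩
  have hd0 : 0 ≤ sInf S := le_csInf hne (by rintro _ ⟨T, -, rfl⟩; exact τ.n_nonneg _)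
  obtain ⟨a, -, ha, haS⟩ := exists_seq_tendsto_sInf hne hbd
  choose T hT hTa using haS
  have key : ∀ S' T', Avg Q S' → Avg Q T' →
      τ.n (S' x - T' x) ^ 2 ≤ 2 * τ.n (S' x) ^ 2 + 2 * τ.n (T' x) ^ 2 - 4 * sInf S ^ 2 := by
    intro S' T' hS' hT'
    have h1 : sInf S ≤ τ.n ((2⁻¹ : ℂ) • (S' x + T' x)) :=
      csInf_le hbd ⟨_, Avg.mid S' T' hS' hT', rfl⟩
    simp only [map_smul_eq_mul, norm_inv, Complex.norm_ofNat] at h1
    have h2 := τ.parallelogram (S' x) (T' x)
    have h3 : (2 * sInf S) ^ 2 ≤ τ.n (S' x + T' x) ^ 2 :=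
      pow_le_pow_left₀ (by linarith) (by linarith) 2
    nlinarith
  have ha2 : Tendsto (fun k => a k ^ 2) atTop (𝓝 (sInf S ^ 2)) := ha.pow 2
  obtain ⟨z, -, hz⟩ := hτ.complete (fun k => T k x) ‖x‖ (fun k => (hT k).dx_norm x) (by
    intro ε hε
    have : ∀ᶠ k in atTop, a k ^ 2 < sInf S ^ 2 + ε ^ 2 / 4 :=
      ha2.eventually (gt_mem_nhds (by have := pow_pos hε 2; linarith))
    obtain ⟨N, hN⟩ := eventually_atTop.mp this
    refine ⟨N, fun j hj k hk => ?_⟩
    have h1 := key _ _ (hT j) (hT k)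
    rw [hTa, hTa] at h1
    have h2 := hN j hj
    have h3 := hN k hk
    exact lt_of_pow_lt_pow_left₀ 2 hε.le (by linarith))
  refine ⟨z, comm_of_comm_unitary hQ.isClosed fun u hu hu' => ?_, fun ε hε => ?_⟩
  · have l1 : τ.Lim (fun k => u * T k x * star u - T k x) (u * z * star u - z) :=
      ((hz.const_mul u).mul_const (star u)).sub hz
    have l2 : τ.Lim (fun k => u * T k x * star u - T k x) 0 := by
      refine Tr.Lim.of_le (g := fun k => √(4 * a k ^ 2 - 4 * sInf S ^ 2)) (fun k => ?_) ?_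
      · have h1 := key _ _ (Avg.comp _ _ (Avg.conj u hu hu') (hT k)) (hT k)
        simp only [dx_n_conj τ hu', hTa] at h1
        rw [sub_zero]
        exact Real.le_sqrt_of_sq_le (by linarith)
      · have := ((ha2.const_mul 4).sub_const (4 * sInf S ^ 2)).sqrt
        simpa using this
    have e : u * z * star u = z := sub_eq_zero.mp (hτ.lim_unique l1 l2)
    calc z * u = u * z * star u * u := by rw [e]
      _ = u * z := by rw [mul_assoc, hu'.1, mul_one]
  · obtain ⟨k, hk⟩ := (Tendsto.eventually hz (gt_mem_nhds hε)).exists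
    exact ⟨T k, hT k, hk⟩

/-- **Moving lemma.** Proof. If `n x = 0` take `v = 1`.  Otherwise suppose `n (v x - x v) < n x`
for all unitaries `v ∈ Q`.  As `n (v x - x v) = n (v x v⋆ - x)` and
`n (v x v⋆ - x)² = 2 n x² - 2 re τ(x⋆ v x v⋆)`, we get `re τ (x⋆ (v x v⋆)) ≥ n x²/2` for all `v`.
The set `R = {y | ∀ unitary v ∈ Q, n x²/2 ≤ re τ (x⋆ (v y v⋆))}` contains `x` and is mapped into
itself by every `Avg` operator (induction).  So `re τ (x⋆ T x) ≥ n x²/2` for all `T`, and by
`dixmier` and Cauchy–Schwarz `re τ (x⋆ z) ≥ n x² / 2 > 0`, contradicting `hx`. -/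
theorem moving (hτ : τ.IsW) {Q : StarSubalgebra ℂ A} (hQ : τ.Closed Q) (x : A)
    (hx : ∀ z, (∀ y ∈ Q, z * y = y * z) → τ (star x * z) = 0) :
    ∃ v ∈ Q, v ∈ unitary A ∧ τ.n x ≤ τ.n (v * x - x * v) := by
  rcases (τ.n_nonneg x).eq_or_lt with h0 | h0
  · exact ⟨1, one_mem Q, one_mem _, by rw [← h0]; exact τ.n_nonneg _⟩
  by_contra hcon
  push Not at hcon
  obtain ⟨z, hz, hT⟩ := dixmier hτ hQ x
  obtain ⟨T, hT, hTz⟩ := hT (τ.n x / 2) (by positivity)
  have h1 : τ.n x ^ 2 / 2 ≤ (τ (star x * T x)).re := by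
    refine hT.dx_rel (fun a _ => τ.n x ^ 2 / 2 ≤ (τ (star x * a)).re) ?_ x x ?_
    · intro a _ a' _ ha ha'
      rw [mul_smul_comm, mul_add, map_smul, map_add, smul_eq_mul]
      have : ((2⁻¹ : ℂ) * (τ (star x * a) + τ (star x * a'))).re
          = 2⁻¹ * ((τ (star x * a)).re + (τ (star x * a')).re) := by
        simp
      rw [this]
      linarith
    · intro v hv hv'
      have h2 := hcon v hv hv'
      have h3 : τ.n (v * x - x * v) = τ.n (x - v * x * star v) := by
        rw [map_sub_rev, ← τ.n_mul_unitary (Unitary.star_mem hv'), sub_mul, mul_assoc x, hv'.2,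
          mul_one]
      rw [h3] at h2
      have h4 := τ.n_sub_sq x (v * x * star v)
      rw [dx_n_conj τ hv'] at h4
      have h5 : τ.n (x - v * x * star v) ^ 2 < τ.n x ^ 2 :=
        pow_lt_pow_left₀ h2 (τ.n_nonneg _) two_ne_zero
      linarith
  have h2 : τ (star x * T x) = τ (star x * (T x - z)) := by
    rw [mul_sub, map_sub, hx z hz, sub_zero]
  have h3 := (Complex.re_le_norm _).trans (τ.norm_star_mul_le x (T x - z))
  rw [← h2] at h3
  nlinarith

/-- Simultaneous averaging of two elements to their traces.  Proof. For one element: `z` from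
`dixmier` is `c • 1` by irreducibility and `c = τ x` because `τ (T x) = τ x`, `|τ ·| ≤ n ·`.
For two: take `T₁` for `y`, then `T₂` for `T₁ x`, and `T = T₂ ∘ T₁`:
`T y - τ y • 1 = T₂ (T₁ y - τ y • 1)` has smaller `n`. -/
theorem avg_two {P : StarSubalgebra ℂ A} (h : Setup τ P) (x y : A) {ε : ℝ} (hε : 0 < ε) :
    ∃ T, Avg P T ∧ τ.n (T x - τ x • 1) < ε ∧ τ.n (T y - τ y • 1) < ε := by
  have one : ∀ x : A, ∃ T, Avg P T ∧ τ.n (T x - τ x • 1) < ε := by
    intro x
    obtain ⟨z, hz, hT⟩ := dixmier h.W h.closed x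
    obtain ⟨c, rfl⟩ := h.irred z hz
    have hc : τ x = c := by
      rw [← sub_eq_zero, ← norm_le_zero_iff]
      refine le_of_forall_pos_le_add fun δ hδ => ?_
      obtain ⟨T, hT, hδ'⟩ := hT δ hδ
      have := τ.norm_le_n (T x - c • 1)
      rw [map_sub, map_smul, hT.dx_tr τ, τ.map_one, smul_eq_mul, mul_one] at this
      linarith
    rw [hc]
    exact hT ε hε
  obtain ⟨T₁, hT₁, h₁⟩ := one y
  obtain ⟨T₂, hT₂, h₂⟩ := one (T₁ x)
  refine ⟨fun a => T₂ (T₁ a), Avg.comp _ _ hT₂ hT₁, ?_, ?_⟩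
  · rwa [hT₁.dx_tr τ] at h₂
  · simp only
    rw [← hT₂.dx_sub_smul_one]
    exact (hT₂.dx_n τ _).trans_lt h₁

/-- **Corners are irreducible.** Proof. For a unitary `p ∈ P`:
`x e (p e p⋆) e = x (e p e) p⋆ e = (e p e) x p⋆ e = e (p x p⋆) e`.  The set of pairs `(X, Y)` with
`∀ unitary p ∈ P, e (p X p⋆) e = x e (p Y p⋆) e` contains `(x, e)` and is preserved by
`(X, Y) ↦ (T X, T Y)` for every `Avg` operator (induction on `T`, generalizing the pair).  So
`e (T x) e = x e (T e) e`; let `T x → τ x • 1`, `T e → τ e • 1` (`avg_two`) and use faithfulness. -/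
theorem corner {P : StarSubalgebra ℂ A} (h : Setup τ P) {e x : A} (he : IsStarProjection e)
    (heP : e ∈ P) (hx : e * x = x) (hx' : x * e = x)
    (hc : ∀ y ∈ P, x * (e * y * e) = (e * y * e) * x) : τ e • x = τ x • e := by
  rw [← sub_eq_zero]
  refine dx_eq_zero_of_le h.W (C := 1 + ‖x‖) fun ε hε => ?_
  obtain ⟨T, hT, h1, h2⟩ := avg_two h x e hε
  have key : e * T x * e = x * (e * T e * e) := by
    refine hT.dx_rel (fun a b => e * a * e = x * (e * b * e)) ?_ x e ?_
    · intro a b a' b' ha ha'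
      simp only [mul_smul_comm, smul_mul_assoc, mul_add, add_mul, ha, ha']
    · intro p hp _
      calc e * (p * x * star p) * e = e * p * (e * x) * star p * e := by
            rw [hx]; simp only [mul_assoc]
        _ = (e * p * e) * x * star p * e := by simp only [mul_assoc]
        _ = x * (e * p * e) * star p * e := by rw [hc p hp]
        _ = x * (e * (p * e * star p) * e) := by simp only [mul_assoc]
  have ee : e * e = e := he.isIdempotentElem.eq
  have e1 : τ e • x - τ x • e
      = e * (T x - τ x • 1) * e - x * (e * (T e - τ e • 1) * e) := by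
    simp only [mul_sub, sub_mul, mul_smul_comm, smul_mul_assoc, mul_one, ee, hx', key]
    abel
  have hn : ∀ a, τ.n (e * a * e) ≤ τ.n a := fun a =>
    (τ.n_mul_le_of_le_one' _ he.norm_le).trans (τ.n_mul_le_of_le_one he.norm_le _)
  rw [e1]
  calc _ ≤ τ.n (e * (T x - τ x • 1) * e) + τ.n (x * (e * (T e - τ e • 1) * e)) :=
        map_sub_le_add _ _ _
    _ ≤ ε + ‖x‖ * ε := add_le_add ((hn _).trans h1.le) ((τ.n_mul_le _ _).trans
        (mul_le_mul_of_nonneg_left ((hn _).trans h2.le) (norm_nonneg _)))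
    _ = (1 + ‖x‖) * ε := by ring

/-- **Factor lemma.** Proof. `x * (p (y y⋆) p⋆) = 0` for unitaries `p ∈ P`; as above
`x * T (y y⋆) = 0` for all `T`, so `τ (y y⋆) • x = 0`; `τ (y y⋆) = n y ^ 2`. -/
theorem factor_lemma {P : StarSubalgebra ℂ A} (h : Setup τ P) {x y : A}
    (hxy : ∀ a ∈ P, x * a * y = 0) : x = 0 ∨ y = 0 := by
  by_cases hy : y = 0
  · exact Or.inr hy
  left
  have hz : τ (y * star y) • x = 0 := by
    refine dx_eq_zero_of_le h.W (C := ‖x‖) fun ε hε => ?_
    obtain ⟨T, hT, h1, -⟩ := avg_two h (y * star y) 0 hε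
    have key : x * T (y * star y) = 0 := by
      refine hT.dx_rel (fun a _ => x * a = 0) ?_ (y * star y) 0 ?_
      · intro a _ a' _ ha ha'
        simp only [mul_smul_comm, mul_add, ha, ha', add_zero, smul_zero]
      · intro p hp _
        calc x * (p * (y * star y) * star p) = x * p * y * star y * star p := by
              simp only [mul_assoc]
          _ = 0 := by rw [hxy p hp, zero_mul, zero_mul]
    have e1 : τ (y * star y) • x = -(x * (T (y * star y) - τ (y * star y) • 1)) := by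
      rw [mul_sub, key, mul_smul_comm, mul_one, zero_sub, neg_neg]
    rw [e1, map_neg_eq_map]
    exact (τ.n_mul_le _ _).trans (mul_le_mul_of_nonneg_left h1.le (norm_nonneg _))
  have h0 : τ (y * star y) ≠ 0 := by
    rw [τ.comm, τ.star_mul_self]
    exact Complex.ofReal_ne_zero.mpr (pow_pos (h.W.n_pos hy) 2).ne'
  exact (smul_eq_zero.mp hz).resolve_left h0

end Crest.Agent.R95
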