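import Crest.Agent.R95.Basic

/-! # rid 95: free symmetries produce free Haar unitaries -/

set_option autoImplicit false

namespace Crest.Agent.R95

variable {B : Type*} [CStarAlgebra B] {φ : Tr B}

/-- `s` is a trace-zero symmetry that is free from the set `S` -/
structure Tr.Free (φ : Tr B) (s : B) (S : Set B) : Prop where
  sym : IsSym s
  tr : φ s = 0
  alt : ∀ L : List B, L ≠ [] → (∀ x ∈ L, x ∈ S) →
    φ (L.map fun x => s * (x - φ x • (1 : B))).prod = 0

/-- **(F1)** `φ (a s x₁ s x₂ ⋯ s xₘ s b) = 0` for centered `xᵢ ∈ S` and arbitrary `a, b ∈ S`.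
Proof. Strong induction on the length of `L`.  By the trace property the value is
`φ (Π · s · (b a))`, `Π = ∏ s xᵢ`; write `b a = (b a - c) + c`, `c = φ (b a)`.  The first part
vanishes by `alt` for `L ++ [b a]`.  The second is `c φ (Π s)`: for `L = []` it is `φ s = 0`; for
`L = x :: L'`, `φ (s x Π' s) = φ (x Π')` (`s s = 1`), which is `φ x = 0` if `L' = []`, and for
`L' = L'' ++ [y]` equals `φ (x Π'' s y) = 0` by induction. -/
theorem Tr.Free.f1 {s : B} {S : Submonoid B} (hs : φ.Free s S) (L : List B)
    (hL : ∀ x ∈ L, x ∈ S ∧ φ x = 0) {a b : B} (ha : a ∈ S) (hb : b ∈ S) :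
    φ (a * (L.map fun x => s * x).prod * s * b) = 0 := by
  induction hn : L.length using Nat.strong_induction_on generalizing L a b with
  | _ n ih =>
    have hss : s * s = 1 := hs.sym.2
    have hmap : (L.map fun x => s * (x - φ x • (1 : B))) = L.map fun x => s * x :=
      List.map_congr_left fun x hx => by rw [(hL x hx).2, zero_smul, sub_zero]
    have h1 := hs.alt (L ++ [b * a]) (by simp) (fun x hx => by
      rcases List.mem_append.1 hx with h | h
      · exact (hL x h).1
      · rw [List.mem_singleton.1 h]; exact S.mul_mem hb ha)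
    rw [List.map_append, List.prod_append, hmap, List.map_singleton, List.prod_singleton, mul_sub,
      mul_sub, map_sub, mul_smul_comm, mul_smul_comm, mul_one, map_smul] at h1
    have h2 : φ ((L.map fun x => s * x).prod * s) = 0 := by
      cases L with
      | nil => simpa using hs.tr
      | cons x L' =>
        rw [φ.comm, List.map_cons, List.prod_cons, ← mul_assoc, ← mul_assoc, hss, one_mul]
        rcases List.eq_nil_or_concat L' with rfl | ⟨L'', y, rfl⟩
        · simpa using (hL x (by simp)).2
        · rw [List.concat_eq_append] at hL hn ⊢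
          rw [List.map_append, List.prod_append, List.map_singleton, List.prod_singleton,
            ← mul_assoc, ← mul_assoc]
          exact ih L''.length (by rw [← hn]; simp) L''
            (fun z hz => hL z (by simp [hz])) (hL x (by simp)).1 (hL y (by simp)).1 rfl
    rw [h2, smul_zero, sub_zero] at h1
    rw [mul_assoc, mul_assoc, φ.comm, mul_assoc, mul_assoc]
    exact h1

/-- **Free Haar unitaries.** Proof. For a letter `x = (α, b) : ι × Bool` put
`l x = if b then L α else star (R α)`, `r x = if b then R α else star (L α)`, so the letter acts as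
`l x * s * r x`.  For a list `x :: xs` the product of the letters is
`l x * (∏ s * (r xᵢ * l xᵢ₊₁)) * s * r x_last` (induction).  `ω = FreeGroup.mk ω.toWord` with
`ω.toWord ≠ []` reduced (`FreeGroup.isReduced_toWord`: consecutive letters with the same index have
the same sign), `FreeGroup.lift_mk`.  The inner factors are `R α L β`, `R α (R β)⋆` (`α ≠ β`),
`(L α)⋆ L β` (`α ≠ β`), `(L α)⋆ (R β)⋆ = (R β L α)⋆`, all of trace `0`; apply `f1`. -/
theorem Tr.Free.freeGroup {s : B} {S : Submonoid B} (hs : φ.Free s S) {ι : Type*}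
    (L R W : ι → unitary B) (hL : ∀ α, (L α : B) ∈ S ∧ star (L α : B) ∈ S)
    (hR : ∀ α, (R α : B) ∈ S ∧ star (R α : B) ∈ S)
    (hW : ∀ α, (W α : B) = L α * s * R α)
    (hRL : ∀ α β, φ (R α * L β : B) = 0)
    (hRR : ∀ α β, α ≠ β → φ (R α * star (R β : B)) = 0)
    (hLL : ∀ α β, α ≠ β → φ (star (L α : B) * L β) = 0)
    {g : B} (hg : g ∈ S) {ω : FreeGroup ι} (hω : ω ≠ 1) :
    φ (g * (FreeGroup.lift W ω : unitary B)) = 0 := by
  classical
  have hs1 : star s = s := hs.sym.1
  let l : ι × Bool → B := fun x => cond x.2 (L x.1 : B) (star (R x.1 : B))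
  let r : ι × Bool → B := fun x => cond x.2 (R x.1 : B) (star (L x.1 : B))
  have hl : ∀ x, l x ∈ S := by
    rintro ⟨α, _ | _⟩
    · exact (hR α).2
    · exact (hL α).1
  have hr : ∀ x, r x ∈ S := by
    rintro ⟨α, _ | _⟩
    · exact (hL α).2
    · exact (hR α).1
  have hlet : ∀ x : ι × Bool,
      ((cond x.2 (W x.1) (W x.1)⁻¹ : unitary B) : B) = l x * s * r x := by
    rintro ⟨α, _ | _⟩
    · change ((W α)⁻¹ : unitary B).1 = star (R α : B) * s * star (L α : B)
      rw [← Unitary.star_eq_inv, Unitary.coe_star, hW, star_mul, star_mul, hs1, mul_assoc]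
    · exact hW α
  have hz : ∀ x y : ι × Bool, (x.1 = y.1 → x.2 = y.2) → φ (r x * l y) = 0 := by
    rintro ⟨α, _ | _⟩ ⟨β, _ | _⟩ h
    · change φ (star (L α : B) * star (R β : B)) = 0
      rw [← star_mul, φ.map_star, hRL, map_zero]
    · exact hLL α β fun h0 => by simpa using h h0
    · exact hRR α β fun h0 => by simpa using h h0
    · exact hRL α β
  have key : ∀ (xs : List (ι × Bool)) (x : ι × Bool), FreeGroup.IsReduced (x :: xs) →
      ∃ (M : List B) (b : B), b ∈ S ∧ (∀ y ∈ M, y ∈ S ∧ φ y = 0) ∧
        (((x :: xs).map fun x => cond x.2 (W x.1) (W x.1)⁻¹).prod : unitary B) =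
          l x * (M.map fun y => s * y).prod * s * b := by
    intro xs
    induction xs with
    | nil =>
      intro x _
      exact ⟨[], r x, hr x, by simp, by simp [hlet]⟩
    | cons y ys ih =>
      intro x hx
      rw [FreeGroup.isReduced_cons_cons] at hx
      obtain ⟨M, b, hb, hM, e⟩ := ih y hx.2
      refine ⟨(r x * l y) :: M, b, hb, fun z hz' => ?_, ?_⟩
      · rcases List.mem_cons.1 hz' with rfl | h
        · exact ⟨S.mul_mem (hr x) (hl y), hz x y hx.1⟩
        · exact hM z h
      · rw [List.map_cons, List.prod_cons, Submonoid.coe_mul, e, hlet, List.map_cons,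
          List.prod_cons]
        simp only [mul_assoc]
  have hred : FreeGroup.IsReduced ω.toWord := FreeGroup.isReduced_toWord
  have hne : ω.toWord ≠ [] := fun h => hω (FreeGroup.toWord_eq_nil_iff.1 h)
  rw [← FreeGroup.mk_toWord (x := ω), FreeGroup.lift_mk]
  obtain ⟨x, xs, hx⟩ := List.exists_cons_of_ne_nil hne
  rw [hx] at hred ⊢
  obtain ⟨M, b, hb, hM, e⟩ := key xs x hred
  rw [e, ← mul_assoc, ← mul_assoc, ← mul_assoc]
  exact hs.f1 M hM (S.mul_mem hg (hl x)) hb

end Crest.Agent.R95
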