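import Crest.Agent.R95.Free

/-! # rid 95: orthogonality of the conjugating unitaries -/

set_option autoImplicit false

namespace Crest.Agent.R95

variable {B : Type*} [CStarAlgebra B] {φ : Tr B}

/-- `tw s u k = s₀ u s₁ u ⋯ s_{k-1} u` -/
def tw (s : ℕ → B) (u : B) : ℕ → B
  | 0 => 1
  | k + 1 => tw s u k * (s k * u)

theorem gam_unitary {u : B} (hu : u ∈ unitary B) {s : ℕ → B} (hs : ∀ k, IsSym (s k)) (k : ℕ) :
    tw s u k ∈ unitary B := by
  induction k with
  | zero => exact one_mem _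
  | succ k ih => exact mul_mem ih (mul_mem (hs k).mem_unitary hu)

theorem gam_mem {u : B} {s : ℕ → B} (hs : ∀ k, IsSym (s k)) {S : ℕ → Submonoid B}
    (huS : ∀ k, u ∈ S k ∧ star u ∈ S k) (hsS : ∀ j k, j < k → s j ∈ S k) {k m : ℕ}
    (h : k ≤ m) : tw s u k ∈ S m ∧ star (tw s u k) ∈ S m := by
  induction k with
  | zero => exact ⟨one_mem _, by rw [tw, star_one]; exact one_mem _⟩
  | succ k ih =>
    obtain ⟨h1, h2⟩ := ih (by omega)
    refine ⟨mul_mem h1 (mul_mem (hsS k m (by omega)) (huS m).1), ?_⟩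
    rw [tw, star_mul, star_mul, (hs k).1]
    exact mul_mem (mul_mem (huS m).2 (hsS k m (by omega))) h2

theorem gam_one {s : B} {S : Submonoid B} (hs : φ.Free s S) {a b : B} (ha : a ∈ S) (hb : b ∈ S) :
    φ (a * s * b) = 0 := by
  simpa using hs.f1 [] (by simp) ha hb

theorem gam_two {s : B} {S : Submonoid B} (hs : φ.Free s S) {a y b : B} (ha : a ∈ S) (hy : y ∈ S)
    (hy0 : φ y = 0) (hb : b ∈ S) : φ (a * (s * y) * s * b) = 0 := by
  simpa using hs.f1 [y] (by simpa using ⟨hy, hy0⟩) ha hb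

theorem gam_star {x : B} (h : φ (star x) = 0) : φ x = 0 := by
  rw [φ.map_star] at h
  simpa using h

/-- **(F2)** the unitaries `γ (k, j) = t k (t j)⋆` (with `γ (k, k) = 1`) are orthonormal.
Proof. `t k = tw s u k` is unitary.  For `j ≤ k` let `a j k = (t j)⋆ t k = s_j u ⋯ s_{k-1} u`, so
`a j (k+1) = a j k * s k * u`, and `a j k`, `(a j k)⋆ ∈ S m` for `k ≤ m`; note `t k, (t k)⋆ ∈ S m`
for `k ≤ m`.  By the trace property the value is `φ ((t j')⋆ t j (t k)⋆ t k')`.
(0) For `j ≠ k`, `φ ((t j)⋆ t k) = 0`: up to `star` let `j < k = m+1`; it is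
`φ (((t j)⋆ t m) s_m u) = 0` by `f1` with `L = []`.
If `j = j'` (then `k ≠ k'`) or `k = k'` (then `j ≠ j'`; trace property) or `k = j` or `k' = j'`, the
product collapses and (0) applies.  Otherwise let `m + 1` be the maximum of the four indices.  If
it is attained once, write that `t (m+1) = t m * s m * u` (or its adjoint) and use `f1` with
`L = []` (all other factors are in `S m`).  If it is attained twice, then `j = k' = m+1`
(or, symmetrically under `star`, `k = j' = m + 1`), and the product is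
`((t j')⋆ t m) s_m (u (t k)⋆ t m) s_m u` with inner factor of trace `0`: `φ u = 0` if `k = m`, and
`φ (u (t k)⋆ t m) = φ ((u (t k)⋆ t m') s_{m'} u) = 0` by `f1` if `k < m = m' + 1`. -/
theorem gamma_orth {u : B} (hu : u ∈ unitary B) (hu0 : φ u = 0) (s : ℕ → B)
    (S : ℕ → Submonoid B) (huS : ∀ k, u ∈ S k ∧ star u ∈ S k) (hsS : ∀ j k, j < k → s j ∈ S k)
    (hs : ∀ k, φ.Free (s k) (S k)) {k j k' j' : ℕ} (h1 : ¬ (k = j ∧ k' = j'))
    (h2 : ¬ (k = k' ∧ j = j')) :
    φ (star (tw s u k * star (tw s u j)) * (tw s u k' * star (tw s u j'))) = 0 := by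
  have hsym : ∀ k, IsSym (s k) := fun k => (hs k).sym
  have hU := gam_unitary hu hsym
  have hM : ∀ {k m : ℕ}, k ≤ m → tw s u k ∈ S m ∧ star (tw s u k) ∈ S m :=
    fun h => gam_mem hsym huS hsS h
  set t := tw s u with ht
  have hsucc : ∀ m, t (m + 1) = t m * (s m * u) := fun m => rfl
  -- two factors
  have h0' : ∀ a b, a < b → φ (star (t a) * t b) = 0 := by
    intro a b hab
    obtain ⟨m, rfl⟩ : ∃ m, b = m + 1 := ⟨b - 1, by omega⟩
    have := gam_one (hs m) (mul_mem (hM (k := a) (by omega)).2 (hM le_rfl).1) (huS m).1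
    simpa only [hsucc, mul_assoc] using this
  have h0 : ∀ a b, a ≠ b → φ (star (t a) * t b) = 0 := by
    intro a b hab
    rcases lt_or_gt_of_ne hab with h | h
    · exact h0' a b h
    · refine gam_star ?_
      rw [star_mul, star_star]
      exact h0' b a h
  -- four factors
  set F : ℕ → ℕ → ℕ → ℕ → ℂ := fun a b c d => φ (star (t a) * t b * (star (t c) * t d)) with hF
  have hcyc : ∀ a b c d, F a b c d = F c d a b := fun a b c d => φ.comm _ _
  have hst : ∀ a b c d, F d c b a = 0 → F a b c d = 0 := by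
    intro a b c d h
    refine gam_star ?_
    simpa only [hF, star_mul, star_star] using h
  have hd : ∀ a b c d, a < d → b < d → c < d → F a b c d = 0 := by
    intro a b c d ha hb hc
    obtain ⟨m, rfl⟩ : ∃ m, d = m + 1 := ⟨d - 1, by omega⟩
    have := gam_one (hs m) (mul_mem (mul_mem (hM (k := a) (by omega)).2 (hM (k := b) (by omega)).1)
      (mul_mem (hM (k := c) (by omega)).2 (hM le_rfl).1)) (huS m).1
    simpa only [hF, hsucc, mul_assoc] using this
  have hbd : ∀ a b c, a < b → c < b → F a b c b = 0 := by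
    intro a b c ha hc
    obtain ⟨m, rfl⟩ : ∃ m, b = m + 1 := ⟨b - 1, by omega⟩
    have hy0 : φ (u * (star (t c) * t m)) = 0 := by
      rcases Nat.lt_or_ge c m with h | h
      · obtain ⟨m', rfl⟩ : ∃ m', m = m' + 1 := ⟨m - 1, by omega⟩
        have := gam_one (hs m') (mul_mem (huS m').1
          (mul_mem (hM (k := c) (by omega)).2 (hM le_rfl).1)) (huS m').1
        simpa only [hsucc, mul_assoc] using this
      · obtain rfl : c = m := by omega
        rw [(hU c).1, mul_one, hu0]
    have := gam_two (hs m) (mul_mem (hM (k := a) (by omega)).2 (hM le_rfl).1)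
      (mul_mem (huS m).1 (mul_mem (hM (k := c) (by omega)).2 (hM le_rfl).1)) hy0 (huS m).1
    simpa only [hF, hsucc, mul_assoc] using this
  have hbc : ∀ a b d, a ≠ d → F a b b d = 0 := by
    intro a b d h
    have e : star (t a) * t b * (star (t b) * t d) = star (t a) * t d := by
      rw [mul_assoc, ← mul_assoc (t b), (hU b).2, one_mul]
    simp only [hF, e]
    exact h0 a d h
  have hab : ∀ a c d, c ≠ d → F a a c d = 0 := by
    intro a c d h
    simp only [hF, (hU a).1, one_mul]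
    exact h0 c d h
  have key : F j' j k k' = 0 := by
    by_cases e1 : j' = j
    · subst e1
      exact hab _ _ _ fun h => h2 ⟨h, rfl⟩
    by_cases e2 : k = k'
    · subst e2
      rw [hcyc]
      exact hab _ _ _ e1
    by_cases e3 : j = k
    · subst e3
      exact hbc _ _ _ fun h => h1 ⟨rfl, h.symm⟩
    by_cases e4 : k' = j'
    · subst e4
      rw [hcyc]
      exact hbc _ _ _ fun h => e3 h.symm
    have hcase : (j' < k' ∧ j < k' ∧ k < k') ∨ (j' < j ∧ k < j ∧ k' < j) ∨
        (j < j' ∧ k < j' ∧ k' < j') ∨ (j' < k ∧ j < k ∧ k' < k) ∨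
        (j = k' ∧ j' < j ∧ k < j) ∨ (j' = k ∧ j < j' ∧ k' < j') := by omega
    rcases hcase with ⟨a, b, c⟩ | ⟨a, b, c⟩ | ⟨a, b, c⟩ | ⟨a, b, c⟩ | ⟨a, b, c⟩ | ⟨a, b, c⟩
    · exact hd _ _ _ _ a b c
    · rw [hcyc]
      exact hd _ _ _ _ b c a
    · exact hst _ _ _ _ (hd _ _ _ _ c b a)
    · rw [hcyc]
      exact hst _ _ _ _ (hd _ _ _ _ b a c)
    · subst a
      exact hbd _ _ _ b c
    · subst a
      exact hst _ _ _ _ (hbd _ _ _ c b)
  rw [← key, star_mul, star_star, ← mul_assoc, φ.comm]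
  simp only [hF, mul_assoc]

end Crest.Agent.R95
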