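import Crest.Agent.R95.Proj

/-! # rid 95: balanced halving and the splitting step -/

set_option autoImplicit false

open Filter Topology

namespace Crest.Agent.R95

variable {A : Type*} [CStarAlgebra A] {τ : Tr A}

private theorem halve_exact {P : StarSubalgebra ℂ A} (h : Setup τ P) {r : A}
    (hr : IsStarProjection r) (hrP : r ∈ P) :
    ∃ f ∈ P, IsStarProjection f ∧ r * f = f ∧ τ f = τ r / 2 := by
  have h0 := τ.proj_nonneg hr
  obtain ⟨f, hfP, hf, hrf, ht⟩ := exact_trace h hr hrP (t := (τ r).re / 2) (by linarith)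
    (by linarith)
  refine ⟨f, hfP, hf, hrf, ?_⟩
  rw [τ.proj_eq_re hf, ht, τ.proj_eq_re hr]
  simp

private theorem halve_orth_symm {p q : A} (hp : IsStarProjection p) (hq : IsStarProjection q)
    (h : p * q = 0) : q * p = 0 := by
  have := congrArg star h
  rwa [star_mul, hp.isSelfAdjoint.star_eq, hq.isSelfAdjoint.star_eq, star_zero] at this

/-- subprojections of orthogonal projections are orthogonal -/
private theorem halve_orth_sub {g g' a b : A} (hg : IsStarProjection g) (ha : IsStarProjection a)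
    (h : g * g' = 0) (hga : g * a = a) (hgb : g' * b = b) : a * b = 0 := by
  rw [← proj_mul_comm hg ha hga, ← hgb, mul_assoc, ← mul_assoc g, h, zero_mul, mul_zero]

private theorem halve_sub_mul {r g : A} (hg : IsStarProjection g) (h : r * g = g) :
    (r - g) * g = 0 := by rw [sub_mul, h, hg.isIdempotentElem.eq, sub_self]

private theorem halve_mul_sub {r g : A} (hr : IsStarProjection r) (h : r * g = g) :
    r * (r - g) = r - g := by rw [mul_sub, h, hr.isIdempotentElem.eq]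

private theorem halve_trans {r g a : A} (h : r * g = g) (h' : g * a = a) : r * a = a := by
  rw [← h', ← mul_assoc, h]

private theorem halve_ind {P : StarSubalgebra ℂ A} (h : Setup τ P) (F : Finset A) {γ : ℝ}
    (hγ : 0 < γ) (m : ℕ) : ∀ r : A, IsStarProjection r → r ∈ P → (τ r).re ≤ m * γ →
    ∃ f ∈ P, IsStarProjection f ∧ r * f = f ∧ τ f = τ r / 2 ∧
      ∑ X ∈ F, ‖τ (f * X) - τ (r * X) / 2‖ ^ 2 ≤ 4 * γ * ∑ X ∈ F, τ.n (r * X) ^ 2 := by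
  induction m with
  | zero =>
    intro r hr hrP hm
    have hr0 : r = 0 := by
      by_contra h0
      have := h.W.proj_pos hr h0
      simp only [Nat.cast_zero, zero_mul] at hm
      linarith
    subst hr0
    exact ⟨0, hrP, hr, by simp, by simp, by simp⟩
  | succ m ih =>
    intro r hr hrP hm
    have h0 := τ.proj_nonneg hr
    obtain ⟨g, hgP, hg, hrg, hgt⟩ := exact_trace h hr hrP (t := min γ (τ r).re)
      (le_min hγ.le h0) (min_le_right _ _)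
    obtain ⟨g₁, hg₁P, hg₁, hgg₁, hg₁t⟩ := halve_exact h hg hgP
    have hr' := proj_sub hr hg hrg
    obtain ⟨f₀, hf₀P, hf₀, hrf₀, hf₀t, hf₀s⟩ := ih (r - g) hr' (sub_mem hrP hgP) (by
      rw [map_sub, Complex.sub_re, hgt]
      push_cast at hm
      rcases min_cases γ (τ r).re with ⟨e, _⟩ | ⟨e, _⟩ <;> rw [e]
      · linarith
      · rw [sub_self]; positivity)
    have hg₂ := proj_sub hg hg₁ hgg₁
    have key : ∀ g' ∈ P, IsStarProjection g' → g * g' = g' → τ g' = τ g / 2 →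
        f₀ + g' ∈ P ∧ IsStarProjection (f₀ + g') ∧ r * (f₀ + g') = f₀ + g' ∧
          τ (f₀ + g') = τ r / 2 := by
      intro g' hP hp hle ht
      refine ⟨add_mem hf₀P hP, proj_add hf₀ hp
        (halve_orth_sub hr' hf₀ (halve_sub_mul hg hrg) hrf₀ hle), ?_, ?_⟩
      · rw [mul_add, halve_trans (halve_mul_sub hr hrg) hrf₀, halve_trans hrg hle]
      · rw [map_add, hf₀t, ht, map_sub]; ring
    have hc : ∀ X, ‖τ (g₁ * X) - τ (g * X) / 2‖ ^ 2 ≤ 4 * γ * τ.n (g * X) ^ 2 := by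
      intro X
      have e1 : g₁ * X = g₁ * (g * X) := by rw [← mul_assoc, proj_mul_comm hg hg₁ hgg₁]
      have e2 : g * X = g * (g * X) := by rw [← mul_assoc, hg.isIdempotentElem.eq]
      have a1 : ‖τ (g₁ * X)‖ ≤ τ.n g * τ.n (g * X) := by
        rw [e1]
        refine (τ.norm_mul_le _ _).trans (mul_le_mul_of_nonneg_right ?_ (τ.n_nonneg _))
        rw [← hgg₁]
        exact τ.n_mul_le_of_le_one' g hg₁.norm_le
      have a2 : ‖τ (g * X)‖ ≤ τ.n g * τ.n (g * X) := by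
        conv_lhs => rw [e2]
        exact τ.norm_mul_le _ _
      have a3 : ‖τ (g₁ * X) - τ (g * X) / 2‖ ≤ 2 * (τ.n g * τ.n (g * X)) := by
        refine (norm_sub_le _ _).trans ?_
        rw [norm_div, Complex.norm_two]
        linarith [norm_nonneg (τ (g * X))]
      have a4 : τ.n g ^ 2 ≤ γ := by rw [τ.n_proj_sq hg, hgt]; exact min_le_left _ _
      calc _ ≤ (2 * (τ.n g * τ.n (g * X))) ^ 2 := pow_le_pow_left₀ (norm_nonneg _) a3 2
        _ = 4 * τ.n g ^ 2 * τ.n (g * X) ^ 2 := by ring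
        _ ≤ _ := by gcongr
    have hpy : ∀ X, τ.n (r * X) ^ 2 = τ.n ((r - g) * X) ^ 2 + τ.n (g * X) ^ 2 := by
      intro X
      rw [← τ.n_add_mul_sq hr' (halve_sub_mul hg hrg), ← add_mul, sub_add_cancel]
    have hpar : ∑ X ∈ F, ‖τ ((f₀ + g₁) * X) - τ (r * X) / 2‖ ^ 2 +
        ∑ X ∈ F, ‖τ ((f₀ + (g - g₁)) * X) - τ (r * X) / 2‖ ^ 2 ≤
        2 * (4 * γ * ∑ X ∈ F, τ.n (r * X) ^ 2) := by
      have e : ∀ X, ‖τ ((f₀ + g₁) * X) - τ (r * X) / 2‖ ^ 2 +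
          ‖τ ((f₀ + (g - g₁)) * X) - τ (r * X) / 2‖ ^ 2 =
          2 * ‖τ (f₀ * X) - τ ((r - g) * X) / 2‖ ^ 2 + 2 * ‖τ (g₁ * X) - τ (g * X) / 2‖ ^ 2 := by
        intro X
        have := parallelogram_law_with_norm ℂ (τ (f₀ * X) - τ ((r - g) * X) / 2)
          (τ (g₁ * X) - τ (g * X) / 2)
        rw [← mul_add, ← this]
        congr 3 <;> simp only [add_mul, sub_mul, map_add, map_sub] <;> ring
      rw [← Finset.sum_add_distrib]
      simp only [e, hpy, Finset.sum_add_distrib, ← Finset.mul_sum]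
      have := Finset.sum_le_sum fun X (_ : X ∈ F) => hc X
      rw [← Finset.mul_sum] at this
      linarith
    rcases le_total (∑ X ∈ F, ‖τ ((f₀ + g₁) * X) - τ (r * X) / 2‖ ^ 2)
      (∑ X ∈ F, ‖τ ((f₀ + (g - g₁)) * X) - τ (r * X) / 2‖ ^ 2) with hle | hle
    · obtain ⟨k1, k2, k3, k4⟩ := key g₁ hg₁P hg₁ hgg₁ hg₁t
      exact ⟨_, k1, k2, k3, k4, by linarith⟩
    · obtain ⟨k1, k2, k3, k4⟩ := key (g - g₁) (sub_mem hgP hg₁P) hg₂ (halve_mul_sub hg hgg₁)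
        (by rw [map_sub, hg₁t]; ring)
      exact ⟨_, k1, k2, k3, k4, by linarith⟩

private theorem halve_four {p₁ p₂ p₃ p₄ : A} (h₁ : IsStarProjection p₁) (h₃ : IsStarProjection p₃)
    (h12 : p₁ * p₂ = 0) (h43 : p₄ * p₃ = 0) (Y : A) :
    τ.n ((p₁ + p₂) * Y * (p₃ + p₄)) ^ 2 = τ.n (p₁ * Y * p₃) ^ 2 + τ.n (p₁ * Y * p₄) ^ 2 +
      τ.n (p₂ * Y * p₃) ^ 2 + τ.n (p₂ * Y * p₄) ^ 2 := by
  rw [mul_assoc, add_mul, τ.n_add_mul_sq h₁ h12, ← mul_assoc, ← mul_assoc, mul_add, mul_add,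
    τ.n_mul_add_sq h₃ h43, τ.n_mul_add_sq h₃ h43]
  ring

private theorem halve_two {P : StarSubalgebra ℂ A} (h : Setup τ P) {q : A}
    (hq : IsStarProjection q) (hqP : q ∈ P) {Y : A} (hY : q * Y = Y) (hY' : Y * q = Y)
    (hY0 : τ Y = 0) (hn : τ.n Y ≠ 0) :
    ∃ g₁ ∈ P, IsStarProjection g₁ ∧ q * g₁ = g₁ ∧
      τ.n Y ^ 2 / 64 ≤ τ.n (g₁ * Y * (q - g₁)) ^ 2 + τ.n ((q - g₁) * Y * g₁) ^ 2 := by
  have hqs : star q = q := hq.isSelfAdjoint
  have hqq : q * q = q := hq.isIdempotentElem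
  have hqq' : ∀ w, q * (q * w) = q * w := fun w => by rw [← mul_assoc, hqq]
  have hnpos : 0 < τ.n Y := (τ.n_nonneg Y).lt_of_ne' hn
  have hq0 : q ≠ 0 := by
    rintro rfl
    rw [zero_mul] at hY
    exact hn (by rw [← hY, map_zero])
  have hτq : τ q ≠ 0 := fun e => by
    have := h.W.proj_pos hq hq0
    rw [e] at this
    exact lt_irrefl _ this
  have hQ : τ.Closed (P ⊓ StarSubalgebra.centralizer ℂ {q}) :=
    h.closed.inf (h.W.closed_centralizer _)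
  obtain ⟨v, hvQ, hv, hvn⟩ := moving h.W hQ Y fun z hz => by
    have hzq : z * q = q * z := hz q ((mem_inf_centralizer hqs).2 ⟨hqP, rfl⟩)
    have hc := corner h hq hqP (x := q * z * q) (by simp only [mul_assoc, hqq'])
      (by rw [mul_assoc, hqq]) fun y hy => by
        have hm := hz (q * y * q) ((mem_inf_centralizer hqs).2
          ⟨mul_mem (mul_mem hqP hy) hqP, by simp only [mul_assoc, hqq, hqq']⟩)
        calc q * z * q * (q * y * q) = q * (z * (q * y * q)) := by simp only [mul_assoc, hqq']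
          _ = q * y * (q * z) := by rw [hm]; simp only [mul_assoc, hqq']
          _ = q * y * (q * (z * q)) := by rw [hzq, hqq']
          _ = _ := by simp only [mul_assoc, hqq']
    have e1 : star Y * q = star Y := by rw [← hqs, ← star_mul, hY]
    have e2 : q * star Y = star Y := by rw [← hqs, ← star_mul, hY']
    have e3 : τ (star Y * (q * z * q)) = τ (star Y * z) := by
      rw [← mul_assoc, ← mul_assoc, e1, τ.comm3, e2]
    have e4 := congrArg (fun w => τ (star Y * w)) hc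
    simp only [mul_smul_comm, map_smul, smul_eq_mul] at e4
    rw [e3, e1, τ.map_star, hY0, map_zero, mul_zero] at e4
    exact (mul_eq_zero.1 e4).resolve_left hτq
  let N : Seminorm ℂ A := τ.n.comp (LinearMap.mulRight ℂ Y - LinearMap.mulLeft ℂ Y)
  have hN : ∀ a, N a = τ.n (a * Y - Y * a) := fun a => rfl
  obtain ⟨s, hsQ, hs, hsn⟩ := exists_sym_seminorm h.W hQ N (2 * τ.n Y) (fun a => by
    rw [hN]
    have := map_sub_le_add τ.n (a * Y) (Y * a)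
    linarith [τ.n_mul_le a Y, τ.n_mul_le' Y a]) hvQ (norm_le_one_of_unitary hv)
    (c := τ.n Y / 4) (by rw [hN]; linarith)
  obtain ⟨hsP, hqs'⟩ := (mem_inf_centralizer hqs).1 hsQ
  obtain ⟨g, hgdef⟩ : ∃ g : A, g = (2⁻¹ : ℂ) • (1 + s) := ⟨_, rfl⟩
  have hg : IsStarProjection g := hgdef ▸ hs.proj
  have hgP : g ∈ P := hgdef ▸ SMulMemClass.smul_mem _ (add_mem (one_mem _) hsP)
  have hqg : q * g = g * q := by
    rw [hgdef, mul_smul_comm, smul_mul_assoc, mul_add, add_mul, hqs', one_mul, mul_one]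
  have hg₁ : IsStarProjection (q * g) := hq.mul hg hqg
  refine ⟨q * g, mul_mem hqP hgP, hg₁, hqq' g, ?_⟩
  have e1 : s * Y - Y * s =
      (2 : ℂ) • (q * g * (Y * (q - q * g)) + (q - q * g) * (-(Y * (q * g)))) := by
    have a1 : q * g * Y = g * Y := by rw [hqg, mul_assoc, hY]
    have a2 : Y * (q * g) = Y * g := by rw [← mul_assoc, hY']
    have a3 : q * (Y * g) = Y * g := by rw [← mul_assoc, hY]
    have a4 : q * g * (Y * (q - q * g)) + (q - q * g) * (-(Y * (q * g))) = g * Y - Y * g := by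
      rw [mul_sub, hY', a2, mul_sub, mul_neg, sub_mul, a3, a1]
      abel
    rw [a4, hgdef, smul_mul_assoc, mul_smul_comm, add_mul, mul_add, one_mul, mul_one]
    module
  have e2 := τ.n_add_mul_sq (q := q - q * g) hg₁
    (halve_orth_symm (proj_sub hq hg₁ (hqq' g)) hg₁ (halve_sub_mul hg₁ (hqq' g)))
    (Y * (q - q * g)) (-(Y * (q * g)))
  rw [hN, e1, map_smul_eq_mul, Complex.norm_two] at hsn
  rw [mul_neg (q - q * g), map_neg_eq_map, ← mul_assoc (q - q * g), ← mul_assoc (q * g) Y,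
    ← mul_neg] at e2
  rw [← e2]
  rw [← mul_assoc (q * g) Y, mul_neg (q - q * g), ← mul_assoc (q - q * g), ← mul_neg] at hsn
  nlinarith

/-- **Balanced halving.** Proof. Fix `γ > 0` and prove by induction on `m`: every projection
`r ∈ P` with `re τ r ≤ m γ` has a subprojection `f ∈ P` with `τ f = τ r / 2` and
`∑_{X ∈ F} |τ ((2f - r) X)|² ≤ γ ∑_{X ∈ F} n (r X)²`.  (`m = 0`: `r = 0`.)  Step: by `exact_trace`
take `g ≤ r` with trace `min γ (re τ r)` and `g₁ ≤ g` of half the trace, `g₂ = g - g₁`; let `f₀` be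
given for `r - g`.  With `a_X = τ ((2f₀ - (r - g)) X)`, `c_X = τ ((g₁ - g₂) X)`:
`|c_X|² = |τ ((g₁ - g₂) (g X))|² ≤ τ(g) n (g X)² ≤ γ n (g X)²`; `f = f₀ + g₁` gives `a + c`,
`f = f₀ + g₂` gives `a - c`, and `∑|a+c|² + ∑|a-c|² = 2∑|a|² + 2∑|c|²`, so one of them is
`≤ ∑|a|² + ∑|c|²`; `n (r X)² = n ((r - g) X)² + n (g X)²`.  Finally choose `γ` with
`γ ∑ ‖X‖² ≤ η²`. -/
theorem balanced_half {P : StarSubalgebra ℂ A} (h : Setup τ P) {r : A} (hr : IsStarProjection r)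
    (hrP : r ∈ P) (F : Finset A) {η : ℝ} (hη : 0 < η) :
    ∃ f ∈ P, IsStarProjection f ∧ r * f = f ∧ τ f = τ r / 2 ∧
      ∀ X ∈ F, ‖τ (f * X) - τ (r * X) / 2‖ ≤ η := by
  have hS : 0 ≤ ∑ X ∈ F, ‖X‖ ^ 2 := Finset.sum_nonneg fun X _ => by positivity
  have hγ : 0 < η ^ 2 / (4 * (∑ X ∈ F, ‖X‖ ^ 2 + 1)) := by positivity
  obtain ⟨m, hm⟩ := exists_nat_ge (1 / (η ^ 2 / (4 * (∑ X ∈ F, ‖X‖ ^ 2 + 1))))
  rw [div_le_iff₀ hγ] at hm
  obtain ⟨f, hfP, hf, hrf, ht, hs⟩ := halve_ind h F hγ m r hr hrP ((τ.proj_le_one hr).trans hm)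
  refine ⟨f, hfP, hf, hrf, ht, fun X hX => ?_⟩
  refine (pow_le_pow_iff_left₀ (norm_nonneg _) hη.le two_ne_zero).1 ?_
  refine (Finset.single_le_sum (f := fun X => ‖τ (f * X) - τ (r * X) / 2‖ ^ 2)
    (fun X _ => by positivity) hX).trans (hs.trans ?_)
  have h1 : ∑ X ∈ F, τ.n (r * X) ^ 2 ≤ ∑ X ∈ F, ‖X‖ ^ 2 + 1 := by
    refine le_trans (Finset.sum_le_sum fun X _ => ?_) (le_add_of_nonneg_right zero_le_one)
    exact pow_le_pow_left₀ (τ.n_nonneg _)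
      ((τ.n_mul_le_of_le_one hr.norm_le X).trans (τ.n_le_norm X)) 2
  refine (mul_le_mul_of_nonneg_left h1 (by positivity)).trans (le_of_eq ?_)
  field_simp

/-- **Splitting step.** Proof. If `n Y = 0` use `balanced_half`.  Otherwise let
`Q = P ⊓ centralizer {q}`.  If `z` commutes with `Q` then `z` commutes with `q ∈ Q` and `q z q`
commutes with every `q y q` (`y ∈ P`; `q y q ∈ Q`), so by `corner` `τ q • q z q = τ (q z q) • q`,
hence `τ q * τ (Y⋆ z) = τ (Y⋆ (τ q • q z q)) = c τ (Y⋆ q) = 0` and `τ q ≠ 0` (else `q = 0 = Y`).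
`moving` gives a unitary `v ∈ Q` with `N v ≥ n Y` for the seminorm `N a = n (a Y - Y a)`
(`≤ 2 n Y ‖a‖`), and `exists_sym_seminorm` a symmetry `s ∈ Q` with `N s > n Y / 4`.  Put
`g = (1+s)/2`, `g₁ = q g`, `g₂ = q - g₁`; `s Y - Y s = 2 (g₁ Y g₂ - g₂ Y g₁)`, so
`D := n (g₁ Y g₂)² + n (g₂ Y g₁)² ≥ n Y²/64`.  Halve `g₁ = a₁ + a₂`, `g₂ = b₁ + b₂` by
`balanced_half` with `η/2`.  Both `f = a₁ + b₁` (`q - f = a₂ + b₂`) and `f = a₁ + b₂`
(`q - f = a₂ + b₁`) have the trace properties.  For pairwise orthogonal projections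
`n ((p₁+p₂) Y (p₃+p₄))² = ∑ n (pᵢ Y pⱼ)²` (`n_add_mul_sq`, `n_mul_add_sq`), so the two off-diagonal
masses add up to at least `D`, and one of them is `≥ D/2`. -/
theorem split {P : StarSubalgebra ℂ A} (h : Setup τ P) {q : A} (hq : IsStarProjection q)
    (hqP : q ∈ P) (F : Finset A) {η : ℝ} (hη : 0 < η) {Y : A} (hY : q * Y = Y) (hY' : Y * q = Y)
    (hY0 : τ Y = 0) :
    ∃ f ∈ P, IsStarProjection f ∧ q * f = f ∧ τ f = τ q / 2 ∧
      (∀ X ∈ F, ‖τ (f * X) - τ (q * X) / 2‖ ≤ η) ∧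
      τ.n Y ^ 2 / 128 ≤ τ.n (f * Y * (q - f)) ^ 2 + τ.n ((q - f) * Y * f) ^ 2 := by
  by_cases hn : τ.n Y = 0
  · obtain ⟨f, hfP, hf, hqf, ht, hX⟩ := balanced_half h hq hqP F hη
    exact ⟨f, hfP, hf, hqf, ht, hX, by rw [hn]; simp only [ne_eq, OfNat.ofNat_ne_zero,
      not_false_eq_true, zero_pow, zero_div]; positivity⟩
  obtain ⟨g₁, hg₁P, hg₁, hqg₁, hD⟩ := halve_two h hq hqP hY hY' hY0 hn
  obtain ⟨g₂, hg₂def⟩ : ∃ g₂, g₂ = q - g₁ := ⟨_, rfl⟩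
  have hg₂ : IsStarProjection g₂ := hg₂def ▸ proj_sub hq hg₁ hqg₁
  have hg₂P : g₂ ∈ P := hg₂def ▸ sub_mem hqP hg₁P
  have hqg₂ : q * g₂ = g₂ := hg₂def ▸ halve_mul_sub hq hqg₁
  have h21 : g₂ * g₁ = 0 := hg₂def ▸ halve_sub_mul hg₁ hqg₁
  have h12 : g₁ * g₂ = 0 := halve_orth_symm hg₂ hg₁ h21
  have hsum : q = g₁ + g₂ := by rw [hg₂def]; abel
  rw [← hg₂def] at hD
  obtain ⟨a₁, ha₁P, ha₁, hga₁, ha₁t, ha₁X⟩ := balanced_half h hg₁ hg₁P F (half_pos hη)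
  obtain ⟨b₁, hb₁P, hb₁, hgb₁, hb₁t, hb₁X⟩ := balanced_half h hg₂ hg₂P F (half_pos hη)
  have key : ∀ b ∈ P, IsStarProjection b → g₂ * b = b → τ b = τ g₂ / 2 →
      (∀ X ∈ F, ‖τ (b * X) - τ (g₂ * X) / 2‖ ≤ η / 2) →
      a₁ + b ∈ P ∧ IsStarProjection (a₁ + b) ∧ q * (a₁ + b) = a₁ + b ∧ τ (a₁ + b) = τ q / 2 ∧
        ∀ X ∈ F, ‖τ ((a₁ + b) * X) - τ (q * X) / 2‖ ≤ η := by
    intro b hbP hb hgb hbt hbX
    refine ⟨add_mem ha₁P hbP, proj_add ha₁ hb (halve_orth_sub hg₁ ha₁ h12 hga₁ hgb), ?_, ?_,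
      fun X hX => ?_⟩
    · rw [mul_add, halve_trans hqg₁ hga₁, halve_trans hqg₂ hgb]
    · rw [map_add, ha₁t, hbt, hsum, map_add]; ring
    · have e : τ ((a₁ + b) * X) - τ (q * X) / 2 =
          (τ (a₁ * X) - τ (g₁ * X) / 2) + (τ (b * X) - τ (g₂ * X) / 2) := by
        rw [hsum, add_mul, add_mul, map_add, map_add]; ring
      rw [e]
      linarith [norm_add_le (τ (a₁ * X) - τ (g₁ * X) / 2) (τ (b * X) - τ (g₂ * X) / 2),
        ha₁X X hX, hbX X hX]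
  obtain ⟨a₂, ha₂def⟩ : ∃ a₂, a₂ = g₁ - a₁ := ⟨_, rfl⟩
  obtain ⟨b₂, hb₂def⟩ : ∃ b₂, b₂ = g₂ - b₁ := ⟨_, rfl⟩
  have ha₂ : IsStarProjection a₂ := ha₂def ▸ proj_sub hg₁ ha₁ hga₁
  have hb₂ : IsStarProjection b₂ := hb₂def ▸ proj_sub hg₂ hb₁ hgb₁
  have hga₂ : g₁ * a₂ = a₂ := ha₂def ▸ halve_mul_sub hg₁ hga₁
  have hgb₂ : g₂ * b₂ = b₂ := hb₂def ▸ halve_mul_sub hg₂ hgb₁
  have a21 : a₂ * a₁ = 0 := ha₂def ▸ halve_sub_mul ha₁ hga₁
  have b21 : b₂ * b₁ = 0 := hb₂def ▸ halve_sub_mul hb₁ hgb₁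
  have a12 := halve_orth_symm ha₂ ha₁ a21
  have b12 := halve_orth_symm hb₂ hb₁ b21
  have ab11 := halve_orth_sub hg₁ ha₁ h12 hga₁ hgb₁
  have ab12 := halve_orth_sub hg₁ ha₁ h12 hga₁ hgb₂
  have ab21 := halve_orth_sub hg₁ ha₂ h12 hga₂ hgb₁
  have ab22 := halve_orth_sub hg₁ ha₂ h12 hga₂ hgb₂
  have ba11 := halve_orth_symm ha₁ hb₁ ab11
  have ba21 := halve_orth_symm ha₁ hb₂ ab12
  have ba12 := halve_orth_symm ha₂ hb₁ ab21
  have ba22 := halve_orth_symm ha₂ hb₂ ab22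
  have eg₁ : g₁ = a₁ + a₂ := by rw [ha₂def]; abel
  have eg₂ : g₂ = b₁ + b₂ := by rw [hb₂def]; abel
  have e1 : q - (a₁ + b₁) = a₂ + b₂ := by rw [hsum, eg₁, eg₂]; abel
  have e2 : q - (a₁ + b₂) = a₂ + b₁ := by rw [hsum, eg₁, eg₂]; abel
  have hD' := hD
  rw [eg₁, eg₂, halve_four ha₁ hb₁ a12 b21, halve_four hb₁ ha₁ b12 a21] at hD'
  have m1 := halve_four (τ := τ) ha₁ ha₂ ab11 ba22 Y
  have m2 := halve_four (τ := τ) ha₂ ha₁ ab22 ba11 Y
  have m3 := halve_four (τ := τ) ha₁ ha₂ ab12 ba12 Y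
  have m4 := halve_four (τ := τ) ha₂ ha₁ ab21 ba21 Y
  by_cases hc : τ.n Y ^ 2 / 128 ≤
      τ.n ((a₁ + b₁) * Y * (a₂ + b₂)) ^ 2 + τ.n ((a₂ + b₂) * Y * (a₁ + b₁)) ^ 2
  · obtain ⟨k1, k2, k3, k4, k5⟩ := key b₁ hb₁P hb₁ hgb₁ hb₁t hb₁X
    exact ⟨_, k1, k2, k3, k4, k5, by rwa [e1]⟩
  · obtain ⟨k1, k2, k3, k4, k5⟩ := key b₂ (hb₂def ▸ sub_mem hg₂P hb₁P) hb₂ hgb₂
      (by rw [hb₂def, map_sub, hb₁t]; ring) fun X hX => by
        have e : τ (b₂ * X) - τ (g₂ * X) / 2 = -(τ (b₁ * X) - τ (g₂ * X) / 2) := by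
          rw [hb₂def, sub_mul, map_sub]; ring
        rw [e, norm_neg]
        exact hb₁X X hX
    refine ⟨_, k1, k2, k3, k4, k5, ?_⟩
    rw [e2]
    linarith [sq_nonneg (τ.n (a₁ * Y * a₂)), sq_nonneg (τ.n (a₂ * Y * a₁)),
      sq_nonneg (τ.n (b₁ * Y * b₂)), sq_nonneg (τ.n (b₂ * Y * b₁))]

end Crest.Agent.R95
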