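import Crest.Agent.R95.Basic

/-! # rid 95: the telescoping estimate for products of exponentials of free elements -/

set_option autoImplicit false

open Complex

namespace Crest.Agent.R95

variable {B : Type*} [CStarAlgebra B] {φ : Tr B}

/-- Second-order Taylor formula.  Proof. `Ψ = ∑' m, ((m+2)!)⁻¹ • y^m`, using
`NormedSpace.exp_series_hasSum_exp'`, `hasSum_nat_add_iff' 2`, and `1/(m+2)! ≤ 2⁻¹ * 2⁻ᵐ`
(`‖y^m‖ ≤ 1`; `‖1‖ ≤ 1` in a C⋆-algebra). -/
theorem exp_taylor {y : B} (hy : ‖y‖ ≤ 1) :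
    ∃ Ψ : B, ‖Ψ‖ ≤ 1 ∧ NormedSpace.exp y = 1 + y + y * Ψ * y := by
  have h1 : ‖(1 : B)‖ ≤ 1 := norm_le_one_of_unitary (one_mem _)
  have hpow : ∀ m : ℕ, ‖y ^ m‖ ≤ 1 := by
    intro m
    induction m with
    | zero => simpa using h1
    | succ m ih =>
      rw [pow_succ]
      exact (norm_mul_le _ _).trans (mul_le_one₀ ih (norm_nonneg _) hy)
  have hfac : ∀ m : ℕ, 2 * 2 ^ m ≤ (m + 2).factorial := by
    intro m
    induction m with
    | zero => simp
    | succ m ih =>
      rw [show m + 1 + 2 = (m + 2) + 1 by ring, Nat.factorial_succ, pow_succ]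
      nlinarith
  have hb : ∀ m : ℕ, ‖(((m + 2).factorial : ℂ)⁻¹) • y ^ m‖ ≤ 1 / 2 / 2 ^ m := by
    intro m
    rw [norm_smul, norm_inv, Complex.norm_natCast]
    have h2 : (2 : ℝ) * 2 ^ m ≤ (m + 2).factorial := by exact_mod_cast hfac m
    have h3 : ((m + 2).factorial : ℝ)⁻¹ ≤ 1 / 2 / 2 ^ m := by
      rw [div_div, one_div]
      exact inv_anti₀ (by positivity) h2
    exact (mul_le_of_le_one_right (by positivity) (hpow m)).trans h3
  have hs : Summable fun m : ℕ => (((m + 2).factorial : ℂ)⁻¹) • y ^ m :=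
    Summable.of_norm_bounded (hasSum_geometric_two' 1).summable hb
  refine ⟨∑' m : ℕ, (((m + 2).factorial : ℂ)⁻¹) • y ^ m,
    tsum_of_norm_bounded (hasSum_geometric_two' 1) hb, ?_⟩
  have h4 := (hasSum_nat_add_iff' 2).2 (NormedSpace.exp_series_hasSum_exp' (𝕂 := ℂ) y)
  have h5 := (hs.hasSum.mul_left y).mul_right y
  have h6 : (fun m : ℕ => y * ((((m + 2).factorial : ℂ)⁻¹) • y ^ m) * y) =
      fun m : ℕ => (((m + 2).factorial : ℂ)⁻¹) • y ^ (m + 2) := by
    funext m
    rw [mul_smul_comm, smul_mul_assoc, ← pow_succ', ← pow_succ]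
  rw [h6] at h5
  have h7 := h4.unique h5
  simp only [Finset.sum_range_succ, Finset.range_zero, Finset.sum_empty] at h7
  rw [← h7]
  simp

/-- `eprod x k = exp (i x₀) ⋯ exp (i x_{k-1})` -/
noncomputable def eprod (x : ℕ → B) : ℕ → B
  | 0 => 1
  | k + 1 => eprod x k * NormedSpace.exp (I • x k)

/-- real part of a unitary -/
noncomputable def rp (w : B) : B := (2⁻¹ : ℂ) • (w + star w)

lemma tl_rp_star (w : B) : star (rp w) = rp w := by
  unfold rp
  rw [star_smul, star_add, star_star, add_comm]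
  simp

lemma tl_rp_norm {w : B} (hw : ‖w‖ ≤ 1) : ‖rp w‖ ≤ 1 := by
  unfold rp
  rw [norm_smul]
  have := norm_add_le w (star w)
  rw [norm_star] at this
  simp only [norm_inv, Complex.norm_ofNat]
  linarith

section free

variable {ι : Type*} (W : ι → unitary B)

open Classical in
/-- exponent sum of a letter -/
noncomputable def tlChi (α : ι) : FreeGroup ι →* Multiplicative ℤ :=
  FreeGroup.lift fun β => if β = α then Multiplicative.ofAdd 1 else 1

lemma tlChi_self (α : ι) : tlChi α (FreeGroup.of α) = Multiplicative.ofAdd 1 := by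
  simp [tlChi]

lemma tlChi_ne {α β : ι} (h : β ≠ α) : tlChi α (FreeGroup.of β) = 1 := by
  simp [tlChi, h]

/-- the representation -/
noncomputable def tlRho : FreeGroup ι →* B := (unitary B).subtype.comp (FreeGroup.lift W)

lemma tlRho_apply (ω : FreeGroup ι) : tlRho W ω = (FreeGroup.lift W ω : unitary B) := rfl

lemma tlRho_of (α : ι) : tlRho W (FreeGroup.of α) = W α := by
  rw [tlRho_apply, FreeGroup.lift_apply_of]

lemma tlRho_inv (α : ι) : tlRho W (FreeGroup.of α)⁻¹ = star (W α : B) := by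
  rw [tlRho_apply, map_inv, FreeGroup.lift_apply_of, ← Unitary.star_eq_inv]
  rfl

lemma tl_rp_eq (α : ι) : rp (W α : B) =
    (2⁻¹ : ℂ) • (tlRho W (FreeGroup.of α) + tlRho W (FreeGroup.of α)⁻¹) := by
  rw [tlRho_of, tlRho_inv]; rfl

/-- words with exponent sum zero -/
noncomputable def tlS (α : ι) : Submonoid B := (tlChi α).ker.toSubmonoid.map (tlRho W)

/-- the closed algebra they generate -/
noncomputable def tlV (α : ι) : Subalgebra ℂ B :=
  (Algebra.adjoin ℂ (tlS W α : Set B)).topologicalClosure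

lemma tl_mem_V {α : ι} {ω : FreeGroup ι} (h : tlChi α ω = 1) : tlRho W ω ∈ tlV W α :=
  Subalgebra.le_topologicalClosure _ (Algebra.subset_adjoin ⟨ω, h, rfl⟩)

lemma tl_W_mem {α β : ι} (h : β ≠ α) : (W β : B) ∈ tlV W α := by
  rw [← tlRho_of]; exact tl_mem_V W (tlChi_ne h)

lemma tl_rp_mem {α β : ι} (h : β ≠ α) : rp (W β : B) ∈ tlV W α := by
  rw [tl_rp_eq]
  refine Subalgebra.smul_mem _ (add_mem (tl_mem_V W (tlChi_ne h)) (tl_mem_V W ?_)) _
  rw [map_inv, tlChi_ne h, inv_one]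

lemma tl_exp_mem {α : ι} {y : B} (h : y ∈ tlV W α) : NormedSpace.exp y ∈ tlV W α := by
  let +nondep : NormedAlgebra ℚ B := .restrictScalars ℚ ℂ B
  exact NormedSpace.exp_mem (R := ℂ) (Subalgebra.isClosed_topologicalClosure _) h

lemma tl_ind {α : ι} (L : B →ₗ[ℂ] ℂ) (hL : Continuous L)
    (h : ∀ ω, tlChi α ω = 1 → L (tlRho W ω) = 0) {z : B} (hz : z ∈ tlV W α) : L z = 0 := by
  have h1 : (Algebra.adjoin ℂ (tlS W α : Set B) : Set B) ⊆ {z | L z = 0} := by
    intro y hy
    have hy' : y ∈ Subalgebra.toSubmodule (Algebra.adjoin ℂ (tlS W α : Set B)) := hy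
    rw [Algebra.adjoin_eq_span, Submonoid.closure_eq] at hy'
    have : Submodule.span ℂ (tlS W α : Set B) ≤ LinearMap.ker L := by
      rw [Submodule.span_le]
      rintro _ ⟨ω, hω, rfl⟩
      exact h ω hω
    exact this hy'
  exact closure_minimal h1 (isClosed_eq hL continuous_const) hz

lemma tl_van {g : B}
    (hfreeg : ∀ ω : FreeGroup ι, ω ≠ 1 → φ (g * (FreeGroup.lift W ω : unitary B)) = 0)
    {α : ι} {Z X : B} (hZ : Z ∈ tlV W α) (hX : X ∈ tlV W α) :
    φ (g * Z * rp (W α : B) * X) = 0 := by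
  have key : ∀ ω, tlChi α ω = 1 → φ (g * Z * rp (W α : B) * tlRho W ω) = 0 := by
    intro ω hω
    refine tl_ind W (α := α) (φ.toLin ∘ₗ LinearMap.mulRight ℂ (tlRho W ω) ∘ₗ
      LinearMap.mulRight ℂ (rp (W α : B)) ∘ₗ LinearMap.mulLeft ℂ g) ?_ ?_ hZ
    · exact φ.continuous.comp (by fun_prop : Continuous fun z : B =>
        g * z * rp (W α : B) * tlRho W ω)
    · intro ω' hω'
      change φ (g * tlRho W ω' * rp (W α : B) * tlRho W ω) = 0
      have e : g * tlRho W ω' * rp (W α : B) * tlRho W ω =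
          (2⁻¹ : ℂ) • (g * tlRho W (ω' * FreeGroup.of α * ω) +
            g * tlRho W (ω' * (FreeGroup.of α)⁻¹ * ω)) := by
        rw [tl_rp_eq]
        simp only [map_mul, mul_smul_comm, smul_mul_assoc, mul_add, add_mul, mul_assoc]
      rw [e, map_smul, map_add, tlRho_apply, tlRho_apply, hfreeg, hfreeg]
      · simp
      · intro h
        have := congrArg (tlChi α) h
        rw [(tlChi α).map_one, map_mul, map_mul, map_inv, hω, hω', tlChi_self] at this
        simp at this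
      · intro h
        have := congrArg (tlChi α) h
        rw [(tlChi α).map_one, map_mul, map_mul, hω, hω', tlChi_self] at this
        simp at this
  refine tl_ind W (α := α) (φ.toLin ∘ₗ LinearMap.mulLeft ℂ (g * Z * rp (W α : B))) ?_ key hX
  exact φ.continuous.comp (by fun_prop : Continuous fun z : B => g * Z * rp (W α : B) * z)

lemma tl_orth (hfree : ∀ ω : FreeGroup ι, ω ≠ 1 → φ (FreeGroup.lift W ω : unitary B) = 0)
    {α β : ι} (h : β ≠ α) : φ (rp (W α : B) * rp (W β : B)) = 0 := by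
  have := tl_van W (φ := φ) (g := 1) (fun ω hω => by rw [one_mul]; exact hfree ω hω)
    (one_mem (tlV W α)) (tl_rp_mem W h)
  simpa using this

end free

lemma tl_n_sum {κ : Type*} (s : Finset κ) (f : κ → B)
    (h : ∀ i ∈ s, ∀ j ∈ s, i ≠ j → φ (star (f i) * f j) = 0) :
    φ.n (∑ i ∈ s, f i) ^ 2 = ∑ i ∈ s, φ.n (f i) ^ 2 := by
  classical
  induction s using Finset.induction_on with
  | empty => simp
  | insert a s ha ih =>
    rw [Finset.sum_insert ha, Finset.sum_insert ha, φ.n_add_sq_of_orth, ih]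
    · exact fun i hi j hj => h i (Finset.mem_insert_of_mem hi) j (Finset.mem_insert_of_mem hj)
    · rw [Finset.mul_sum, map_sum]
      exact Finset.sum_eq_zero fun j hj => h a (Finset.mem_insert_self _ _) j
        (Finset.mem_insert_of_mem hj) (fun e => ha (e ▸ hj))

lemma tl_step {G y X : B} (hG : ‖G‖ ≤ 1) (hy : ‖y‖ ≤ 1) (hX : ‖X‖ ≤ 1) :
    ‖φ (G * NormedSpace.exp y * X) - φ (G * X) - φ (G * y * X)‖ ≤ φ.n y ^ 2 := by
  obtain ⟨Ψ, hΨ, e⟩ := exp_taylor hy
  have e2 : G * NormedSpace.exp y * X = G * X + G * y * X + (G * y) * (Ψ * (y * X)) := by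
    rw [e]; noncomm_ring
  rw [e2, map_add, map_add]
  have e3 : φ (G * X) + φ (G * y * X) + φ (G * y * (Ψ * (y * X))) - φ (G * X) - φ (G * y * X) =
      φ (G * y * (Ψ * (y * X))) := by ring
  rw [e3, sq]
  refine (φ.norm_mul_le _ _).trans (mul_le_mul (φ.n_mul_le_of_le_one hG _)
    ((φ.n_mul_le_of_le_one hΨ _).trans (φ.n_mul_le_of_le_one' _ hX)) (φ.n_nonneg _) (φ.n_nonneg _))

lemma tl_tele (f : ℕ → ℂ) (c : ℂ) (C : ℝ) (N : ℕ)
    (h : ∀ k < N, ‖f (k + 1) - f k - c‖ ≤ C) : ∀ k ≤ N, ‖f k - f 0 - k * c‖ ≤ k * C := by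
  intro k
  induction k with
  | zero => simp
  | succ k ih =>
    intro hk
    have e : f (k + 1) - f 0 - ((k + 1 : ℕ) : ℂ) * c =
        (f k - f 0 - k * c) + (f (k + 1) - f k - c) := by push_cast; ring
    rw [e]
    refine (norm_add_le _ _).trans ?_
    have := ih (by omega)
    have := h k (by omega)
    push_cast; linarith

/-- **Telescoping estimate.**  `ρ = FreeGroup.lift W`, `b α = rp (W α)`, `ε = θ/N`,
`x k = ε ∑_{j<N} b (a k j)`, `E k = eprod x k`.
Proof. (i) `x k` is self-adjoint, `‖x k‖ ≤ θ ≤ 1`, so `exp (I • x k)` is unitary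
(`NormedSpace.exp_mem_unitary_of_mem_skewAdjoint`) and `‖E k‖ ≤ 1`.
(ii) `φ (b α b β) = 0` for `α ≠ β` (four words `α^± β^± ≠ 1`), `j ↦ a k j` is injective, so
`n (x k)² = ε² ∑_j n (b (a k j))² ≤ ε² N = θ²/N`.
(iii) For `α : ι` let `χ α : FreeGroup ι →* Multiplicative ℤ` be the exponent sum of `α`, and
`V α` the topological closure of the span of `ρ '' ker (χ α)` (a closed subalgebra:
`Algebra.adjoin`, `Subalgebra.topologicalClosure`, or a closed submodule that is closed under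
products).  For `Z, X ∈ V α`: `φ (g Z (b α) X) = 0` (on generators the word `ω α^± ω'` has
`χ α ≠ 1`; extend by linearity and continuity in each variable).  `W β, (W β)⋆ ∈ V α` for `β ≠ α`,
and `V α` is closed under `exp` (limit of partial sums).  For `j ≠ k` and `α = a k j`: `a k' j' ≠ α`
whenever `k' ≠ k`, so `E k ∈ V α`; also `o ≠ α`.
(iv) Let `X` be a contraction with `X ∈ V α` for all `α ≠ o`, and `k < N`.  By `exp_taylor`,
`φ (g E (k+1) X) - φ (g E k X) = I ε φ (g E k (b o) X) + r`, `|r| ≤ n (x k)² ≤ θ²/N`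
(`r = φ (G y Ψ y X)`, `G = g E k`, `y = I • x k`, Cauchy–Schwarz).
(v) With `X = b o * W o`: `|φ (g E k X) - φ (g X)| ≤ k (θ/N + θ²/N) ≤ 2θ` for `k ≤ N`, and
`φ (g X) = φ g / 2` as `b o W o = (W o W o + 1)/2`.
(vi) With `X = W o`, `φ (g W o) = 0`: `|φ (g E N W o) - I θ φ g / 2| ≤ N (ε 2θ + θ²/N) = 3θ²`. -/
theorem telescope {ι : Type*} (W : ι → unitary B) {g : B} (hg : ‖g‖ ≤ 1)
    (hfree : ∀ ω : FreeGroup ι, ω ≠ 1 → φ (FreeGroup.lift W ω : unitary B) = 0)
    (hfreeg : ∀ ω : FreeGroup ι, ω ≠ 1 → φ (g * (FreeGroup.lift W ω : unitary B)) = 0)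
    (a : ℕ → ℕ → ι) (o : ι) (hao : ∀ k, a k k = o)
    (hinj : ∀ k j k' j', k ≠ j → a k j = a k' j' → k = k' ∧ j = j')
    {N : ℕ} (hN : 0 < N) {θ : ℝ} (hθ : 0 ≤ θ) (hθ1 : θ ≤ 1) (x : ℕ → B)
    (hx : ∀ k, x k = ((θ / N : ℝ) : ℂ) • ∑ j ∈ Finset.range N, rp (W (a k j) : B)) :
    (∀ k, φ.n (x k) ^ 2 ≤ θ ^ 2 / N) ∧
      ‖φ (g * eprod x N * W o) - I * θ * φ g / 2‖ ≤ 3 * θ ^ 2 := by
  have hN' : (0 : ℝ) < N := by exact_mod_cast hN
  have hW : ∀ α, ‖(W α : B)‖ ≤ 1 := fun α => norm_le_one_of_unitary (W α).2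
  have hb : ∀ α, ‖rp (W α : B)‖ ≤ 1 := fun α => tl_rp_norm (hW α)
  have hε : ‖((θ / N : ℝ) : ℂ)‖ = θ / N := by
    rw [Complex.norm_real, Real.norm_of_nonneg (by positivity)]
  have hxsa : ∀ k, IsSelfAdjoint (x k) := by
    intro k
    rw [IsSelfAdjoint, hx, star_smul, star_sum]
    simp only [tl_rp_star]
    congr 1
    exact Complex.conj_ofReal _
  have hxn : ∀ k, ‖I • x k‖ ≤ 1 := by
    intro k
    rw [norm_smul, Complex.norm_I, one_mul, hx, norm_smul, hε]
    have : ‖∑ j ∈ Finset.range N, rp (W (a k j) : B)‖ ≤ N := by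
      refine (norm_sum_le _ _).trans ?_
      simpa using Finset.sum_le_card_nsmul (Finset.range N) _ 1 fun j _ => hb (a k j)
    calc θ / N * ‖∑ j ∈ Finset.range N, rp (W (a k j) : B)‖ ≤ θ / N * N := by gcongr
      _ = θ := by field_simp
      _ ≤ 1 := hθ1
  have hEu : ∀ k, eprod x k ∈ unitary B := by
    let +nondep : NormedAlgebra ℚ B := .restrictScalars ℚ ℂ B
    intro k
    induction k with
    | zero => exact one_mem _
    | succ k ih =>
      exact mul_mem ih (NormedSpace.exp_mem_unitary_of_mem_skewAdjoint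
        ((hxsa k).smul_mem_skewAdjoint Complex.conj_I))
  have hG : ∀ k, ‖g * eprod x k‖ ≤ 1 := fun k =>
    (norm_mul_le _ _).trans (mul_le_one₀ hg (norm_nonneg _) (norm_le_one_of_unitary (hEu k)))
  have hainj : ∀ k j j', j ≠ j' → a k j' ≠ a k j := by
    intro k j j' hj h
    by_cases hk : k = j
    · subst hk
      exact hj (hinj k j' k k hj h).2.symm
    · exact hj (hinj k j k j' hk h.symm).2
  have hn2 : ∀ k, φ.n (x k) ^ 2 ≤ θ ^ 2 / N := by
    intro k
    rw [hx, map_smul_eq_mul, hε, mul_pow, tl_n_sum _ _ fun i _ j _ hij => by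
      rw [tl_rp_star]; exact tl_orth W hfree (hainj k i j hij)]
    have : ∑ j ∈ Finset.range N, φ.n (rp (W (a k j) : B)) ^ 2 ≤ N := by
      simpa using Finset.sum_le_card_nsmul (Finset.range N) _ 1 fun j _ =>
        pow_le_one₀ (φ.n_nonneg _) ((φ.n_le_norm _).trans (hb (a k j)))
    calc (θ / N) ^ 2 * ∑ j ∈ Finset.range N, φ.n (rp (W (a k j) : B)) ^ 2
        ≤ (θ / N) ^ 2 * N := by gcongr
      _ = θ ^ 2 / N := by field_simp
  refine ⟨hn2, ?_⟩
  have hEV : ∀ k j, k ≠ j → ∀ m ≤ k, eprod x m ∈ tlV W (a k j) := by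
    intro k j hkj m
    induction m with
    | zero => exact fun _ => one_mem _
    | succ m ih =>
      intro hm
      refine mul_mem (ih (by omega)) (tl_exp_mem W (Subalgebra.smul_mem _ ?_ _))
      rw [hx]
      refine Subalgebra.smul_mem _ (Subalgebra.sum_mem _ fun j' _ => tl_rp_mem W fun h => ?_) _
      have := (hinj k j m j' hkj h.symm).1
      omega
  have hstep : ∀ X : B, ‖X‖ ≤ 1 → (∀ α, o ≠ α → X ∈ tlV W α) → ∀ k < N,
      ‖φ (g * eprod x (k + 1) * X) - φ (g * eprod x k * X) -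
        I * ((θ / N : ℝ) : ℂ) * φ (g * eprod x k * rp (W o : B) * X)‖ ≤ θ ^ 2 / N := by
    intro X hX hXV k hk
    have h1 := tl_step (φ := φ) (hG k) (hxn k) hX
    have h2 : φ (g * eprod x k * (I • x k) * X) =
        I * ((θ / N : ℝ) : ℂ) * φ (g * eprod x k * rp (W o : B) * X) := by
      rw [hx, mul_smul_comm, mul_smul_comm, smul_mul_assoc, smul_mul_assoc, map_smul, map_smul,
        Finset.mul_sum, Finset.sum_mul, map_sum,
        Finset.sum_eq_single_of_mem k (Finset.mem_range.2 hk), hao, smul_eq_mul, smul_eq_mul,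
        mul_assoc I]
      intro j _ hj
      refine tl_van W hfreeg (hEV k j (Ne.symm hj) k le_rfl) (hXV _ ?_)
      rw [← hao k]
      exact hainj k j k hj
    have h3 : φ.n (I • x k) = φ.n (x k) := by rw [map_smul_eq_mul, Complex.norm_I, one_mul]
    rw [h2, h3, mul_assoc g] at h1
    exact h1.trans (hn2 k)
  have hX1 : ‖rp (W o : B) * W o‖ ≤ 1 :=
    (norm_mul_le _ _).trans (mul_le_one₀ (hb o) (norm_nonneg _) (hW o))
  have hv : ∀ k ≤ N, ‖φ (g * eprod x k * (rp (W o : B) * W o)) - φ g / 2‖ ≤ 2 * θ := by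
    intro k hk
    have h1 := tl_tele (fun k => φ (g * eprod x k * (rp (W o : B) * W o))) 0
      (θ / N + θ ^ 2 / N) N (fun k hk => by
        have h2 := hstep _ hX1 (fun α h => mul_mem (tl_rp_mem W h) (tl_W_mem W h)) k hk
        have h3 : ‖I * ((θ / N : ℝ) : ℂ) *
            φ (g * eprod x k * rp (W o : B) * (rp (W o : B) * W o))‖ ≤ θ / N := by
          rw [norm_mul, norm_mul, Complex.norm_I, one_mul, hε]
          refine mul_le_of_le_one_right (by positivity) ((φ.norm_le _).trans ?_)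
          exact (norm_mul_le _ _).trans (mul_le_one₀ ((norm_mul_le _ _).trans
            (mul_le_one₀ (hG k) (norm_nonneg _) (hb o))) (norm_nonneg _) hX1)
        rw [sub_zero]
        have h4 := norm_le_norm_add_norm_sub' (φ (g * eprod x (k + 1) * (rp (W o : B) * W o)) -
          φ (g * eprod x k * (rp (W o : B) * W o))) (I * ((θ / N : ℝ) : ℂ) *
            φ (g * eprod x k * rp (W o : B) * (rp (W o : B) * W o)))
        linarith) k hk
    have h5 : φ (g * eprod x 0 * (rp (W o : B) * W o)) = φ g / 2 := by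
      have e : g * eprod x 0 * (rp (W o : B) * W o) =
          (2⁻¹ : ℂ) • (g * tlRho W (FreeGroup.of o * FreeGroup.of o) + g) := by
        rw [map_mul, tlRho_of, rp, eprod, mul_one, smul_mul_assoc, add_mul, (W o).2.1,
          mul_smul_comm, mul_add, mul_one]
      rw [e, map_smul, map_add, tlRho_apply, hfreeg]
      · simp [div_eq_inv_mul]
      · intro h
        have := congrArg (tlChi o) h
        rw [(tlChi o).map_one, map_mul, tlChi_self, ← ofAdd_add, ofAdd_eq_one] at this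
        simp at this
    simp only [mul_zero, sub_zero, h5] at h1
    refine h1.trans ?_
    have hk' : (k : ℝ) ≤ N := by exact_mod_cast hk
    calc (k : ℝ) * (θ / N + θ ^ 2 / N) ≤ N * (θ / N + θ ^ 2 / N) := by gcongr
      _ = θ + θ ^ 2 := by field_simp
      _ ≤ 2 * θ := by nlinarith
  have h1 := tl_tele (fun k => φ (g * eprod x k * W o)) (I * ((θ / N : ℝ) : ℂ) * (φ g / 2))
    (θ / N * (2 * θ) + θ ^ 2 / N) N (fun k hk => by
      have h2 := hstep _ (hW o) (fun α h => tl_W_mem W h) k hk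
      have h3 : ‖I * ((θ / N : ℝ) : ℂ) * φ (g * eprod x k * rp (W o : B) * W o) -
          I * ((θ / N : ℝ) : ℂ) * (φ g / 2)‖ ≤ θ / N * (2 * θ) := by
        rw [← mul_sub, norm_mul, norm_mul, Complex.norm_I, one_mul, hε, mul_assoc (g * _)]
        exact mul_le_mul_of_nonneg_left (hv k hk.le) (by positivity)
      have h4 := norm_add_le (φ (g * eprod x (k + 1) * W o) - φ (g * eprod x k * W o) -
        I * ((θ / N : ℝ) : ℂ) * φ (g * eprod x k * rp (W o : B) * W o))
        (I * ((θ / N : ℝ) : ℂ) * φ (g * eprod x k * rp (W o : B) * W o) -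
          I * ((θ / N : ℝ) : ℂ) * (φ g / 2))
      rw [sub_add_sub_cancel] at h4
      linarith) N le_rfl
  have h5 : φ (g * eprod x 0 * W o) = 0 := by
    rw [eprod, mul_one, ← tlRho_of, tlRho_apply, hfreeg]
    exact FreeGroup.of_ne_one o
  have h6 : (N : ℂ) * (I * ((θ / N : ℝ) : ℂ) * (φ g / 2)) = I * θ * φ g / 2 := by
    have : (N : ℂ) ≠ 0 := by exact_mod_cast hN.ne'
    push_cast; field_simp
  simp only [h5, sub_zero, h6] at h1
  refine h1.trans (le_of_eq ?_)
  field_simp; ring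

end Crest.Agent.R95
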