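import Crest.Agent.R95.Ultra
import Crest.Agent.R95.Tele
import Crest.Agent.R95.Gamma

/-! # rid 95: the key perturbation lemma -/

set_option autoImplicit false

open Filter Topology BoundedContinuousFunction Complex

namespace Crest.Agent.R95

variable {A : Type*} [CStarAlgebra A] {τ : Tr A}

/-- the ⋆-algebra generated by `P` and `u` -/
noncomputable abbrev alg (P : StarSubalgebra ℂ A) (u : A) : StarSubalgebra ℂ A :=
  StarAlgebra.adjoin ℂ (insert u (P : Set A))

theorem key_countable {M : Type*} [Monoid M] {S : Set M} (hS : S.Countable) :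
    (Submonoid.closure S : Set M).Countable := by
  have := hS.to_subtype
  refine (Set.countable_range fun l : List S => (l.map Subtype.val).prod).mono fun x hx => ?_
  obtain ⟨l, hl, rfl⟩ := Submonoid.exists_list_of_mem_closure hx
  lift l to List S using hl
  exact ⟨l, rfl⟩

theorem key_exp_conj {B : Type*} [CStarAlgebra B] {t : B} (ht : t ∈ unitary B) (y : B) :
    NormedSpace.exp (t * y * star t) = t * NormedSpace.exp y * star t := by
  let +nondep : NormedAlgebra ℚ B := .restrictScalars ℚ ℂ B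
  exact NormedSpace.exp_units_conj (Unitary.toUnits ⟨t, ht⟩) y

theorem key_rp_conj {B : Type*} [CStarAlgebra B] (t w : B) :
    rp (t * w * star t) = t * rp w * star t := by
  simp only [rp, star_mul, star_star, mul_smul_comm, smul_mul_assoc, mul_add, add_mul, mul_assoc]

theorem key_seq {B : Type*} [CStarAlgebra B] {φ : Tr B} (PP : Set B)
    (hfree : ∀ S : Set B, S.Countable → ∃ s ∈ PP, φ.Free s S) (u : B) :
    ∃ (s : ℕ → B) (S : ℕ → Submonoid B), (∀ k, s k ∈ PP) ∧ (∀ k, u ∈ S k ∧ star u ∈ S k) ∧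
      (∀ j k, j < k → s j ∈ S k) ∧ ∀ k, φ.Free (s k) (S k) := by
  choose c hc hc' using fun T : {T : Set B // T.Countable} => hfree _ (key_countable T.2)
  let T : ℕ → {T : Set B // T.Countable} := fun k =>
    Nat.rec ⟨{u, star u}, (Set.toFinite _).countable⟩ (fun _ T => ⟨insert (c T) T.1, T.2.insert _⟩) k
  have hT : Monotone fun k => (T k).1 := monotone_nat_of_le_succ fun k => Set.subset_insert _ _
  refine ⟨fun k => c (T k), fun k => Submonoid.closure (T k).1, fun k => hc _, fun k => ?_,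
    fun j k hjk => ?_, fun k => hc' _⟩
  · exact ⟨Submonoid.subset_closure (hT (Nat.zero_le k) (Set.mem_insert _ _)),
      Submonoid.subset_closure (hT (Nat.zero_le k) (Set.mem_insert_of_mem _ rfl))⟩
  · exact Submonoid.subset_closure (hT (Nat.succ_le_of_lt hjk) (Set.mem_insert _ _))

theorem key_tw_mem {B : Type*} [CStarAlgebra B] {u : B} {s : ℕ → B} (hs : ∀ k, IsSym (s k))
    {S : Submonoid B} (hu : u ∈ S) (hu' : star u ∈ S) (hsS : ∀ j, s j ∈ S) (k : ℕ) :
    tw s u k ∈ S ∧ star (tw s u k) ∈ S :=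
  gam_mem hs (S := fun _ => S) (fun _ => ⟨hu, hu'⟩) (fun j _ _ => hsS j) le_rfl

theorem key_tw_mem' {B : Type*} [CStarAlgebra B] {u : B} {s : ℕ → B} {S : Submonoid B}
    (hs : ∀ j, s j ∈ S) (hu : u ∈ S) (k : ℕ) : tw s u k ∈ S := by
  induction k with
  | zero => exact one_mem _
  | succ k ih => exact mul_mem ih (mul_mem (hs k) hu)

theorem key_idx {α β : Option {p : ℕ × ℕ // p.1 ≠ p.2}} (h : α ≠ β) :
    ¬ ((α.elim (0, 0) Subtype.val).1 + 1 = (α.elim (0, 0) Subtype.val).2 + 1 ∧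
      (β.elim (0, 0) Subtype.val).1 + 1 = (β.elim (0, 0) Subtype.val).2 + 1) ∧
    ¬ ((α.elim (0, 0) Subtype.val).1 + 1 = (β.elim (0, 0) Subtype.val).1 + 1 ∧
      (α.elim (0, 0) Subtype.val).2 + 1 = (β.elim (0, 0) Subtype.val).2 + 1) := by
  rcases α with _ | ⟨⟨p1, p2⟩, hp⟩ <;> rcases β with _ | ⟨⟨q1, q2⟩, hq⟩ <;> simp_all <;> omega

theorem key_idx' {k j k' j' : ℕ} (hkj : k ≠ j)
    (he : (if h : k = j then none else some ⟨(k, j), h⟩ : Option {p : ℕ × ℕ // p.1 ≠ p.2}) =
      if h : k' = j' then none else some ⟨(k', j'), h⟩) : k = k' ∧ j = j' := by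
  by_cases h' : k' = j' <;> simp_all

set_option maxHeartbeats 1000000 in
/-- **Key lemma, exact form** in a tracial algebra `B` with a supply of free symmetries in a set
`PP`.  Proof. Closures of countable sets are countable.  Take `s⋆` free from `closure {u₀}`,
`u = s⋆ u₀` (`φ u = 0` by `f1`); recursively `T 0 = {u, u⋆}`, `s k` free from
`S k = closure (T k)`, `T (k+1) = insert (s k) (T k)`; `s'` free from
`closure ({u, u⋆, v} ∪ range s)`; `s''` free from `closure ({u, u⋆, v, g, s'} ∪ range s)`,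
`g = v y`.  `t k = tw s u k`, `ι = Option {p : ℕ × ℕ // p.1 ≠ p.2}`, `γ none = 1`,
`γ (some (k,j)) = t (k+1) (t (j+1))⋆`, `L α = γ α t N`, `R α = s' v (γ α)⋆`, `W α = L α s'' R α`;
`Free.freeGroup` (with `gamma_orth`, `f1`) gives the hypotheses of `telescope` with
`a k j = if k = j then none else some (k, j)`.  `h = (θ/N) ∑_{j<N} (t (j+1))⋆ (rp (W none)) t (j+1)`
satisfies `t (k+1) h (t (k+1))⋆ = x k`; `U = u₀ exp (I h)`; `n (U - u₀) = n (exp (I h) - 1) ≤ 2 n h`
and `n h = n (x 0) ≤ θ/√N`.  `tw (s · * s⋆) U k = eprod x k * t k` by induction, so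
`φ (tw … N * s'' * s' * y) = φ (g * eprod x N * W none)` (`v v = 1`).  `θ = d²/12`. -/
theorem key_exact {B : Type*} [CStarAlgebra B] {φ : Tr B} (PP : Set B)
    (hfree : ∀ S : Set B, S.Countable → ∃ s ∈ PP, φ.Free s S) {u₀ y v : B} (hu₀ : u₀ ∈ unitary B)
    (hy1 : ‖y‖ ≤ 1) (hv : IsSym v) {d : ℝ} (hd : 0 ≤ d) (hdv : d ^ 2 ≤ (φ (v * y)).re)
    {δ : ℝ} (hδ : 0 < δ) :
    ∃ U ∈ unitary B, φ.n (U - u₀) < δ ∧ ∃ z ∈ Submonoid.closure (insert U PP), ‖z‖ ≤ 1 ∧
      d ^ 4 / 48 ≤ ‖φ (z * y)‖ := by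
  classical
  obtain ⟨s₀, hs₀P, hs₀⟩ := hfree _ (key_countable (Set.countable_singleton u₀))
  set u := s₀ * u₀ with hu_def
  have hu : u ∈ unitary B := mul_mem hs₀.sym.mem_unitary hu₀
  have hu0 : φ u = 0 := by
    simpa using gam_one hs₀ (one_mem _) (Submonoid.subset_closure (Set.mem_singleton u₀))
  obtain ⟨s, S, hsP, huS, hsS, hs⟩ := key_seq PP hfree u
  have hsym : ∀ k, IsSym (s k) := fun k => (hs k).sym
  set g := v * y with hg_def
  have hg1 : ‖g‖ ≤ 1 := (norm_mul_le _ _).trans (mul_le_one₀ hv.norm_le (norm_nonneg _) hy1)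
  obtain ⟨s', hs'P, hs'⟩ := hfree _ (key_countable
    (((Set.toFinite {u, star u, v}).countable).union (Set.countable_range s)))
  obtain ⟨s'', hs''P, hs''⟩ := hfree _ (key_countable
    (((Set.toFinite {u, star u, v, g, s'}).countable).union (Set.countable_range s)))
  set S' := Submonoid.closure ({u, star u, v} ∪ Set.range s) with hS'
  set S'' := Submonoid.closure ({u, star u, v, g, s'} ∪ Set.range s) with hS''
  have t' := key_tw_mem (S := S') hsym (Submonoid.subset_closure (show u ∈ _ by simp))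
    (Submonoid.subset_closure (by simp)) fun j => Submonoid.subset_closure (by simp)
  have t'' := key_tw_mem (S := S'') hsym (Submonoid.subset_closure (show u ∈ _ by simp))
    (Submonoid.subset_closure (by simp)) fun j => Submonoid.subset_closure (by simp)
  have hvS' : v ∈ S' := Submonoid.subset_closure (by simp)
  have hvS'' : v ∈ S'' := Submonoid.subset_closure (by simp)
  have hgS'' : g ∈ S'' := Submonoid.subset_closure (by simp)
  have hs'S'' : s' ∈ S'' := Submonoid.subset_closure (by simp)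
  have htu : ∀ k, tw s u k ∈ unitary B := gam_unitary hu hsym
  -- constants
  have hd1 : d ^ 2 ≤ 1 := hdv.trans ((Complex.re_le_norm _).trans ((φ.norm_le _).trans hg1))
  set θ := d ^ 2 / 12 with hθ
  have hθ0 : 0 ≤ θ := by positivity
  have hθ1 : θ ≤ 1 := by linarith
  obtain ⟨N, hN⟩ := exists_nat_gt (4 / δ ^ 2)
  have hN0' : (0 : ℝ) < N := lt_trans (by positivity) hN
  have hN0 : 0 < N := by exact_mod_cast hN0'
  -- the free family
  let ι := Option {p : ℕ × ℕ // p.1 ≠ p.2}
  let pr : ι → ℕ × ℕ := fun α => α.elim (0, 0) Subtype.val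
  let γ : ι → B := fun α => tw s u ((pr α).1 + 1) * star (tw s u ((pr α).2 + 1))
  have hγu : ∀ α, γ α ∈ unitary B := fun α => mul_mem (htu _) (Unitary.star_mem (htu _))
  have hγ0 : γ none = 1 := (htu _).2
  have hγS' : ∀ α, γ α ∈ S' ∧ star (γ α) ∈ S' := fun α =>
    ⟨mul_mem (t' _).1 (t' _).2, by
      rw [star_mul, star_star]; exact mul_mem (t' _).1 (t' _).2⟩
  have hγS'' : ∀ α, γ α ∈ S'' ∧ star (γ α) ∈ S'' := fun α =>
    ⟨mul_mem (t'' _).1 (t'' _).2, by
      rw [star_mul, star_star]; exact mul_mem (t'' _).1 (t'' _).2⟩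
  have hγo : ∀ α β, α ≠ β → φ (star (γ α) * γ β) = 0 := by
    intro α β hαβ
    refine gamma_orth hu hu0 s S huS hsS hs ?_ ?_
    · exact (key_idx hαβ).1
    · exact (key_idx hαβ).2
  let L : ι → unitary B := fun α => ⟨γ α * tw s u N, mul_mem (hγu α) (htu N)⟩
  let R : ι → unitary B := fun α => ⟨s' * v * star (γ α),
    mul_mem (mul_mem hs'.sym.mem_unitary hv.mem_unitary) (Unitary.star_mem (hγu α))⟩
  let W : ι → unitary B := fun α => L α * ⟨s'', hs''.sym.mem_unitary⟩ * R α
  have hW : ∀ α, (W α : B) = L α * s'' * R α := fun α => rfl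
  have hfg : ∀ {g' : B}, g' ∈ S'' → ∀ ω : FreeGroup ι, ω ≠ 1 →
      φ (g' * (FreeGroup.lift W ω : unitary B)) = 0 := fun hg' ω hω => by
    refine hs''.freeGroup L R W (fun α => ⟨mul_mem (hγS'' α).1 (t'' _).1, ?_⟩)
      (fun α => ⟨mul_mem (mul_mem hs'S'' hvS'') (hγS'' α).2, ?_⟩) hW (fun α β => ?_)
      (fun α β h => ?_) (fun α β h => ?_) hg' hω
    · simp only [L, star_mul (γ α)]; exact mul_mem (t'' _).2 (hγS'' α).2
    · simp only [R, star_mul _ (star (γ α)), star_mul s' v, star_star, hs'.sym.1, hv.1]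
      exact mul_mem (hγS'' α).1 (mul_mem hvS'' hs'S'')
    · have := gam_one hs' (one_mem S') (mul_mem (mul_mem hvS' (hγS' α).2)
        (mul_mem (hγS' β).1 (t' N).1))
      simpa only [L, R, one_mul, mul_assoc] using this
    · have e : (R α : B) * star (R β : B) = (s' * v) * (star (γ α) * γ β) * star (s' * v) := by
        simp only [R]
        rw [star_mul _ (star (γ β)), star_star]
        simp only [mul_assoc]
      rw [e, φ.comm3, (mul_mem hs'.sym.mem_unitary hv.mem_unitary).1, one_mul, hγo α β h]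
    · have e : star (L α : B) * L β = star (tw s u N) * (star (γ α) * γ β) * tw s u N := by
        simp only [L, star_mul (γ α), mul_assoc]
      rw [e, φ.comm3, (htu N).2, one_mul, hγo α β h]
  let a : ℕ → ℕ → ι := fun k j => if h : k = j then none else some ⟨(k, j), h⟩
  set W₀ : B := tw s u N * s'' * (s' * v) with hW₀
  have hWo : (W none : B) = W₀ := by simp only [hW, L, R, hγ0, star_one, one_mul, mul_one, hW₀]
  have hWa : ∀ k j, (W (a k j) : B) = tw s u (k + 1) *
      (star (tw s u (j + 1)) * W₀ * star (star (tw s u (j + 1)))) * star (tw s u (k + 1)) := by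
    intro k j
    by_cases h : k = j
    · subst h
      simp only [a, dif_pos, hWo, star_star]
      calc W₀ = (tw s u (k + 1) * star (tw s u (k + 1))) * W₀ *
            (tw s u (k + 1) * star (tw s u (k + 1))) := by rw [(htu _).2, one_mul, mul_one]
        _ = _ := by simp only [mul_assoc]
    · simp only [a, dif_neg h, hW, L, R, γ, pr, Option.elim, hW₀, star_mul (tw s u (k + 1)),
        star_star, mul_assoc]
  set h : B := ((θ / N : ℝ) : ℂ) • ∑ j ∈ Finset.range N,
    rp (star (tw s u (j + 1)) * W₀ * star (star (tw s u (j + 1)))) with hh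
  let x : ℕ → B := fun k => tw s u (k + 1) * h * star (tw s u (k + 1))
  have hx : ∀ k, x k = ((θ / N : ℝ) : ℂ) • ∑ j ∈ Finset.range N, rp (W (a k j) : B) := by
    intro k
    simp only [x, hh, hWa, key_rp_conj (tw s u (k + 1)), mul_smul_comm, smul_mul_assoc,
      Finset.mul_sum, Finset.sum_mul]
  obtain ⟨hn, htel⟩ := telescope (φ := φ) W hg1 (fun ω hω => by simpa using hfg (one_mem _) ω hω)
    (hfg hgS'') a none (fun k => dif_pos rfl) (fun k j k' j' => key_idx') hN0 hθ0 hθ1 x hx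
  have hW₀u : W₀ ∈ unitary B := hWo ▸ (W none).2
  have hhs : IsSelfAdjoint h := by
    rw [IsSelfAdjoint, hh, star_smul, star_sum]
    simp only [tl_rp_star]
    congr 1
    exact Complex.conj_ofReal _
  have hh1 : ‖I • h‖ ≤ 1 := by
    rw [norm_smul, Complex.norm_I, one_mul, hh, norm_smul, Complex.norm_real,
      Real.norm_of_nonneg (by positivity)]
    have : ‖∑ j ∈ Finset.range N,
        rp (star (tw s u (j + 1)) * W₀ * star (star (tw s u (j + 1))))‖ ≤ N := by
      refine (norm_sum_le _ _).trans ?_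
      simpa using Finset.sum_le_card_nsmul (Finset.range N) _ 1 fun j _ =>
        tl_rp_norm (norm_le_one_of_unitary (mul_mem (mul_mem (Unitary.star_mem (htu (j + 1))) hW₀u)
          (Unitary.star_mem (Unitary.star_mem (htu (j + 1))))))
    calc θ / N * _ ≤ θ / N * N := by gcongr
      _ = θ := by field_simp
      _ ≤ 1 := hθ1
  have hnh : φ.n h ^ 2 ≤ θ ^ 2 / N := by
    have := hn 0
    rwa [φ.n_mul_unitary (Unitary.star_mem (htu _)), φ.n_unitary_mul (htu _)] at this
  set E := NormedSpace.exp (I • h) with hE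
  have hEu : E ∈ unitary B := by
    let +nondep : NormedAlgebra ℚ B := .restrictScalars ℚ ℂ B
    exact NormedSpace.exp_mem_unitary_of_mem_skewAdjoint (hhs.smul_mem_skewAdjoint Complex.conj_I)
  have hT : ∀ k, tw (fun i => s i * s₀) (u₀ * E) k = eprod x k * tw s u k := by
    intro k
    induction k with
    | zero => simp [tw, eprod]
    | succ k ih =>
      have e1 : I • x k = tw s u (k + 1) * (I • h) * star (tw s u (k + 1)) := by
        simp only [x, mul_smul_comm, smul_mul_assoc]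
      rw [eprod, e1, key_exp_conj (htu _), mul_assoc, mul_assoc _ (star _), (htu _).1, mul_one,
        tw, ih, tw, hu_def]
      simp only [mul_assoc, hE]
  refine ⟨u₀ * E, mul_mem hu₀ hEu, ?_, tw (fun i => s i * s₀) (u₀ * E) N * s'' * s', ?_, ?_, ?_⟩
  · obtain ⟨Ψ, hΨ, hexp⟩ := exp_taylor hh1
    have e : u₀ * E - u₀ = u₀ * (I • h + I • h * (Ψ * (I • h))) := by
      rw [hE, hexp]; noncomm_ring
    have hnI : φ.n (I • h) = φ.n h := by rw [map_smul_eq_mul]; simp
    have h2 : φ.n (u₀ * E - u₀) ≤ 2 * φ.n h := by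
      rw [e, φ.n_unitary_mul hu₀, two_mul]
      refine (map_add_le_add _ _ _).trans (add_le_add hnI.le ?_)
      exact (φ.n_mul_le_of_le_one' _ ((norm_mul_le _ _).trans
        (mul_le_one₀ hΨ (norm_nonneg _) hh1))).trans hnI.le
    refine h2.trans_lt (lt_of_pow_lt_pow_left₀ 2 hδ.le ?_)
    rw [div_lt_iff₀ (by positivity)] at hN
    rw [le_div_iff₀ hN0'] at hnh
    have : θ ^ 2 ≤ 1 := pow_le_one₀ hθ0 hθ1
    rw [mul_pow]
    refine lt_of_mul_lt_mul_right ?_ hN0'.le
    nlinarith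
  · have hP : ∀ w ∈ PP, w ∈ Submonoid.closure (insert (u₀ * E) PP) := fun w hw =>
      Submonoid.subset_closure (Set.mem_insert_of_mem _ hw)
    refine mul_mem (mul_mem ?_ (hP _ hs''P)) (hP _ hs'P)
    exact key_tw_mem' (fun i => mul_mem (hP _ (hsP i)) (hP _ hs₀P))
      (Submonoid.subset_closure (Set.mem_insert _ _)) N
  · refine norm_le_one_of_unitary (mul_mem (mul_mem ?_ hs''.sym.mem_unitary) hs'.sym.mem_unitary)
    exact key_tw_mem' (fun i => mul_mem (hsym i).mem_unitary hs₀.sym.mem_unitary)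
      (mul_mem hu₀ hEu) N
  · have e : φ (tw (fun i => s i * s₀) (u₀ * E) N * s'' * s' * y) =
        φ (g * eprod x N * W none) := by
      rw [hT, hWo, ← φ.comm3 _ _ g, hW₀, hg_def]
      congr 1
      calc _ = eprod x N * tw s u N * s'' * s' * ((v * v) * y) := by rw [hv.2, one_mul]
        _ = _ := by simp only [mul_assoc]
    rw [e]
    have h1 : ‖I * θ * φ g / 2‖ = θ * ‖φ g‖ / 2 := by simp [abs_of_nonneg hθ0]
    have h2 : d ^ 2 ≤ ‖φ g‖ := hdv.trans (Complex.re_le_norm _)
    have h3 := norm_sub_norm_le (I * θ * φ g / 2) (φ (g * eprod x N * W none))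
    rw [norm_sub_rev, h1] at h3
    have h4 : θ * d ^ 2 ≤ θ * ‖φ g‖ := by gcongr
    have h5 : d ^ 4 / 48 = θ * d ^ 2 / 2 - 3 * θ ^ 2 := by rw [hθ]; ring
    linarith

/-- **Key lemma.** Proof. If `n y = 0` take `u = u₀`, `z = 0`.  Otherwise apply `key_exact` in
`ℕ →ᵇ A` with `φ` from `exists_ultra`, `PP = {s | ∀ m, s m ∈ P}`, constant sequences `u₀, y, v`
(`v` from `exists_sym` with `Q = ⊤`), and pick a coordinate `m` where both strict inequalities
hold. -/
theorem key {P : StarSubalgebra ℂ A} (h : Setup τ P) {u₀ y : A} (hu₀ : u₀ ∈ unitary A)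
    (hy : star y = y) (hy1 : ‖y‖ ≤ 1) {δ : ℝ} (hδ : 0 < δ) :
    ∃ u ∈ unitary A, τ.n (u - u₀) < δ ∧ ∃ z ∈ alg P u, ‖z‖ ≤ 1 ∧
      τ.n y ^ 4 / 50 ≤ ‖τ (z * y)‖ := by
  rcases (τ.n_nonneg y).eq_or_lt with h0 | h0
  · exact ⟨u₀, hu₀, by simpa using hδ, 0, zero_mem _, by simp, by simp [← h0]⟩
  obtain ⟨φ, hφ⟩ := exists_ultra τ
  obtain ⟨v, -, hv, -, hvy⟩ := exists_sym h.W Tr.closed_top (StarSubalgebra.mem_top (x := y)) hy hy1
  have hc : ∀ a : A, φ (const ℕ a) = τ a := fun a =>
    tendsto_nhds_unique (hφ _) (by simp)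
  obtain ⟨U, hU, hUδ, z, hz, hz1, hzy⟩ := key_exact (φ := φ) {s | ∀ m, s m ∈ P}
    (fun S hS => exists_free h hφ hS) (u₀ := const ℕ u₀) (y := const ℕ y) (v := const ℕ v)
    ⟨by ext m; exact hu₀.1, by ext m; exact hu₀.2⟩
    ((norm_const_le _).trans hy1) ⟨by ext m; exact hv.1, by ext m; exact hv.2⟩ h0.le
    (by rw [← hc] at hvy; exact hvy) hδ
  have e1 := (tendsto_n_ultra hφ (U - const ℕ u₀)).eventually (gt_mem_nhds hUδ)
  have hlt : τ.n y ^ 4 / 50 < ‖φ (z * const ℕ y)‖ := by
    have : 0 < τ.n y ^ 4 := by positivity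
    linarith
  have e2 := (hφ (z * const ℕ y)).norm.eventually (lt_mem_nhds hlt)
  obtain ⟨m, h1, h2⟩ := (e1.and e2).exists
  refine ⟨U m, ⟨congrArg (· m) hU.1, congrArg (· m) hU.2⟩, h1, z m, ?_,
    (z.norm_coe_le_norm m).trans hz1, h2.le⟩
  clear hz1 hzy hlt e2 h2
  induction hz using Submonoid.closure_induction with
  | mem w hw =>
    rcases hw with rfl | hw
    · exact StarAlgebra.subset_adjoin ℂ _ (Set.mem_insert _ _)
    · exact StarAlgebra.subset_adjoin ℂ _ (Set.mem_insert_of_mem _ (hw m))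
  | one => exact one_mem _
  | mul a b _ _ ha hb => exact mul_mem ha hb

end Crest.Agent.R95
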