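import Crest.Agent.R95.Halve

/-! # rid 95: local quantization (Popa) -/

set_option autoImplicit false

open Filter Topology

namespace Crest.Agent.R95

variable {A : Type*} [CStarAlgebra A] {τ : Tr A}

/-- the class `𝒬` of the proof of local quantization -/
def LQGood (τ : Tr A) (P : StarSubalgebra ℂ A) (p : A) (F : Finset A) (η : ℝ) (q : A) : Prop :=
  q ∈ P ∧ IsStarProjection q ∧ p * q = q ∧ q ≠ 0 ∧ ∀ X ∈ F, ‖τ (q * X)‖ < η / 2 * (τ q).re

theorem lq_exists_lt {ι : Type*} (F : Finset ι) (g : ι → ℝ) (hg : ∀ i ∈ F, 0 < g i) :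
    ∃ δ > 0, ∀ i ∈ F, δ < g i := by
  classical
  induction F using Finset.induction_on with
  | empty => exact ⟨1, one_pos, by simp⟩
  | insert a F _ ih =>
    obtain ⟨δ, hδ, h⟩ := ih fun i hi => hg i (Finset.mem_insert_of_mem hi)
    have ha := hg a (Finset.mem_insert_self _ _)
    refine ⟨min δ (g a / 2), lt_min hδ (by linarith), fun i hi => ?_⟩
    rcases Finset.mem_insert.1 hi with rfl | hi
    · exact (min_le_right _ _).trans_lt (by linarith)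
    · exact (min_le_left _ _).trans_lt (h i hi)

theorem lq_half_good {P : StarSubalgebra ℂ A} (h : Setup τ P) {p : A} {F : Finset A} {η : ℝ}
    {q : A} (hq : LQGood τ P p F η q) {δ : ℝ}
    (hδ : ∀ X ∈ F, δ < (η / 2 * (τ q).re - ‖τ (q * X)‖) / 2) {f : A} (hfP : f ∈ P)
    (hf : IsStarProjection f) (hqf : q * f = f) (htr : τ f = τ q / 2)
    (hX : ∀ X ∈ F, ‖τ (f * X) - τ (q * X) / 2‖ ≤ δ) : LQGood τ P p F η f := by
  obtain ⟨-, hq1, hpq, hq0, -⟩ := hq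
  have hpos := h.W.proj_pos hq1 hq0
  have hre : (τ f).re = (τ q).re / 2 := by rw [htr]; simp
  refine ⟨hfP, hf, by rw [← hqf, ← mul_assoc, hpq], ?_, fun X hXF => ?_⟩
  · rintro rfl
    rw [map_zero, Complex.zero_re] at hre
    linarith
  · have h1 : ‖τ (f * X)‖ ≤ ‖τ (f * X) - τ (q * X) / 2‖ + ‖τ (q * X) / 2‖ := by
      simpa using norm_add_le (τ (f * X) - τ (q * X) / 2) (τ (q * X) / 2)
    have h2 : ‖τ (q * X) / 2‖ = ‖τ (q * X)‖ / 2 := by simp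
    have := hX X hXF
    have := hδ X hXF
    rw [hre]
    linarith

theorem lq_step {P : StarSubalgebra ℂ A} (h : Setup τ P) {p : A} {F : Finset A} {η : ℝ}
    {q : A} (hq : LQGood τ P p F η q) :
    ∃ δ > 0, ∀ f ∈ P, IsStarProjection f → q * f = f → τ f = τ q / 2 →
      (∀ X ∈ F, ‖τ (f * X) - τ (q * X) / 2‖ ≤ δ) →
      LQGood τ P p F η f ∧ LQGood τ P p F η (q - f) := by
  obtain ⟨δ, hδ0, hδ⟩ := lq_exists_lt F (fun X => (η / 2 * (τ q).re - ‖τ (q * X)‖) / 2)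
    fun X hX => by have := hq.2.2.2.2 X hX; linarith
  refine ⟨δ, hδ0, fun f hfP hf hqf htr hX => ⟨lq_half_good h hq hδ hfP hf hqf htr hX, ?_⟩⟩
  refine lq_half_good h hq hδ (sub_mem hq.1 hfP) (proj_sub hq.2.1 hf hqf) ?_ ?_ fun X hXF => ?_
  · rw [mul_sub, hqf, hq.2.1.isIdempotentElem.eq]
  · rw [map_sub, htr]; ring
  · have : τ ((q - f) * X) - τ (q * X) / 2 = -(τ (f * X) - τ (q * X) / 2) := by
      rw [sub_mul, map_sub]; ring
    rw [this, norm_neg]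
    exact hX X hXF

theorem lq_small {P : StarSubalgebra ℂ A} (h : Setup τ P) {p : A} {F : Finset A} {η : ℝ}
    (hp : LQGood τ P p F η p) (m : ℕ) :
    ∃ q, LQGood τ P p F η q ∧ (τ q).re ≤ (1 / 2) ^ m := by
  induction m with
  | zero => exact ⟨p, hp, by simpa using τ.proj_le_one hp.2.1⟩
  | succ m ih =>
    obtain ⟨q, hq, hm⟩ := ih
    obtain ⟨δ, hδ, hs⟩ := lq_step h hq
    obtain ⟨f, hfP, hf, hqf, htr, hX⟩ := balanced_half h hq.2.1 hq.1 F hδ
    refine ⟨f, (hs f hfP hf hqf htr hX).1, ?_⟩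
    have hre : (τ f).re = (τ q).re / 2 := by rw [htr]; simp
    rw [hre, pow_succ]
    linarith

theorem lq_pyth {f g : A} (hf : IsStarProjection f) (hfg : f * g = 0) (hgf : g * f = 0) (X : A) :
    τ.n ((f + g) * X * (f + g)) ^ 2 = τ.n (f * X * f) ^ 2 + τ.n (f * X * g) ^ 2 +
      τ.n (g * X * f) ^ 2 + τ.n (g * X * g) ^ 2 := by
  have e1 : (f + g) * X * (f + g) = f * (X * (f + g)) + g * (X * (f + g)) := by noncomm_ring
  have e2 : f * (X * (f + g)) = f * X * f + f * X * g := by noncomm_ring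
  have e3 : g * (X * (f + g)) = g * X * f + g * X * g := by noncomm_ring
  rw [e1, τ.n_add_mul_sq hf hfg, e2, e3, τ.n_mul_add_sq hf hgf, τ.n_mul_add_sq hf hgf]
  ring

/-- one improvement step for `ρ` -/
theorem lq_improve {P : StarSubalgebra ℂ A} (h : Setup τ P) {p : A} {F : Finset A} {η : ℝ}
    (hη : 0 < η) {q : A} (hq : LQGood τ P p F η q) {X₀ : A} (hX₀ : X₀ ∈ F)
    (hbad : η * τ.n q < τ.n (q * X₀ * q)) :
    ∃ q', LQGood τ P p F η q' ∧ (τ q').re ≤ (τ q).re ∧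
      (∑ X ∈ F, τ.n (q' * X * q') ^ 2) / (τ q').re ≤
        (∑ X ∈ F, τ.n (q * X * q) ^ 2) / (τ q).re - η ^ 2 / 512 := by
  have hq1 := hq.2.1
  have hqq : q * q = q := hq1.isIdempotentElem.eq
  have hpos : 0 < (τ q).re := h.W.proj_pos hq1 hq.2.2.2.1
  have hτ0 : τ q ≠ 0 := fun e => by rw [e, Complex.zero_re] at hpos; exact lt_irrefl _ hpos
  obtain ⟨δ, hδ, hs⟩ := lq_step h hq
  obtain ⟨lam, hlam⟩ : ∃ lam : ℂ, lam = τ (q * X₀) / τ q := ⟨_, rfl⟩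
  obtain ⟨Y, hY⟩ : ∃ Y : A, Y = q * X₀ * q - lam • q := ⟨_, rfl⟩
  have hY1 : q * Y = Y := by
    rw [hY, mul_sub, mul_smul_comm, hqq, ← mul_assoc, ← mul_assoc, hqq]
  have hY2 : Y * q = Y := by
    rw [hY, sub_mul, smul_mul_assoc, hqq, mul_assoc (q * X₀), hqq]
  have hY0 : τ Y = 0 := by
    rw [hY, map_sub, map_smul, τ.comm3, hqq, hlam, smul_eq_mul, div_mul_cancel₀ _ hτ0, sub_self]
  have hlamle : ‖lam‖ ≤ η / 2 := by
    rw [hlam, norm_div, τ.norm_proj hq1, div_le_iff₀ hpos]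
    exact (hq.2.2.2.2 X₀ hX₀).le
  have hnY : η / 2 * τ.n q ≤ τ.n Y := by
    have h1 : τ.n (q * X₀ * q) ≤ τ.n Y + τ.n (lam • q) := by
      have := map_add_le_add τ.n Y (lam • q)
      rwa [show Y + lam • q = q * X₀ * q by rw [hY, sub_add_cancel]] at this
    rw [map_smul_eq_mul] at h1
    have h2 := mul_le_mul_of_nonneg_right hlamle (τ.n_nonneg q)
    linarith
  have hnY2 : η ^ 2 / 4 * (τ q).re ≤ τ.n Y ^ 2 := by
    rw [← τ.n_proj_sq hq1]
    have := pow_le_pow_left₀ (mul_nonneg (by linarith) (τ.n_nonneg q)) hnY 2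
    calc _ = (η / 2 * τ.n q) ^ 2 := by ring
      _ ≤ _ := this
  obtain ⟨f, hfP, hf, hqf, htr, hX, hmass⟩ := split h hq1 hq.1 F hδ hY1 hY2 hY0
  obtain ⟨hg1, hg2⟩ := hs f hfP hf hqf htr hX
  have hfq : f * q = f := proj_mul_comm hq1 hf hqf
  have hff : f * f = f := hf.isIdempotentElem.eq
  obtain ⟨g, hg⟩ : ∃ g : A, g = q - f := ⟨_, rfl⟩
  rw [← hg] at hmass hg2
  have hfg : f * g = 0 := by rw [hg, mul_sub, hfq, hff, sub_self]
  have hgf : g * f = 0 := by rw [hg, sub_mul, hqf, hff, sub_self]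
  have hqg : q * g = g := by rw [hg, mul_sub, hqq, hqf]
  have hgq : g * q = g := by rw [hg, sub_mul, hqq, hfq]
  have hsum : f + g = q := by rw [hg, add_sub_cancel]
  have e1 : f * Y * g = f * X₀ * g := by
    rw [hY, mul_sub, sub_mul, mul_smul_comm, smul_mul_assoc, hfq, hfg, smul_zero, sub_zero,
      ← mul_assoc, ← mul_assoc, hfq, mul_assoc (f * X₀), hqg]
  have e2 : g * Y * f = g * X₀ * f := by
    rw [hY, mul_sub, sub_mul, mul_smul_comm, smul_mul_assoc, hgq, hgf, smul_zero, sub_zero,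
      ← mul_assoc, ← mul_assoc, hgq, mul_assoc (g * X₀), hqf]
  rw [e1, e2] at hmass
  have hre : (τ f).re = (τ q).re / 2 := by rw [htr]; simp
  have hre' : (τ g).re = (τ q).re / 2 := by rw [hg, map_sub, Complex.sub_re, hre]; ring
  have hsplit : ∑ X ∈ F, τ.n (q * X * q) ^ 2 = ∑ X ∈ F, τ.n (f * X * f) ^ 2 +
      ∑ X ∈ F, τ.n (g * X * g) ^ 2 +
      ∑ X ∈ F, (τ.n (f * X * g) ^ 2 + τ.n (g * X * f) ^ 2) := by
    rw [← Finset.sum_add_distrib, ← Finset.sum_add_distrib]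
    refine Finset.sum_congr rfl fun X _ => ?_
    rw [← hsum, lq_pyth hf hfg hgf X]; ring
  have hone : τ.n (f * X₀ * g) ^ 2 + τ.n (g * X₀ * f) ^ 2 ≤
      ∑ X ∈ F, (τ.n (f * X * g) ^ 2 + τ.n (g * X * f) ^ 2) :=
    Finset.single_le_sum (f := fun X => τ.n (f * X * g) ^ 2 + τ.n (g * X * f) ^ 2)
      (fun X _ => by positivity) hX₀
  set a := ∑ X ∈ F, τ.n (f * X * f) ^ 2
  set b := ∑ X ∈ F, τ.n (g * X * g) ^ 2
  set c := ∑ X ∈ F, τ.n (q * X * q) ^ 2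
  set t := (τ q).re
  have hab : a + b ≤ c - η ^ 2 / 512 * t := by linarith
  have key : ∀ x : ℝ, 2 * x ≤ c - η ^ 2 / 512 * t → x / (t / 2) ≤ c / t - η ^ 2 / 512 := by
    intro x hx
    have e : c / t - η ^ 2 / 512 = (c - η ^ 2 / 512 * t) / t := by field_simp
    rw [e, div_le_div_iff₀ (by linarith) hpos]
    nlinarith
  rcases le_total a b with hle | hle
  · exact ⟨f, hg1, by rw [hre]; linarith, by rw [hre]; exact key a (by linarith)⟩
  · exact ⟨g, hg2, by rw [hre']; linarith, by rw [hre']; exact key b (by linarith)⟩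

/-- **Local quantization, centered form.** Proof. Let `𝒬` be the set of nonzero projections
`q ∈ P` with `p q = q` and `‖τ (q X)‖ < (η/2) re τ q` for all `X ∈ F`; `p ∈ 𝒬`.
(a) If `q ∈ 𝒬` there is `η₂ > 0` (finite minimum of `((η/2) re τ q - ‖τ (q X)‖)/2`, halved) such
that for every projection `f ∈ P` with `q f = f`, `τ f = τ q / 2`, `‖τ (f X) - τ (q X)/2‖ ≤ η₂`
both `f` and `q - f` lie in `𝒬`.  (b) By `balanced_half` and induction there is `q ∈ 𝒬` with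
`re τ q ≤ 2⁻ᵐ ≤ γ`.  (c) Let `ρ q = (∑_{X ∈ F} n (q X q)²) / re τ q ≥ 0`, `κ = η²/256`, and take
`q ∈ 𝒬` with `re τ q ≤ γ` and `ρ q < inf ρ + κ` (inf over such `q`).  Suppose
`n (q X₀ q) > η n q` for some `X₀ ∈ F`.  `Y = q X₀ q - λ • q`, `λ = τ (q X₀)/τ q`, has `τ Y = 0`,
`n Y² = n (q X₀ q)² - |λ|² τ q ≥ (η² - η²/4) τ q`.  `split` gives `f`; with `f' = q - f`,
`f Y f' = f X₀ f'`, and for every `X`,
`n (q X q)² = n (f X f)² + n (f X f')² + n (f' X f)² + n (f' X f')²`.  Hence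
`ρ f + ρ f' ≤ 2 (ρ q - κ)`, so one of `f`, `f'` has `ρ < inf ρ`, contradiction. -/
theorem local_quant_centered {P : StarSubalgebra ℂ A} (h : Setup τ P) {p : A}
    (hp : IsStarProjection p) (hpP : p ∈ P) (hp0 : p ≠ 0) (F : Finset A)
    (hF : ∀ X ∈ F, τ (p * X) = 0) {η γ : ℝ} (hη : 0 < η) (hγ : 0 < γ) :
    ∃ q ∈ P, IsStarProjection q ∧ p * q = q ∧ q ≠ 0 ∧ (τ q).re ≤ γ ∧
      ∀ X ∈ F, τ.n (q * X * q) ≤ η * τ.n q := by
  have hpG : LQGood τ P p F η p := by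
    refine ⟨hpP, hp, hp.isIdempotentElem.eq, hp0, fun X hX => ?_⟩
    rw [hF X hX, norm_zero]
    exact mul_pos (by linarith) (h.W.proj_pos hp hp0)
  obtain ⟨m, hm⟩ := exists_pow_lt_of_lt_one hγ (by norm_num : (1 / 2 : ℝ) < 1)
  obtain ⟨q₀, hq₀, hq₀m⟩ := lq_small h hpG m
  by_contra hcon
  have hbad : ∀ q, LQGood τ P p F η q → (τ q).re ≤ γ → ∃ X ∈ F, η * τ.n q < τ.n (q * X * q) := by
    intro q hq hγq
    by_contra hno
    refine hcon ⟨q, hq.1, hq.2.1, hq.2.2.1, hq.2.2.2.1, hγq, fun X hX => ?_⟩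
    by_contra hlt
    exact hno ⟨X, hX, not_le.1 hlt⟩
  have hit : ∀ k : ℕ, ∃ q, LQGood τ P p F η q ∧ (τ q).re ≤ γ ∧
      (∑ X ∈ F, τ.n (q * X * q) ^ 2) / (τ q).re ≤
        (∑ X ∈ F, τ.n (q₀ * X * q₀) ^ 2) / (τ q₀).re - k * (η ^ 2 / 512) := by
    intro k
    induction k with
    | zero => exact ⟨q₀, hq₀, by linarith, by simp⟩
    | succ k ih =>
      obtain ⟨q, hq, hγq, hk⟩ := ih
      obtain ⟨X₀, hX₀, hlt⟩ := hbad q hq hγq
      obtain ⟨q', hq', hle, hρ⟩ := lq_improve h hη hq hX₀ hlt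
      refine ⟨q', hq', hle.trans hγq, ?_⟩
      push_cast
      linarith
  have hκ : 0 < η ^ 2 / 512 := by positivity
  obtain ⟨k, hk⟩ := exists_nat_gt (((∑ X ∈ F, τ.n (q₀ * X * q₀) ^ 2) / (τ q₀).re) / (η ^ 2 / 512))
  rw [div_lt_iff₀ hκ] at hk
  obtain ⟨q, hq, -, hρ⟩ := hit k
  have : 0 ≤ (∑ X ∈ F, τ.n (q * X * q) ^ 2) / (τ q).re :=
    div_nonneg (Finset.sum_nonneg fun X _ => by positivity) (τ.proj_nonneg hq.2.1)
  linarith

/-- **Local quantization.** Proof. Apply the centered form to `X - (τ (p X)/τ p) • 1`. -/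
theorem local_quant {P : StarSubalgebra ℂ A} (h : Setup τ P) {p : A}
    (hp : IsStarProjection p) (hpP : p ∈ P) (hp0 : p ≠ 0) {F : Set A} (hF : F.Finite)
    {η γ : ℝ} (hη : 0 < η) (hγ : 0 < γ) :
    ∃ q ∈ P, IsStarProjection q ∧ p * q = q ∧ q ≠ 0 ∧ (τ q).re ≤ γ ∧
      ∀ X ∈ F, τ.n (q * X * q - (τ (p * X) / τ p) • q) ≤ η * τ.n q := by
  classical
  have hpos : 0 < (τ p).re := h.W.proj_pos hp hp0
  have hτ0 : τ p ≠ 0 := fun e => by rw [e, Complex.zero_re] at hpos; exact lt_irrefl _ hpos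
  obtain ⟨q, hqP, hq, hpq, hq0, hγq, hX⟩ := local_quant_centered h hp hpP hp0
    (hF.toFinset.image fun X => X - (τ (p * X) / τ p) • (1 : A)) (by
      intro Y hY
      obtain ⟨X, -, rfl⟩ := Finset.mem_image.1 hY
      rw [mul_sub, mul_smul_comm, mul_one, map_sub, map_smul, smul_eq_mul,
        div_mul_cancel₀ _ hτ0, sub_self]) hη hγ
  refine ⟨q, hqP, hq, hpq, hq0, hγq, fun X hXF => ?_⟩
  have := hX _ (Finset.mem_image_of_mem _ (hF.mem_toFinset.2 hXF))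
  rwa [mul_sub, sub_mul, mul_smul_comm, mul_one, smul_mul_assoc, hq.isIdempotentElem.eq] at this

end Crest.Agent.R95
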