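import Crest.Agent.R95.Anti

/-! # rid 95: an irreducible sequence of Pauli pairs in a separable II₁ factor -/

set_option autoImplicit false

open Filter Topology

namespace Crest.Agent.R95

variable {A : Type*} [CStarAlgebra A] {τ : Tr A}

/-- Restriction of the trace to a closed subalgebra.  Proof. Fields by `Subtype` coercions;
`n` agrees by `n_sq`; completeness from that of `A` and `Closed.mem_of_lim`. -/
theorem exists_restrict (hτ : τ.IsW) (Q : StarSubalgebra ℂ A) [IsClosed (Q : Set A)]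
    (hQ : τ.Closed Q) :
    ∃ σ : Tr Q, σ.IsW ∧ (∀ x : Q, σ x = τ x) ∧ ∀ x : Q, σ.n x = τ.n x := by
  let σ : Tr Q :=
    { toLin := τ.toLin.comp Q.subtype.toAlgHom.toLinearMap
      one' := τ.map_one
      comm' := fun x y => τ.comm x y
      star' := fun x => τ.map_star x
      nonneg' := fun x => τ.nonneg' x }
  have hn : ∀ x : Q, σ.n x = τ.n x := fun x => by
    rw [← sq_eq_sq₀ (σ.n_nonneg _) (τ.n_nonneg _), Tr.n_sq, Tr.n_sq]; rfl
  refine ⟨σ, ⟨fun x hx => Subtype.ext (hτ.faithful _ (hn x ▸ hx)), fun u C hC hu => ?_⟩,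
    fun _ => rfl, hn⟩
  obtain ⟨x, hx, hl⟩ := hτ.complete (fun k => u k) C hC (by simp only [hn] at hu; exact hu)
  exact ⟨⟨x, hQ.mem_of_lim (fun k => (u k).2) hl⟩, hx, by simp only [Tr.Lim, hn]; exact hl⟩

/-- a closed infinite-dimensional subfactor -/
structure SubFac (τ : Tr A) (Q : StarSubalgebra ℂ A) : Prop where
  closed : τ.Closed Q
  fac : ∀ z ∈ Q, (∀ y ∈ Q, z * y = y * z) → ∃ c : ℂ, z = c • (1 : A)
  inf : ¬ FiniteDimensional ℂ Q

/-- **One step.** Proof. `exists_restrict` and `pauli_step_top` in `Q`.  The new algebra is closed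
(`Closed.inf`, `IsW.closed_centralizer`); by `pauli` every `y ∈ Q` is
`y₀ + Z y₁ + X y₂ + X Z y₃` with `yᵢ` in the new algebra `Q'`: so a central element of `Q'`
commutes with `Q`, and `Q` is the image of `Q'⁴` under a linear map, so `Q'` is
infinite-dimensional. -/
theorem pauli_step (hτ : τ.IsW) {Q : StarSubalgebra ℂ A} (hQ : SubFac τ Q) {y : A} (hyQ : y ∈ Q)
    (hy : τ y = 0) :
    ∃ Z ∈ Q, ∃ X ∈ Q, IsSym Z ∧ IsSym X ∧ X * Z = -(Z * X) ∧
      τ.n (ev X (ev Z y)) ^ 2 ≤ 127 / 128 * τ.n y ^ 2 ∧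
      SubFac τ (Q ⊓ StarSubalgebra.centralizer ℂ {Z, X}) := by
  have := hQ.closed.isClosed
  obtain ⟨σ, hσ, hσ1, hσ2⟩ := exists_restrict hτ Q hQ.closed
  have hS : Setup σ ⊤ := by
    refine ⟨hσ, Tr.closed_top, fun z hz => ?_, fun hf => hQ.inf ?_⟩
    · obtain ⟨c, hc⟩ := hQ.fac z z.2 fun w hw =>
        congrArg Subtype.val (hz ⟨w, hw⟩ StarSubalgebra.mem_top)
      exact ⟨c, Subtype.ext hc⟩
    · exact Module.Finite.of_surjective (⊤ : StarSubalgebra ℂ Q).subtype.toAlgHom.toLinearMap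
        fun w => ⟨⟨w, StarSubalgebra.mem_top⟩, rfl⟩
  obtain ⟨Z, X, hZ, hX, hXZ, hn⟩ := pauli_step_top hS (y := ⟨y, hyQ⟩) (by rw [hσ1]; exact hy)
  have hZ' : IsSym (Z : A) := ⟨congrArg Subtype.val hZ.1, congrArg Subtype.val hZ.2⟩
  have hX' : IsSym (X : A) := ⟨congrArg Subtype.val hX.1, congrArg Subtype.val hX.2⟩
  have hXZ' : (X : A) * Z = -((Z : A) * X) := congrArg Subtype.val hXZ
  have hmem : ∀ w : A, w ∈ Q ⊓ StarSubalgebra.centralizer ℂ {(Z : A), (X : A)} ↔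
      w ∈ Q ∧ Z * w = w * Z ∧ X * w = w * X := fun w => by
    rw [StarSubalgebra.mem_inf, StarSubalgebra.mem_centralizer_iff]; simp [hZ'.1, hX'.1]
  refine ⟨Z, Z.2, X, X.2, hZ', hX', hXZ', by rw [hσ2, hσ2] at hn; exact hn,
    hQ.closed.inf (hτ.closed_centralizer _), fun z hz hc => ?_, fun hf => hQ.inf ?_⟩
  · obtain ⟨hzQ, hzZ, hzX⟩ := (hmem z).1 hz
    refine hQ.fac z hzQ fun w hw => ?_
    obtain ⟨y₀, y₁, y₂, y₃, hy', rfl⟩ := pauli hZ'.2 hX'.2 hXZ' Z.2 X.2 hw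
    have c0 : Commute z y₀ := hc _ ((hmem _).2 (hy' _ (by simp)))
    have c1 : Commute z y₁ := hc _ ((hmem _).2 (hy' _ (by simp)))
    have c2 : Commute z y₂ := hc _ ((hmem _).2 (hy' _ (by simp)))
    have c3 : Commute z y₃ := hc _ ((hmem _).2 (hy' _ (by simp)))
    have cZ : Commute z (Z : A) := hzZ.symm
    have cX : Commute z (X : A) := hzX.symm
    exact ((c0.add_right (cZ.mul_right c1)).add_right (cX.mul_right c2)).add_right
      ((cX.mul_right cZ).mul_right c3)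
  · let ι := (StarSubalgebra.inclusion (inf_le_left :
      Q ⊓ StarSubalgebra.centralizer ℂ {(Z : A), (X : A)} ≤ Q)).toAlgHom.toLinearMap
    refine Module.Finite.of_surjective
      ((ι.coprod (LinearMap.mulLeft ℂ Z ∘ₗ ι)).coprod
        ((LinearMap.mulLeft ℂ X ∘ₗ ι).coprod (LinearMap.mulLeft ℂ (X * Z) ∘ₗ ι))) fun w => ?_
    obtain ⟨y₀, y₁, y₂, y₃, hy', e⟩ := pauli hZ'.2 hX'.2 hXZ' Z.2 X.2 w.2
    refine ⟨((⟨y₀, (hmem _).2 (hy' _ (by simp))⟩, ⟨y₁, (hmem _).2 (hy' _ (by simp))⟩),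
      (⟨y₂, (hmem _).2 (hy' _ (by simp))⟩, ⟨y₃, (hmem _).2 (hy' _ (by simp))⟩)), Subtype.ext ?_⟩
    rw [e, add_assoc (y₀ + Z * y₁)]
    rfl

theorem tower_ev_sub (Z a b : A) : ev Z (a - b) = ev Z a - ev Z b := by
  simp only [ev, mul_sub, sub_mul]; module

theorem tower_tr_ev {Z : A} (hZ : IsSym Z) (a : A) : τ (ev Z a) = τ a := by
  rw [ev, map_smul, map_add, τ.comm3, hZ.2, one_mul, smul_eq_mul]; ring

theorem tower_n_ev {Z : A} (hZ : IsSym Z) (a : A) : τ.n (ev Z a) ≤ τ.n a := by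
  have h1 : τ.n (Z * a * Z) = τ.n a := by
    rw [τ.n_mul_unitary hZ.mem_unitary, τ.n_unitary_mul hZ.mem_unitary]
  have h2 := map_add_le_add τ.n a (Z * a * Z)
  rw [ev, map_smul_eq_mul]
  simp only [norm_inv, Complex.norm_ofNat]
  linarith

/-- a stage of the tower -/
structure TowerSt (τ : Tr A) where
  /-- the current subfactor -/
  Q : StarSubalgebra ℂ A
  /-- the current averaging map -/
  E : A → A
  sub : SubFac τ Q
  mem : ∀ a, E a ∈ Q
  tr : ∀ a, τ (E a) = τ a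
  map_sub : ∀ a b, E (a - b) = E a - E b

theorem tower_step (hτ : τ.IsW) (s : TowerSt τ) (y : A) (hy : τ y = 0) :
    ∃ (Z X : A) (s' : TowerSt τ), Z ∈ s.Q ∧ X ∈ s.Q ∧ IsSym Z ∧ IsSym X ∧ X * Z = -(Z * X) ∧
      (∀ w ∈ s'.Q, w ∈ s.Q ∧ Z * w = w * Z ∧ X * w = w * X) ∧
      (∀ a, s'.E a = ev X (ev Z (s.E a))) ∧
      τ.n (s'.E y) ^ 2 ≤ 127 / 128 * τ.n (s.E y) ^ 2 := by
  obtain ⟨Z, hZQ, X, hXQ, hZ, hX, hXZ, hn, hS⟩ := pauli_step hτ s.sub (s.mem y) (by rw [s.tr, hy])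
  have hmem : ∀ w : A, w ∈ s.Q ⊓ StarSubalgebra.centralizer ℂ {Z, X} ↔
      w ∈ s.Q ∧ Z * w = w * Z ∧ X * w = w * X := fun w => by
    rw [StarSubalgebra.mem_inf, StarSubalgebra.mem_centralizer_iff]; simp [hZ.1, hX.1]
  refine ⟨Z, X, ⟨_, fun a => ev X (ev Z (s.E a)), hS, fun a => (hmem _).2
    ⟨ev_mem hXQ (ev_mem hZQ (s.mem a)), ev_comm_of (Or.inl (by rw [hXZ, neg_neg]))
      (ev_comm hZ.2 _), ev_comm hX.2 _⟩, fun a => ?_, fun a b => ?_⟩, hZQ, hXQ, hZ, hX, hXZ,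
    fun w hw => (hmem w).1 hw, fun _ => rfl, hn⟩
  · rw [tower_tr_ev hX, tower_tr_ev hZ, s.tr]
  · rw [s.map_sub, tower_ev_sub, tower_ev_sub]

/-- **Tower.** Proof. Let `x j` be dense, `y j = x j - τ (x j) • 1`, `σ k = k.unpair.1`.
Recursively build `Q k` (`Q 0 = ⊤`) and linear maps `E k : A → A` (`E 0 = id`) with
`E k a ∈ Q k`, `τ (E k a) = τ a`: apply `pauli_step` to `Q k`, `E k (y (σ k))`, get `Z k, X k`, put
`Q (k+1) = Q k ⊓ {Z k, X k}'`, `E (k+1) = ev (X k) ∘ ev (Z k) ∘ E k` (recursion on a structure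
bundling `Q`, `SubFac`, `E` and its properties, with `choose`).  `Q` is antitone, so later pairs
commute with earlier ones.  `k ↦ n (E k a)` is antitone and, for `a = y j`, its square is multiplied
by `127/128` infinitely often, so tends to `0`.  If `z` commutes with all `Z i`, `X i` then
`E k z₀ = z₀` for `z₀ = z - τ z • 1`, and
`n z₀ ≤ n (E k (z₀ - y j)) + n (E k (y j)) ≤ 2 n (z - x j) + o(1)`; so `z₀ = 0`. -/
theorem tower (h : Setup τ ⊤) (hsep : τ.Sep) :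
    ∃ Z X : ℕ → A, (∀ i, IsSym (Z i) ∧ IsSym (X i) ∧ X i * Z i = -(Z i * X i)) ∧
      (∀ i j, Z i * Z j = Z j * Z i) ∧ (∀ i j, X i * X j = X j * X i) ∧
      (∀ i j, i ≠ j → X i * Z j = Z j * X i) ∧
      ∀ z, (∀ i, z * Z i = Z i * z ∧ z * X i = X i * z) → ∃ c : ℂ, z = c • (1 : A) := by
  obtain ⟨x, hx⟩ := hsep
  let y : ℕ → A := fun j => x j - τ (x j) • 1
  have hy : ∀ j, τ (y j) = 0 := fun j => by simp [y]
  choose Z X nx hZQ hXQ hZ hX hXZ hQ hE hn using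
    fun (s : TowerSt τ) (k : ℕ) => tower_step h.W s (y k.unpair.1) (hy _)
  let s₀ : TowerSt τ := ⟨⊤, id, ⟨h.closed, fun z _ hz => h.irred z hz, h.inf⟩,
    fun _ => StarSubalgebra.mem_top, fun _ => rfl, fun _ _ => rfl⟩
  let s : ℕ → TowerSt τ := fun k => Nat.rec s₀ (fun k t => nx t k) k
  have hs : ∀ k, s (k + 1) = nx (s k) k := fun _ => rfl
  have hanti : Antitone fun k => (s k).Q :=
    antitone_nat_of_succ_le fun k w hw => (hQ (s k) k w hw).1
  have hlt : ∀ i j, i < j → ∀ w ∈ (s j).Q, Z (s i) i * w = w * Z (s i) i ∧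
      X (s i) i * w = w * X (s i) i := fun i j hij w hw => (hQ (s i) i w (hanti hij hw)).2
  refine ⟨fun k => Z (s k) k, fun k => X (s k) k, fun i => ⟨hZ _ _, hX _ _, hXZ _ _⟩,
    fun i j => ?_, fun i j => ?_, fun i j hij => ?_, fun z hz => ⟨τ z, ?_⟩⟩
  · rcases lt_trichotomy i j with hij | rfl | hij
    exacts [(hlt i j hij _ (hZQ _ _)).1, rfl, (hlt j i hij _ (hZQ _ _)).1.symm]
  · rcases lt_trichotomy i j with hij | rfl | hij
    exacts [(hlt i j hij _ (hXQ _ _)).2, rfl, (hlt j i hij _ (hXQ _ _)).2.symm]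
  · rcases lt_or_gt_of_ne hij with hij | hij
    exacts [(hlt i j hij _ (hZQ _ _)).2, (hlt j i hij _ (hXQ _ _)).1.symm]
  have hmono : ∀ a, Antitone fun k => τ.n ((s k).E a) := fun a =>
    antitone_nat_of_succ_le fun k => by
      rw [hs, hE]; exact (tower_n_ev (hX _ _) _).trans (tower_n_ev (hZ _ _) _)
  have hdec : ∀ j m : ℕ, ∃ k, τ.n ((s k).E (y j)) ^ 2 ≤ (127 / 128) ^ m * τ.n (y j) ^ 2 := by
    intro j m
    induction m with
    | zero => exact ⟨0, by simp [s, s₀]⟩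
    | succ m ih =>
      obtain ⟨k, hk⟩ := ih
      have h1 := hn (s (Nat.pair j k)) (Nat.pair j k)
      rw [Nat.unpair_pair] at h1
      have h2 := pow_le_pow_left₀ (τ.n_nonneg _) (hmono (y j) (Nat.right_le_pair j k)) 2
      refine ⟨Nat.pair j k + 1, ?_⟩
      rw [hs, pow_succ (127 / 128 : ℝ) m]
      simp only at h1 h2
      linarith
  have hfix : ∀ k, (s k).E (z - τ z • 1) = z - τ z • 1 := fun k => by
    induction k with
    | zero => rfl
    | succ k ih =>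
      rw [hs, hE, ih, ev_of_comm (hZ _ _).2 (by simp [mul_sub, sub_mul, (hz k).1]),
        ev_of_comm (hX _ _).2 (by simp [mul_sub, sub_mul, (hz k).2])]
  refine h.W.eq_of_n (le_antisymm (le_of_forall_pos_le_add fun ε hε => ?_) (τ.n_nonneg _))
  obtain ⟨j, hj⟩ := hx z (ε / 3) (by positivity)
  obtain ⟨m, hm⟩ := exists_pow_lt_of_lt_one
    (show 0 < (ε / 3) ^ 2 / (τ.n (y j) ^ 2 + 1) by positivity) (show (127 / 128 : ℝ) < 1 by norm_num)
  obtain ⟨k, hk⟩ := hdec j m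
  have h1 : τ.n ((s k).E (y j)) ≤ ε / 3 := by
    rw [lt_div_iff₀ (by positivity)] at hm
    have : (0 : ℝ) < (127 / 128) ^ m := by positivity
    exact abs_le_of_sq_le_sq' (by nlinarith) (by positivity) |>.2
  have h2 : τ.n (z - τ z • 1 - y j) ≤ 2 * τ.n (z - x j) := by
    have e : z - τ z • 1 - y j = (z - x j) - τ (z - x j) • 1 := by
      simp only [y, map_sub, sub_smul]; abel
    have := map_sub_le_add τ.n (z - x j) (τ (z - x j) • 1)
    rw [τ.n_smul_one] at this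
    rw [e]; linarith [τ.norm_le_n (z - x j)]
  have h3 : τ.n ((s k).E (z - τ z • 1 - y j)) ≤ τ.n (z - τ z • 1 - y j) := hmono _ (Nat.zero_le k)
  rw [(s k).map_sub, hfix] at h3
  have h4 := map_add_le_add τ.n (z - τ z • 1 - (s k).E (y j)) ((s k).E (y j))
  rw [sub_add_cancel] at h4
  linarith

end Crest.Agent.R95
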