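import Crest.Agent.R95.Main26
import Crest.Agent.R95.Tower

/-! # rid 95: assembly of S0125 -/

set_option autoImplicit false

open Filter Topology Crest.OpAlg Complex

namespace Crest.Agent.R95

section alg
variable {A : Type*} [CStarAlgebra A]

theorem re_im_mem {Q : StarSubalgebra ℂ A} {α β : A} (hα : star α = α) (hβ : star β = β)
    (h : α + I • β ∈ Q) : α ∈ Q ∧ β ∈ Q := by
  have hs : α - I • β ∈ Q := by
    have := star_mem h
    rwa [star_add, star_smul, hα, hβ, Complex.star_def, conj_I, neg_smul, ← sub_eq_add_neg] at this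
  constructor
  · have := Q.smul_mem (add_mem h hs) 2⁻¹
    convert this using 1; module
  · have := Q.smul_mem (sub_mem h hs) (-I / 2)
    convert this using 1
    rw [add_sub_sub_cancel, ← two_smul ℂ, smul_smul, smul_smul]
    have : -I / 2 * 2 * I = 1 := by ring_nf; simp
    rw [this, one_smul]

theorem decode {Q : StarSubalgebra ℂ A} {Z X a c : A} (hZ : Z * Z = 1) (hX : X * X = 1)
    (hXZ : X * Z = -(Z * X)) (hZQ : Z ∈ Q) (hXQ : X ∈ Q) (ha : X * a = a * X) (hc : X * c = c * X)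
    (h : a + Z * c ∈ Q) : a ∈ Q ∧ c ∈ Q := by
  have e : ev X (a + Z * c) = a := by
    have h1 : X * a * X = a := by rw [ha, mul_assoc, hX, mul_one]
    have h2 : X * (Z * c) * X = -(Z * c) := by
      calc X * (Z * c) * X = (X * Z) * (c * X) := by noncomm_ring
        _ = -(Z * (X * X) * c) := by rw [hXZ, ← hc]; noncomm_ring
        _ = _ := by rw [hX, mul_one]
    rw [ev, mul_add, add_mul, h1, h2]; module
  have haQ : a ∈ Q := e ▸ ev_mem hXQ h
  refine ⟨haQ, ?_⟩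
  have := mul_mem hZQ (sub_mem h haQ)
  rwa [add_sub_cancel_left, ← mul_assoc, hZ, one_mul] at this

theorem linInd_of_pairs {τ : Tr A} {Z X : ℕ → A} (hZ : ∀ i, Z i * Z i = 1)
    (hX : ∀ i, X i * X i = 1) (hXZ : ∀ i, X i * Z i = -(Z i * X i))
    (hc : ∀ i j, i ≠ j → X i * Z j = Z j * X i) : LinearIndependent ℂ Z := by
  have orth : ∀ i j, i ≠ j → τ (Z i * Z j) = 0 := fun i j hij => by
    have : τ (Z i * Z j) = -τ (Z i * Z j) := by
      calc τ (Z i * Z j) = τ (X i * X i * (Z i * Z j)) := by rw [hX, one_mul]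
        _ = τ (X i * Z i * (Z j * X i)) := by rw [mul_assoc, τ.comm]; simp only [mul_assoc]
        _ = τ (-(Z i * (X i * X i) * Z j)) := by rw [hXZ, ← hc i j hij]; congr 1; noncomm_ring
        _ = _ := by rw [hX, mul_one, map_neg]
    linear_combination this / 2
  rw [linearIndependent_iff']
  intro s g hg i hi
  have := congrArg (fun w => τ (Z i * w)) hg
  simp only [Finset.mul_sum, mul_smul_comm, map_sum, map_smul, mul_zero, map_zero] at this
  rw [Finset.sum_eq_single_of_mem i hi fun j _ hj => by rw [orth i j hj.symm, smul_zero]] at this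
  simpa [hZ] using this

end alg

variable {H : Type*} [NormedAddCommGroup H] [InnerProductSpace ℂ H] [CompleteSpace H]

theorem m25_bicomm_le {S : Set (H →L[ℂ] H)} {N : VonNeumannAlgebra H} (h : ∀ a ∈ S, a ∈ N) :
    (vnCent S).commutant ≤ N := fun _ hx =>
  mem_of_comm_commutant fun T hT => VonNeumannAlgebra.mem_commutant_iff.mp hx T
    (mem_vnCent.mpr fun g hg => ⟨VonNeumannAlgebra.mem_commutant_iff.mp hT g (h g hg),
      VonNeumannAlgebra.mem_commutant_iff.mp hT _ (star_mem (h g hg))⟩)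

theorem mem_relComm {M : VonNeumannAlgebra H} {Z X z : H →L[ℂ] H} (hZ : star Z = Z)
    (hX : star X = X) : z ∈ vnCent ((M.commutant : Set (H →L[ℂ] H)) ∪ {Z, X}) ↔
      z ∈ M ∧ Z * z = z * Z ∧ X * z = z * X := by
  rw [mem_vnCent]
  constructor
  · intro h
    exact ⟨mem_of_comm_commutant fun T hT => (h T (Or.inl hT)).1, (h Z (by simp)).1,
      (h X (by simp)).1⟩
  · rintro ⟨h1, h2, h3⟩ g (hg | rfl | rfl)
    · exact ⟨(VonNeumannAlgebra.mem_commutant_iff.mp hg z h1).symm,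
        (VonNeumannAlgebra.mem_commutant_iff.mp (star_mem hg) z h1).symm⟩
    · rw [hZ]; exact ⟨h2, h2⟩
    · rw [hX]; exact ⟨h3, h3⟩

theorem exists_pairs [TopologicalSpace.SeparableSpace H] {M : VonNeumannAlgebra H}
    (hM : IsTypeIIOneFactor M) :
    ∃ Z X : ℕ → H →L[ℂ] H, (∀ i, Z i ∈ M ∧ X i ∈ M) ∧
      (∀ i, IsSym (Z i) ∧ IsSym (X i) ∧ X i * Z i = -(Z i * X i)) ∧
      (∀ i j, Z i * Z j = Z j * Z i) ∧ (∀ i j, X i * X j = X j * X i) ∧
      (∀ i j, i ≠ j → X i * Z j = Z j * X i) ∧ LinearIndependent ℂ Z ∧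
      ∀ z ∈ M, (∀ i, z * Z i = Z i * z ∧ z * X i = X i * z) →
        ∃ c : ℂ, z = c • (1 : H →L[ℂ] H) := by
  obtain ⟨hfac, hinf, ξ, hξ⟩ := hM
  obtain ⟨τ, -, hτ⟩ := exists_vTr hξ
  have hS := setup_sub le_rfl hinf hfac hξ hτ
  have htop : sub M M = ⊤ := eq_top_iff.mpr fun x _ => x.2
  rw [htop] at hS
  obtain ⟨Z, X, h1, h2, h3, h4, h5⟩ := tower hS (vTr_sep hξ hτ)
  have v := fun {a b : M.toStarSubalgebra} (h : a = b) => congrArg Subtype.val h
  refine ⟨fun i => Z i, fun i => X i, fun i => ⟨(Z i).2, (X i).2⟩, fun i =>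
    ⟨⟨v (h1 i).1.1, v (h1 i).1.2⟩, ⟨v (h1 i).2.1.1, v (h1 i).2.1.2⟩, v (h1 i).2.2⟩,
    fun i j => v (h2 i j), fun i j => v (h3 i j), fun i j h => v (h4 i j h), ?_,
    fun z hz hc => ?_⟩
  · exact (linInd_of_pairs (τ := τ) (fun i => (h1 i).1.2) (fun i => (h1 i).2.1.2)
      (fun i => (h1 i).2.2) h4).map' M.toStarSubalgebra.subtype.toLinearMap
      (LinearMap.ker_eq_bot.mpr Subtype.val_injective)
  · obtain ⟨c, hc⟩ := h5 ⟨z, hz⟩ fun i => ⟨Subtype.ext (hc i).1, Subtype.ext (hc i).2⟩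
    exact ⟨c, v hc⟩

theorem main25 [TopologicalSpace.SeparableSpace H] {M : VonNeumannAlgebra H}
    (hM : IsTypeIIOneFactor M) : ∃ x ∈ M, ∀ N : VonNeumannAlgebra H, x ∈ N → M ≤ N := by
  obtain ⟨Z, X, hm, h1, h2, h3, h4, hli, h5⟩ := exists_pairs hM
  obtain ⟨-, -, ξ, hξ⟩ := hM
  obtain ⟨hZ, hX, hXZ⟩ := h1 0
  set N := vnCent ((M.commutant : Set (H →L[ℂ] H)) ∪ {Z 0, X 0}) with hN
  have memN : ∀ {z}, z ∈ N ↔ z ∈ M ∧ Z 0 * z = z * Z 0 ∧ X 0 * z = z * X 0 :=
    mem_relComm hZ.1 hX.1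
  obtain ⟨a, ha, ha1, -, haZ, haQ⟩ := exists_encode (fun i => Z (i + 1)) (fun i => (h1 _).1)
    fun i j => h2 _ _
  obtain ⟨b, hb, -, -, hbX, hbQ⟩ := exists_encode (fun i => X (i + 1)) (fun i => (h1 _).2.1)
    fun i j => h3 _ _
  have haN : a ∈ N := haQ N.toStarSubalgebra (isClosed_vN N) fun i =>
    memN.mpr ⟨(hm _).1, h2 _ _, h4 _ _ (Nat.succ_ne_zero i).symm⟩
  have hbN : b ∈ N := hbQ N.toStarSubalgebra (isClosed_vN N) fun i =>
    memN.mpr ⟨(hm _).2, (h4 _ _ (Nat.succ_ne_zero i)).symm, h3 _ _⟩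
  set P := (vnCent {a, b}).commutant with hP
  have hZP : ∀ i, Z (i + 1) ∈ P := fun i => VonNeumannAlgebra.mem_commutant_iff.mpr fun T hT =>
    haZ T ((mem_vnCent.mp hT a (by simp)).1).symm i
  have hXP : ∀ i, X (i + 1) ∈ P := fun i => VonNeumannAlgebra.mem_commutant_iff.mpr fun T hT =>
    hbX T ((mem_vnCent.mp hT b (by simp)).1).symm i
  have hPN : P ≤ N := m25_bicomm_le (by rintro _ (rfl | rfl) <;> assumption)
  have hNM : N ≤ M := fun z hz => (memN.mp hz).1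
  have hinf : ¬ FiniteDimensional ℂ P.toStarSubalgebra := fun hfin => by
    refine Module.Finite.not_linearIndependent_of_infinite (R := ℂ)
      (fun i : ℕ => (⟨Z (i + 1), hZP i⟩ : P.toStarSubalgebra)) ?_
    exact LinearIndependent.of_comp P.toStarSubalgebra.subtype.toLinearMap
      (hli.comp (fun i => i + 1) (add_left_injective 1))
  have hirr : ∀ x ∈ N, (∀ y ∈ P, x * y = y * x) → ∃ c : ℂ, x = c • (1 : H →L[ℂ] H) := by
    intro x hx hc
    refine h5 x (hNM hx) fun i => ?_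
    rcases i with _ | i
    · exact ⟨(memN.mp hx).2.1.symm, (memN.mp hx).2.2.symm⟩
    · exact ⟨hc _ (hZP i), hc _ (hXP i)⟩
  have hξN : IsFaithfulTracialVectorState N ξ :=
    ⟨hξ.1, fun x hx y hy => hξ.2.1 x (hNM hx) y (hNM hy), fun x hx => hξ.2.2 x (hNM hx)⟩
  obtain ⟨u, huN, hu, hgen, -⟩ := (main26 hPN hinf hirr hξN).2 1 (one_mem _) (one_mem _) 1 one_pos
  set c : H →L[ℂ] H := (8⁻¹ : ℂ) • (u + star u) with hc
  set d : H →L[ℂ] H := (-I / 2) • (u - star u) with hd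
  have hcN : c ∈ N := N.toStarSubalgebra.smul_mem (add_mem huN (star_mem huN)) _
  have hdN : d ∈ N := N.toStarSubalgebra.smul_mem (sub_mem huN (star_mem huN)) _
  have hcs : star c = c := by rw [hc, star_smul, star_add, star_star, add_comm]; simp
  have hds : star d = d := by
    rw [hd, star_smul, star_sub, star_star, ← neg_sub u, smul_neg, ← neg_smul]
    congr 1
    simp [neg_div]
  have hc1 : ‖c‖ ≤ 1 / 4 := by
    have := norm_add_le u (star u)
    have := norm_le_one_of_unitary hu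
    rw [hc, norm_smul, norm_inv, Complex.norm_ofNat]
    rw [norm_star] at *
    linarith
  have hcd : u = (4 : ℂ) • c + I • d := by
    rw [hc, hd, smul_smul, smul_smul]
    have : I * (-I / 2) = 2⁻¹ := by ring_nf; simp; norm_num
    rw [this]; module
  have hZc : ∀ w ∈ N, star w = w → star (Z 0 * w) = Z 0 * w := fun w hw hs => by
    rw [star_mul, hs, hZ.1, (memN.mp hw).2.1]
  have hZcomm : ∀ v ∈ N, ∀ w ∈ N, Z 0 * (v + Z 0 * w) = (v + Z 0 * w) * Z 0 := fun v hv w hw => by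
    rw [mul_add, add_mul, (memN.mp hv).2.1, mul_assoc, ← (memN.mp hw).2.1]
  refine ⟨(Z 0 + (a + Z 0 * c)) + I • (X 0 + (b + Z 0 * d)), add_mem
    (add_mem (hm 0).1 (add_mem (hNM haN) (mul_mem (hm 0).1 (hNM hcN))))
    (M.toStarSubalgebra.smul_mem (add_mem (hm 0).2 (add_mem (hNM hbN)
      (mul_mem (hm 0).1 (hNM hdN)))) _), fun N₁ hx => ?_⟩
  obtain ⟨hα, hβ⟩ := re_im_mem (Q := N₁.toStarSubalgebra)
    (by rw [star_add, star_add, hZ.1, ha, hZc c hcN hcs])
    (by rw [star_add, star_add, hX.1, hb, hZc d hdN hds]) hx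
  have hr : ‖a + Z 0 * c‖ < 1 := by
    have := norm_add_le a (Z 0 * c)
    have := (norm_mul_le (Z 0) c).trans (mul_le_of_le_one_left (norm_nonneg _) hZ.norm_le)
    linarith
  have hZ1 : Z 0 ∈ N₁ := mem_of_comm_commutant fun T hT =>
    comm_of_comm_add hZ hr (hZcomm a haN c hcN)
      (VonNeumannAlgebra.mem_commutant_iff.mp hT _ hα).symm
  have hX1 : X 0 ∈ N₁ := by
    have h0 := sub_mem hβ (ev_mem (Q := N₁.toStarSubalgebra) hZ1 hβ)
    have e : ev (Z 0) (X 0 + (b + Z 0 * d)) = b + Z 0 * d := by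
      have e1 : Z 0 * X 0 * Z 0 = -X 0 := by
        rw [mul_assoc, hXZ, mul_neg, ← mul_assoc, hZ.2, one_mul]
      have e2 := ev_of_comm hZ.2 (hZcomm b hbN d hdN)
      rw [ev] at e2 ⊢
      rw [mul_add, add_mul, e1, ← e2]
      congr 1
      rw [e2]; abel
    rwa [e, add_sub_cancel_right] at h0
  obtain ⟨ha', hc'⟩ := decode (Q := N₁.toStarSubalgebra) hZ.2 hX.2 hXZ hZ1 hX1
    (memN.mp haN).2.2 (memN.mp hcN).2.2 (by simpa using sub_mem hα hZ1)
  obtain ⟨hb', hd'⟩ := decode (Q := N₁.toStarSubalgebra) hZ.2 hX.2 hXZ hZ1 hX1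
    (memN.mp hbN).2.2 (memN.mp hdN).2.2 (by simpa using sub_mem hβ hX1)
  have hN1 : N ≤ N₁ := hgen N₁ (m25_bicomm_le (by rintro _ (rfl | rfl) <;> assumption))
    (hcd ▸ add_mem (N₁.toStarSubalgebra.smul_mem hc' _) (N₁.toStarSubalgebra.smul_mem hd' _))
  intro y hy
  obtain ⟨y₀, y₁, y₂, y₃, hw, rfl⟩ := pauli (Q := M.toStarSubalgebra) hZ.2 hX.2 hXZ (hm 0).1
    (hm 0).2 hy
  have hw' : ∀ w ∈ ({y₀, y₁, y₂, y₃} : Set (H →L[ℂ] H)), w ∈ N₁ := fun w h =>
    hN1 (memN.mpr (hw w h))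
  exact add_mem (add_mem (add_mem (hw' _ (by simp)) (mul_mem hZ1 (hw' _ (by simp))))
    (mul_mem hX1 (hw' _ (by simp)))) (mul_mem (mul_mem hX1 hZ1) (hw' _ (by simp)))

end Crest.Agent.R95
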