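import Crest.Agent.R95.Baire
import Crest.Agent.R95.Bridge2
import Crest.Agent.R95.Bicomm

/-! # rid 95: assembly of S0126 -/

set_option autoImplicit false

open Filter Topology Crest.OpAlg

namespace Crest.Agent.R95

variable {H : Type*} [NormedAddCommGroup H] [InnerProductSpace ℂ H] [CompleteSpace H]

/-- `P` seen inside `M` -/
noncomputable def sub (P M : VonNeumannAlgebra H) : StarSubalgebra ℂ M.toStarSubalgebra :=
  P.toStarSubalgebra.comap M.toStarSubalgebra.subtype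

theorem mem_sub {P M : VonNeumannAlgebra H} {x : M.toStarSubalgebra} :
    x ∈ sub P M ↔ (x : H →L[ℂ] H) ∈ P := Iff.rfl

theorem coe_mem_unitary {M : VonNeumannAlgebra H} {x : M.toStarSubalgebra} :
    x ∈ unitary M.toStarSubalgebra ↔ (x : H →L[ℂ] H) ∈ unitary (H →L[ℂ] H) := by
  simp only [Unitary.mem_iff, Subtype.ext_iff]
  rfl

variable {P M : VonNeumannAlgebra H} {ξ : ℕ → H}

theorem closed_sub (hξ : IsFaithfulTracialVectorState M ξ) {τ : Tr M.toStarSubalgebra}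
    (hτ : ∀ x : M.toStarSubalgebra, τ.n x ^ 2 = traceNormSq ξ x) (P : VonNeumannAlgebra H) :
    τ.Closed (sub P M) := fun _ hx =>
  mem_of_comm_commutant fun _ hT => comm_of_approx hξ hτ _ hx fun a ha =>
    (VonNeumannAlgebra.mem_commutant_iff.mp hT a ha).symm

theorem setup_sub (hPM : P ≤ M) (hP : ¬ FiniteDimensional ℂ P.toStarSubalgebra)
    (hPM' : ∀ x ∈ M, (∀ y ∈ P, x * y = y * x) → ∃ c : ℂ, x = c • (1 : H →L[ℂ] H))
    (hξ : IsFaithfulTracialVectorState M ξ) {τ : Tr M.toStarSubalgebra}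
    (hτ : ∀ x : M.toStarSubalgebra, τ.n x ^ 2 = traceNormSq ξ x) : Setup τ (sub P M) where
  W := vTr_isW hξ hτ
  closed := closed_sub hξ hτ P
  irred z hz := by
    obtain ⟨c, hc⟩ := hPM' z z.2 fun y hy => congrArg Subtype.val (hz ⟨y, hPM hy⟩ hy)
    exact ⟨c, Subtype.ext hc⟩
  inf hfin := by
    let f : P.toStarSubalgebra →ₗ[ℂ] sub P M :=
      { toFun := fun x => ⟨⟨x, hPM x.2⟩, x.2⟩
        map_add' := fun _ _ => rfl
        map_smul' := fun _ _ => rfl }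
    exact hP (FiniteDimensional.of_injective f fun x y h =>
      Subtype.ext (congrArg (fun z : sub P M => ((z : M.toStarSubalgebra) : H →L[ℂ] H)) h))

theorem gen_iff_generates (hPM : P ≤ M) (hξ : IsFaithfulTracialVectorState M ξ)
    {τ : Tr M.toStarSubalgebra}
    (hτ : ∀ x : M.toStarSubalgebra, τ.n x ^ 2 = traceNormSq ξ x) (u : M.toStarSubalgebra) :
    Gen τ (sub P M) u ↔ ∀ N : VonNeumannAlgebra H, P ≤ N → (u : H →L[ℂ] H) ∈ N → M ≤ N := by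
  constructor
  · intro hg N hPN huN x hx
    have hle : alg (sub P M) u ≤ sub N M := by
      refine StarAlgebra.adjoin_le ?_
      rintro a (rfl | ha)
      · exact huN
      · exact hPN ha
    exact closed_sub hξ hτ N ⟨x, hx⟩ fun ε hε =>
      let ⟨a, ha, h⟩ := hg ⟨x, hx⟩ ε hε; ⟨a, hle ha, h⟩
  · intro hg x ε hε
    let S : StarSubalgebra ℂ (H →L[ℂ] H) := (alg (sub P M) u).map M.toStarSubalgebra.subtype
    have hS : ∀ a ∈ S, a ∈ (vnCent (S : Set (H →L[ℂ] H))).commutant := fun a ha =>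
      VonNeumannAlgebra.mem_commutant_iff.mpr fun T hT => ((mem_vnCent.mp hT a ha).1).symm
    have hx : (x : H →L[ℂ] H) ∈ (vnCent (S : Set (H →L[ℂ] H))).commutant := by
      refine hg _ (fun y hy => hS y ⟨⟨y, hPM hy⟩, ?_, rfl⟩) (hS u ⟨u, ?_, rfl⟩) x.2
      · exact StarAlgebra.subset_adjoin ℂ _ (Set.mem_insert_of_mem _ hy)
      · exact StarAlgebra.subset_adjoin ℂ _ (Set.mem_insert _ _)
    obtain ⟨_, ⟨a, ha, rfl⟩, h⟩ := approx_of_bicomm hξ.1.summable S (x := x) (fun T hT =>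
      VonNeumannAlgebra.mem_commutant_iff.mp hx T (mem_vnCent.mpr fun g hg =>
        ⟨(hT g hg).symm, (hT _ (star_mem hg)).symm⟩)) (pow_pos hε 2)
    refine ⟨a, ha, lt_of_pow_lt_pow_left₀ 2 hε.le ?_⟩
    rw [hτ]; exact h

theorem main26 [TopologicalSpace.SeparableSpace H] (hPM : P ≤ M)
    (hP : ¬ FiniteDimensional ℂ P.toStarSubalgebra)
    (hPM' : ∀ x ∈ M, (∀ y ∈ P, x * y = y * x) → ∃ c : ℂ, x = c • (1 : H →L[ℂ] H))
    (hξ : IsFaithfulTracialVectorState M ξ) :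
    (∃ O : ℕ → Set (H →L[ℂ] H),
      (∀ k : ℕ, ∀ u ∈ M, u ∈ unitary (H →L[ℂ] H) → u ∈ O k → ∃ δ : ℝ, 0 < δ ∧
        ∀ v ∈ M, v ∈ unitary (H →L[ℂ] H) → traceNormSq ξ (v - u) < δ → v ∈ O k) ∧
      (∀ u ∈ M, u ∈ unitary (H →L[ℂ] H) →
        ((∀ N : VonNeumannAlgebra H, P ≤ N → u ∈ N → M ≤ N) ↔ ∀ k : ℕ, u ∈ O k))) ∧
    (∀ u ∈ M, u ∈ unitary (H →L[ℂ] H) → ∀ ε : ℝ, 0 < ε →
      ∃ v ∈ M, v ∈ unitary (H →L[ℂ] H) ∧ (∀ N : VonNeumannAlgebra H, P ≤ N → v ∈ N → M ≤ N) ∧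
        traceNormSq ξ (v - u) < ε) := by
  obtain ⟨τ, -, hτ⟩ := exists_vTr hξ
  have hS := setup_sub hPM hP hPM' hξ hτ
  have hsep := vTr_sep hξ hτ
  refine ⟨?_, fun u hu hu' ε hε => ?_⟩
  · obtain ⟨x, hx⟩ := hsep
    refine ⟨fun k => Subtype.val '' Near τ (sub P M) (x k.unpair.1) (1 / ((k.unpair.2 : ℝ) + 1)),
      ?_, fun u hu _ => ?_⟩
    · rintro k _ - - ⟨u, hu, rfl⟩
      obtain ⟨δ, hδ, h⟩ := near_open τ _ hu
      refine ⟨δ ^ 2, pow_pos hδ 2, fun v hv hv' hvu => ⟨⟨v, hv⟩, h _ (coe_mem_unitary.mpr hv') ?_,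
        rfl⟩⟩
      refine lt_of_pow_lt_pow_left₀ 2 hδ.le ?_
      rw [hτ]; exact hvu
    · rw [← gen_iff_generates hPM hξ hτ ⟨u, hu⟩, gen_iff τ _ hx]
      refine forall_congr' fun k => ⟨fun h => ⟨_, h, rfl⟩, ?_⟩
      rintro ⟨v, hv, rfl⟩
      exact hv
  · obtain ⟨v, hv, h, hg⟩ := gen_dense hS hsep (u₀ := ⟨u, hu⟩) (coe_mem_unitary.mpr hu')
      (Real.sqrt_pos.mpr hε)
    refine ⟨v, v.2, coe_mem_unitary.mp hv, (gen_iff_generates hPM hξ hτ v).mp hg, ?_⟩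
    have := hτ (v - ⟨u, hu⟩)
    rw [Real.lt_sqrt (τ.n_nonneg _), this] at h
    exact h

end Crest.Agent.R95
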