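import Crest.Agent.R95.Key

/-! # rid 95: the sets `Near x ε` are open and dense -/

set_option autoImplicit false

open Filter Topology

namespace Crest.Agent.R95

variable {A : Type*} [CStarAlgebra A] {τ : Tr A}

/-- `u` such that `alg P u` comes `ε`-close to `x` -/
def Near (τ : Tr A) (P : StarSubalgebra ℂ A) (x : A) (ε : ℝ) : Set A :=
  {u | ∃ a ∈ alg P u, τ.n (x - a) < ε}

/-- `alg P u` is `‖·‖₂`-dense -/
def Gen (τ : Tr A) (P : StarSubalgebra ℂ A) (u : A) : Prop := ∀ x, ∀ ε > 0, u ∈ Near τ P x ε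

theorem near_alg_cont_aux (τ : Tr A) (P : StarSubalgebra ℂ A) {u a : A} (ha : a ∈ alg P u) :
    ∃ C : ℝ, 0 ≤ C ∧ ∀ η > 0, ∃ δ > 0, ∀ v ∈ unitary A, τ.n (v - u) < δ →
      ∃ a' ∈ alg P v, ‖a'‖ ≤ C ∧ τ.n (a - a') < η := by
  induction ha using StarAlgebra.adjoin_induction with
  | mem x hx =>
    rcases hx with rfl | hx
    · refine ⟨1, zero_le_one, fun η hη => ⟨η, hη, fun v hv hvu => ⟨v, ?_, ?_, ?_⟩⟩⟩
      · exact StarAlgebra.subset_adjoin ℂ _ (Set.mem_insert _ _)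
      · exact norm_le_one_of_unitary hv
      · rwa [map_sub_rev]
    · refine ⟨‖x‖, norm_nonneg _, fun η hη => ⟨1, one_pos, fun v _ _ => ⟨x, ?_, le_rfl, ?_⟩⟩⟩
      · exact StarAlgebra.subset_adjoin ℂ _ (Set.mem_insert_of_mem _ hx)
      · simpa using hη
  | algebraMap r =>
    refine ⟨‖algebraMap ℂ A r‖, norm_nonneg _, fun η hη =>
      ⟨1, one_pos, fun v _ _ => ⟨algebraMap ℂ A r, ?_, le_rfl, ?_⟩⟩⟩
    · exact StarSubalgebra.algebraMap_mem _ r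
    · simpa using hη
  | add x y _ _ ihx ihy =>
    obtain ⟨C, hC0, hC⟩ := ihx
    obtain ⟨D, hD0, hD⟩ := ihy
    refine ⟨C + D, add_nonneg hC0 hD0, fun η hη => ?_⟩
    obtain ⟨δ₁, hδ₁, h₁⟩ := hC (η / 2) (half_pos hη)
    obtain ⟨δ₂, hδ₂, h₂⟩ := hD (η / 2) (half_pos hη)
    refine ⟨min δ₁ δ₂, lt_min hδ₁ hδ₂, fun v hv hvu => ?_⟩
    obtain ⟨a', ha', hn, hl⟩ := h₁ v hv (hvu.trans_le (min_le_left _ _))
    obtain ⟨b', hb', hn', hl'⟩ := h₂ v hv (hvu.trans_le (min_le_right _ _))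
    refine ⟨a' + b', add_mem ha' hb', (norm_add_le _ _).trans (add_le_add hn hn'), ?_⟩
    rw [add_sub_add_comm]
    linarith [map_add_le_add τ.n (x - a') (y - b')]
  | mul x y _ _ ihx ihy =>
    obtain ⟨C, hC0, hC⟩ := ihx
    obtain ⟨D, hD0, hD⟩ := ihy
    refine ⟨C * D, mul_nonneg hC0 hD0, fun η hη => ?_⟩
    have hy := norm_nonneg y
    obtain ⟨δ₁, hδ₁, h₁⟩ := hC (η / 2 / (‖y‖ + 1)) (by positivity)
    obtain ⟨δ₂, hδ₂, h₂⟩ := hD (η / 2 / (C + 1)) (by positivity)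
    refine ⟨min δ₁ δ₂, lt_min hδ₁ hδ₂, fun v hv hvu => ?_⟩
    obtain ⟨a', ha', hn, hl⟩ := h₁ v hv (hvu.trans_le (min_le_left _ _))
    obtain ⟨b', hb', hn', hl'⟩ := h₂ v hv (hvu.trans_le (min_le_right _ _))
    refine ⟨a' * b', mul_mem ha' hb',
      (norm_mul_le _ _).trans (mul_le_mul hn hn' (norm_nonneg _) hC0), ?_⟩
    have e : x * y - a' * b' = (x - a') * y + a' * (y - b') := by noncomm_ring
    rw [e]
    have h1 := τ.n_mul_le' (x - a') y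
    have h2 := τ.n_mul_le a' (y - b')
    have h3 := map_add_le_add τ.n ((x - a') * y) (a' * (y - b'))
    rw [lt_div_iff₀ (by positivity)] at hl hl'
    have h4 := τ.n_nonneg (x - a')
    have h5 := τ.n_nonneg (y - b')
    have h6 : ‖a'‖ * τ.n (y - b') ≤ C * τ.n (y - b') := mul_le_mul_of_nonneg_right hn h5
    nlinarith
  | star x _ ih =>
    obtain ⟨C, hC0, hC⟩ := ih
    refine ⟨C, hC0, fun η hη => ?_⟩
    obtain ⟨δ, hδ, h⟩ := hC η hη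
    refine ⟨δ, hδ, fun v hv hvu => ?_⟩
    obtain ⟨a', ha', hn, hl⟩ := h v hv hvu
    exact ⟨star a', star_mem ha', by rwa [norm_star], by rwa [← star_sub, τ.n_star]⟩

/-- Elements of `alg P u` depend continuously on `u`.  Proof. `StarAlgebra.adjoin_induction` for
the predicate `∃ C, ∀ η > 0, ∃ δ > 0, ∀ v ∈ unitary A, n (v - u) < δ →
∃ a' ∈ alg P v, ‖a'‖ ≤ C ∧ n (a - a') < η`; for products use
`a b - a' b' = (a - a') b + a' (b - b')`. -/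
theorem alg_cont (τ : Tr A) (P : StarSubalgebra ℂ A) {u a : A} (ha : a ∈ alg P u) {η : ℝ}
    (hη : 0 < η) :
    ∃ δ > 0, ∀ v ∈ unitary A, τ.n (v - u) < δ → ∃ a' ∈ alg P v, τ.n (a - a') < η := by
  obtain ⟨C, -, hC⟩ := near_alg_cont_aux τ P ha
  obtain ⟨δ, hδ, h⟩ := hC η hη
  exact ⟨δ, hδ, fun v hv hvu => let ⟨a', ha', _, h'⟩ := h v hv hvu; ⟨a', ha', h'⟩⟩

/-- Proof. `alg_cont` with `η = ε - n (x - a)`. -/
theorem near_open (τ : Tr A) (P : StarSubalgebra ℂ A) {x u : A} {ε : ℝ} (hu : u ∈ Near τ P x ε) :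
    ∃ δ > 0, ∀ v ∈ unitary A, τ.n (v - u) < δ → v ∈ Near τ P x ε := by
  obtain ⟨a, ha, hx⟩ := hu
  obtain ⟨δ, hδ, h⟩ := alg_cont τ P ha (sub_pos.mpr hx)
  refine ⟨δ, hδ, fun v hv hvu => ?_⟩
  obtain ⟨a', ha', hl⟩ := h v hv hvu
  exact ⟨a', ha', by linarith [τ.n_sub_le x a a']⟩

/-- one gradient step: moving `y` in the direction of a contraction `z⋆` correlating with it -/
theorem near_step (τ : Tr A) {y z : A} (hz : ‖z‖ ≤ 1) {c : ℝ} (hc : 0 ≤ c)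
    (hcz : c ≤ ‖τ (z * y)‖) : ∃ μ : ℂ, τ.n (y - μ • star z) ^ 2 ≤ τ.n y ^ 2 - c ^ 2 := by
  obtain ⟨μ, hμ, hμ'⟩ : ∃ μ : ℂ, ‖μ‖ = 1 ∧ μ * (starRingEnd ℂ) (τ (z * y)) = ‖τ (z * y)‖ := by
    by_cases h0 : τ (z * y) = 0
    · exact ⟨1, by simp, by simp [h0]⟩
    · have h1 : (‖τ (z * y)‖ : ℂ) ≠ 0 := by exact_mod_cast norm_ne_zero_iff.mpr h0
      refine ⟨τ (z * y) / ‖τ (z * y)‖, ?_, ?_⟩
      · rw [norm_div, Complex.norm_real, norm_norm, div_self (norm_ne_zero_iff.mpr h0)]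
      · rw [div_mul_eq_mul_div, Complex.mul_conj, Complex.normSq_eq_norm_sq, div_eq_iff h1]
        push_cast; ring
  refine ⟨(c : ℂ) * μ, ?_⟩
  rw [τ.n_sub_sq, mul_smul_comm, map_smul, ← star_mul, τ.map_star, smul_eq_mul, mul_assoc, hμ',
    ← Complex.ofReal_mul, Complex.ofReal_re, map_smul_eq_mul, norm_mul, hμ, mul_one,
    Complex.norm_real, Real.norm_of_nonneg hc, τ.n_star]
  have h1 : τ.n z ≤ 1 := (τ.n_le_norm z).trans hz
  have h2 := τ.n_nonneg z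
  have h3 : (c * τ.n z) ^ 2 ≤ c ^ 2 := by
    rw [mul_pow]; exact mul_le_of_le_one_right (sq_nonneg c) (by nlinarith)
  nlinarith

/-- **Density for self-adjoint contractions.** Proof. Suppose no unitary in the ball
`𝔹 = {u unitary | n (u - u₀) < δ}` is in `Near x ε`.  Let
`K = inf {n (x - a) | u ∈ 𝔹, a ∈ alg P u} ≥ ε`, `c = ε⁴/400`, and `η > 0` small
(`(K + η)² - c² < (K - 2η)²`, with `2η < K`; note `K ≤ n x ≤ 1`, e.g. `η = min (ε/4) (c²/8)`).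
Take `u₁ ∈ 𝔹`, `a ∈ alg P u₁` with `n (x - a) < K + η`; replacing `a` by `(a + a⋆)/2` and then by
its truncation `b` (`exists_trunc` with `Q` the `topologicalClosure` of `alg P u₁`) we have
`‖b‖ ≤ 1`, `n (x - b) < K + η`, and `b₁ ∈ alg P u₁` with `‖b - b₁‖ < η`.  Also `n (x - b) ≥ K ≥ ε`
(approximate `b` in norm).  `y = x - b` is self-adjoint, `‖y‖ ≤ 2`.  Take `δ'` from `alg_cont` for
`b₁`, `η`, and apply `key` to `y/2`, `u₁`, `min δ' (δ - n (u₁ - u₀))`: `u ∈ 𝔹`, `z ∈ alg P u`,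
`‖z‖ ≤ 1`, `|τ (z y)| ≥ 2 (ε/2)⁴/50 = c`.  With `|μ| = 1`, `μ τ (z y) = |τ (z y)|`, and
`r = (μ z + (μ z)⋆)/2` (self-adjoint contraction, `re τ (r y) = |τ (z y)| ≥ c`):
`n (y - c r)² ≤ n y² - c²`.  With `a' ∈ alg P u`, `n (b₁ - a') < η`:
`K ≤ n (x - (a' + c r)) ≤ n (y - c r) + 2η`, contradiction. -/
theorem near_dense_sa {P : StarSubalgebra ℂ A} (h : Setup τ P) {x : A} (hx : star x = x)
    (hx1 : ‖x‖ ≤ 1) {ε : ℝ} (hε : 0 < ε) {u₀ : A} (hu₀ : u₀ ∈ unitary A) {δ : ℝ} (hδ : 0 < δ) :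
    ∃ u ∈ unitary A, τ.n (u - u₀) < δ ∧ u ∈ Near τ P x ε := by
  by_contra hcon
  push Not at hcon
  set S : Set ℝ := {t | ∃ u ∈ unitary A, τ.n (u - u₀) < δ ∧ ∃ a ∈ alg P u, t = τ.n (x - a)}
    with hS
  have hSε : ∀ t ∈ S, ε ≤ t := by
    rintro t ⟨u, hu, hud, a, ha, rfl⟩
    by_contra hlt
    exact hcon u hu hud ⟨a, ha, not_le.mp hlt⟩
  have hmem : τ.n x ∈ S := ⟨u₀, hu₀, by simpa using hδ, 0, zero_mem _, by simp⟩
  have hbdd : BddBelow S := ⟨ε, hSε⟩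
  set K := sInf S with hK
  have hKε : ε ≤ K := le_csInf ⟨_, hmem⟩ hSε
  have hK1 : K ≤ 1 := (csInf_le hbdd hmem).trans ((τ.n_le_norm x).trans hx1)
  set c : ℝ := (ε / 4) ^ 4 / 25 with hc
  have hc0 : 0 < c := by positivity
  set η : ℝ := min (ε / 4) (c ^ 2 / 8) with hη
  have hη0 : 0 < η := lt_min (by positivity) (by positivity)
  have hη1 : η ≤ ε / 4 := min_le_left _ _
  have hη2 : η ≤ c ^ 2 / 8 := min_le_right _ _
  obtain ⟨_, ⟨u₁, hu₁, hu₁d, a, ha, rfl⟩, hlt⟩ := Real.lt_sInf_add_pos ⟨_, hmem⟩ hη0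
  -- symmetrise
  set a₁ : A := (2⁻¹ : ℂ) • (a + star a) with ha₁
  have ha₁m : a₁ ∈ alg P u₁ := SMulMemClass.smul_mem _ (add_mem ha (star_mem ha))
  have ha₁s : star a₁ = a₁ := by
    rw [ha₁, star_smul, star_add, star_star, add_comm]; simp
  have ha₁n : τ.n (x - a₁) ≤ τ.n (x - a) := by
    have e : x - a₁ = (2⁻¹ : ℂ) • ((x - a) + star (x - a)) := by
      rw [ha₁, star_sub, hx]; module
    rw [e, map_smul_eq_mul]
    have := map_add_le_add τ.n (x - a) (star (x - a))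
    rw [τ.n_star] at this
    have h2 : ‖(2⁻¹ : ℂ)‖ = 2⁻¹ := by simp
    rw [h2]; linarith
  -- truncate
  obtain ⟨b, hb, hbs, hb1, hbn⟩ := exists_trunc τ (Q := (alg P u₁).topologicalClosure)
    (StarSubalgebra.isClosed_topologicalClosure _) hx hx1
    (StarSubalgebra.le_topologicalClosure _ ha₁m) ha₁s
  obtain ⟨b₁, hb₁, hbb⟩ : ∃ b₁ ∈ alg P u₁, ‖b - b₁‖ < η := by
    have : b ∈ closure (alg P u₁ : Set A) := hb
    obtain ⟨b₁, hb₁, h⟩ := Metric.mem_closure_iff.mp this η hη0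
    exact ⟨b₁, hb₁, by rwa [← dist_eq_norm]⟩
  have hbb' : τ.n (b - b₁) < η := (τ.n_le_norm _).trans_lt hbb
  set y := x - b with hy
  have hyK : τ.n y < K + η := by linarith
  have hyε : ε / 2 ≤ τ.n y := by
    have h1 := hSε _ ⟨u₁, hu₁, hu₁d, b₁, hb₁, rfl⟩
    have h2 := τ.n_sub_le x b b₁
    linarith
  obtain ⟨δ', hδ', hcont⟩ := alg_cont τ P hb₁ hη0
  have hy2 : ‖(2⁻¹ : ℂ)‖ = 2⁻¹ := by simp
  obtain ⟨u, hu, hud, z, hz, hz1, hzy⟩ := key h hu₁ (y := (2⁻¹ : ℂ) • y)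
    (by rw [star_smul, hy, star_sub, hx, hbs]; simp)
    (by rw [norm_smul, hy2]; linarith [norm_sub_le x b])
    (lt_min hδ' (sub_pos.mpr hu₁d))
  rw [map_smul_eq_mul, mul_smul_comm, map_smul, norm_smul, hy2] at hzy
  have hcz : c ≤ ‖τ (z * y)‖ := by
    have : (ε / 4) ^ 4 ≤ (2⁻¹ * τ.n y) ^ 4 := pow_le_pow_left₀ (by positivity) (by linarith) 4
    rw [hc]; linarith
  obtain ⟨μ, hμ⟩ := near_step τ hz1 hc0.le hcz
  obtain ⟨a', ha', hba⟩ := hcont u hu (hud.trans_le (min_le_left _ _))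
  have huδ : τ.n (u - u₀) < δ := by
    have := hud.trans_le (min_le_right _ _)
    linarith [τ.n_sub_le u u₁ u₀]
  have hle : K ≤ τ.n (x - (a' + μ • star z)) :=
    csInf_le hbdd ⟨u, hu, huδ, _, add_mem ha' (SMulMemClass.smul_mem _ (star_mem hz)), rfl⟩
  have e : x - (a' + μ • star z) = (y - μ • star z) + ((b - b₁) + (b₁ - a')) := by
    rw [hy]; abel
  have h1 := map_add_le_add τ.n (y - μ • star z) ((b - b₁) + (b₁ - a'))
  have h2 := map_add_le_add τ.n (b - b₁) (b₁ - a')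
  rw [e] at hle
  have h3 : K - 2 * η ≤ τ.n (y - μ • star z) := by linarith
  have h4 : (K - 2 * η) ^ 2 ≤ τ.n (y - μ • star z) ^ 2 := pow_le_pow_left₀ (by linarith) h3 2
  have h5 : τ.n y ^ 2 ≤ (K + η) ^ 2 := pow_le_pow_left₀ (τ.n_nonneg _) hyK.le 2
  have h6 : K * η ≤ η := mul_le_of_le_one_left hη0.le hK1
  nlinarith [sq_nonneg η, sq_pos_of_pos hc0]

end Crest.Agent.R95
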