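import Crest.Agent.R95.LQ

/-! # rid 95: Popa's incremental patching: almost free symmetries in an irreducible subfactor -/

set_option autoImplicit false

open Filter Topology

namespace Crest.Agent.R95

variable {A : Type*} [CStarAlgebra A] {τ : Tr A}

/-- `alt x v [i₁, …, iₘ] = v x_{i₁} v x_{i₂} ⋯ v x_{iₘ}` -/
def alt {ι : Type*} (x : ι → A) (v : A) (L : List ι) : A := (L.map fun i => v * x i).prod

@[simp] theorem alt_nil {ι : Type*} (x : ι → A) (v : A) : alt x v [] = 1 := rfl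

@[simp] theorem alt_cons {ι : Type*} (x : ι → A) (v : A) (i : ι) (L : List ι) :
    alt x v (i :: L) = v * x i * alt x v L := by simp [alt]

theorem alt_append {ι : Type*} (x : ι → A) (v : A) (L L' : List ι) :
    alt x v (L ++ L') = alt x v L * alt x v L' := by simp [alt]

/-- Words are `‖·‖₂`-Lipschitz on contractions. -/
theorem n_alt_sub_le (τ : Tr A) {ι : Type*} {x : ι → A} (hx : ∀ i, ‖x i‖ ≤ 1) {v v' : A}
    (hv : ‖v‖ ≤ 1) (hv' : ‖v'‖ ≤ 1) (L : List ι) :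
    ‖alt x v L‖ ≤ 1 ∧ τ.n (alt x v L - alt x v' L) ≤ L.length * τ.n (v - v') := by
  induction L with
  | nil => simpa using norm_le_one_of_unitary (one_mem (unitary A))
  | cons i L ih =>
    have h1 : ‖v * x i‖ ≤ 1 := (norm_mul_le _ _).trans (mul_le_one₀ hv (norm_nonneg _) (hx i))
    have h2 : ‖x i * alt x v' L‖ ≤ 1 := by
      have : ‖alt x v' L‖ ≤ 1 := by
        clear ih
        induction L with
        | nil => simpa using norm_le_one_of_unitary (one_mem (unitary A))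
        | cons j L ih =>
          rw [alt_cons]
          exact (norm_mul_le _ _).trans (mul_le_one₀ ((norm_mul_le _ _).trans
            (mul_le_one₀ hv' (norm_nonneg _) (hx j))) (norm_nonneg _) ih)
      exact (norm_mul_le _ _).trans (mul_le_one₀ (hx i) (norm_nonneg _) this)
    refine ⟨?_, ?_⟩
    · rw [alt_cons]; exact (norm_mul_le _ _).trans (mul_le_one₀ h1 (norm_nonneg _) ih.1)
    · have e : alt x v (i :: L) - alt x v' (i :: L) =
          v * x i * (alt x v L - alt x v' L) + (v - v') * (x i * alt x v' L) := by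
        simp only [alt_cons]; noncomm_ring
      rw [e, List.length_cons, Nat.cast_succ, add_mul, one_mul]
      exact (map_add_le_add _ _ _).trans (add_le_add ((τ.n_mul_le_of_le_one h1 _).trans ih.2)
        (τ.n_mul_le_of_le_one' _ h2))

/-- The invariant of the patching argument, for the partial symmetry `v` with support `e = v v`
and `p = 1 - e`. -/
structure PInv (τ : Tr A) (P : StarSubalgebra ℂ A) {ι : Type*} (x : ι → A) (k : ℕ) (α : ℝ)
    (δ : ℕ → ℝ) (v : A) : Prop where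
  mem : v ∈ P
  psym : IsPSym v
  tr : τ v = 0
  big : α ≤ (τ (1 - v * v)).re
  left : ∀ i L, L.length < k → ‖τ ((1 - v * v) * (x i * alt x v L))‖ ≤
    δ L.length * (τ (v * v)).re * (τ (1 - v * v)).re
  right : ∀ i L, L.length < k → ‖τ (v * (x i * alt x v L))‖ ≤ δ L.length * (τ (v * v)).re

/-- telescoping along a word -/
theorem patch_tele {ι : Type*} (x : ι → A) (v w : A) (φ : A → ℂ)
    (hφ : ∀ a b, φ (a + b) = φ a + φ b) (m : ℕ) {b : ℝ}
    (H : ∀ L₁ j L', L₁.length + L'.length < m →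
      ‖φ (alt x v L₁ * (w * x j * alt x (v + w) L'))‖ ≤ b) (L : List ι) :
    ∀ L₁ : List ι, L₁.length + L.length ≤ m →
      ‖φ (alt x v L₁ * alt x (v + w) L) - φ (alt x v L₁ * alt x v L)‖ ≤ L.length * b := by
  induction L with
  | nil => simp
  | cons j L' ih =>
    intro L₁ hL
    rw [List.length_cons] at hL
    have h1 := ih (L₁ ++ [j]) (by rw [List.length_append, List.length_singleton]; omega)
    have h2 := H L₁ j L' (by omega)
    have e1 : alt x v L₁ * alt x (v + w) (j :: L') =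
        alt x v (L₁ ++ [j]) * alt x (v + w) L' + alt x v L₁ * (w * x j * alt x (v + w) L') := by
      simp only [alt_append, alt_cons, alt_nil]; noncomm_ring
    have e2 : alt x v L₁ * alt x v (j :: L') = alt x v (L₁ ++ [j]) * alt x v L' := by
      simp only [alt_append, alt_cons, alt_nil]; noncomm_ring
    rw [e1, e2, hφ, add_sub_right_comm, List.length_cons, Nat.cast_succ, add_mul, one_mul]
    exact (norm_add_le _ _).trans (add_le_add h1 h2)

theorem patch_tele' {ι : Type*} (x : ι → A) (v w : A) (φ : A → ℂ)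
    (hφ : ∀ a b, φ (a + b) = φ a + φ b) (m : ℕ) {b : ℝ} (hb : 0 ≤ b)
    (H : ∀ L₁ j L', L₁.length + L'.length < m →
      ‖φ (alt x v L₁ * (w * x j * alt x (v + w) L'))‖ ≤ b) (L : List ι) (hL : L.length ≤ m) :
    ‖φ (alt x (v + w) L) - φ (alt x v L)‖ ≤ m * b := by
  have := patch_tele x v w φ hφ m H L [] (by simpa using hL)
  simp only [alt_nil, one_mul] at this
  exact this.trans (mul_le_mul_of_nonneg_right (by exact_mod_cast hL) hb)

theorem patch_norm_mul {a b : A} (ha : ‖a‖ ≤ 1) (hb : ‖b‖ ≤ 1) : ‖a * b‖ ≤ 1 :=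
  (norm_mul_le _ _).trans (mul_le_one₀ ha (norm_nonneg _) hb)

/-- the basic estimate: (E1), (E3) -/
theorem patch_E1 {q c X : A} (hq : IsStarProjection q) (hqc : q * c = c) (hcq : c * q = c)
    (hc : τ.n c ≤ τ.n q) {l : ℂ} {η : ℝ} (hX : τ.n (q * X * q - l • q) ≤ η * τ.n q) :
    ‖τ (c * X) - l * τ c‖ ≤ η * (τ q).re := by
  have e : τ (c * X) - l * τ c = τ (c * (q * X * q - l • q)) := by
    rw [mul_sub, map_sub, mul_smul_comm, map_smul, hcq, smul_eq_mul, ← mul_assoc, ← mul_assoc,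
      hcq, τ.comm3, hqc]
  rw [e, ← τ.n_proj_sq hq]
  calc _ ≤ τ.n c * τ.n (q * X * q - l • q) := τ.norm_mul_le _ _
    _ ≤ τ.n q * (η * τ.n q) := mul_le_mul hc hX (τ.n_nonneg _) (τ.n_nonneg _)
    _ = _ := by ring

/-- (E2) -/
theorem patch_E2 {q w c X Y : A} (hq : IsStarProjection q) (hqw : q * w = w) (hw : ‖w‖ ≤ 1)
    (hcq : c * q = c) (hc : ‖c‖ ≤ 1) (hY : ‖Y‖ ≤ 1) {l : ℂ} {η : ℝ}
    (hX : τ.n (q * X * q - l • q) ≤ η * τ.n q) :
    ‖τ (c * X * w * Y)‖ ≤ (‖l‖ + η) * (τ q).re := by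
  have hn : ‖w * Y * c‖ ≤ 1 := patch_norm_mul (patch_norm_mul hw hY) hc
  have hq1 : q * (w * Y * c) = w * Y * c := by rw [← mul_assoc, ← mul_assoc, hqw]
  have h1 := patch_E1 (τ := τ) (c := w * Y * c) hq hq1 (by rw [mul_assoc, hcq])
    (by rw [← hq1]; exact τ.n_mul_le_of_le_one' _ hn) hX
  have h2 : ‖τ (w * Y * c)‖ ≤ (τ q).re := by
    rw [← hq1]
    exact (τ.norm_proj_mul_le hq _).trans (mul_le_of_le_one_left (τ.proj_nonneg hq) hn)
  have e : τ (c * X * w * Y) = (τ (w * Y * c * X) - l * τ (w * Y * c)) + l * τ (w * Y * c) := by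
    rw [sub_add_cancel, mul_assoc (c * X), τ.comm, ← mul_assoc]
  rw [e]
  refine (norm_add_le _ _).trans ?_
  rw [norm_mul, add_mul, add_comm]
  exact add_le_add (mul_le_mul_of_nonneg_left h2 (norm_nonneg _)) h1

/-- the numerical estimate for the total error -/
theorem patch_err {k m : ℕ} (hm : m < k) {α δ₀ δ : ℝ} (hα : 0 < α) (hδ : 0 < δ₀)
    (hδ' : δ₀ ≤ δ) :
    (m * (α * δ₀ / (2 * ((k : ℝ) + 1) ^ 2) +
        m * (δ / (2 * ((k : ℝ) + 1) ^ 2 / α) + α * δ₀ / (2 * ((k : ℝ) + 1) ^ 2))) +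
      m * (δ / (2 * ((k : ℝ) + 1) ^ 2 / α) + α * δ₀ / (2 * ((k : ℝ) + 1) ^ 2)) +
      α * δ₀ / (2 * ((k : ℝ) + 1) ^ 2)) ≤ α * δ := by
  set K : ℝ := ((k : ℝ) + 1) ^ 2 with hK
  have hmk : (m : ℝ) ≤ k := by exact_mod_cast hm.le
  have hm0 : (0 : ℝ) ≤ m := Nat.cast_nonneg _
  have hK0 : 0 < K := by positivity
  have h1 : ((m : ℝ) + 1) ^ 2 ≤ K := by rw [hK]; gcongr
  have e1 : δ / (2 * K / α) = α * δ / (2 * K) := by field_simp
  rw [e1]
  have h2 : α * δ₀ / (2 * K) ≤ α * δ / (2 * K) := by gcongr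
  have h3 : 0 ≤ α * δ₀ / (2 * K) := by positivity
  have e2 : α * δ = 2 * K * (α * δ / (2 * K)) := by field_simp
  set η := α * δ₀ / (2 * K)
  set ζ := α * δ / (2 * K)
  have h4 : ((m : ℝ) + 1) ^ 2 * η ≤ K * ζ := mul_le_mul h1 h2 h3 hK0.le
  have h5 : ((m : ℝ) * (m + 1)) * ζ ≤ K * ζ :=
    mul_le_mul_of_nonneg_right (by nlinarith) (h3.trans h2)
  nlinarith

/-- **Patching step.**  Here `δ m = δ₀ D^m`, `K = (k+1)²`, `D = 2K/α ≥ 1`, `η = α δ₀/(2K)`.
Proof. Let `e = v v`, `p = 1 - e ≠ 0`, `𝒲 = {x i * alt x v L | L.length < k}` (finite,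
`List.finite_length_lt`), `𝒳 = 𝒲 ∪ {X c X' | X, X' ∈ 𝒲, c ∈ {p, v}}`.  `local_quant` gives
`0 ≠ q ≤ p` in `P` with `t := re τ q ≤ re τ p - α` and `n (q X q - λ(X) q) ≤ η n q` on `𝒳`,
`λ(X) = τ (p X)/τ p`; `exact_trace` gives `q₁ ≤ q` of half trace; `w = 2 q₁ - q`: `w⋆ = w`,
`w w = q`, `τ w = 0`, `v w = 0` (as `v p = 0`).  `v' = v + w`, `v' v' = e + q`.  All words are
contractions.
(E1) `X ∈ 𝒳 ⇒ |τ (w X)| ≤ η t` (`τ (w X) = τ (w (q X q - λ q))`, Cauchy–Schwarz, `n w = n q`).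
(E2) `X ∈ 𝒳`, `c ∈ {w, q}`, `‖Y‖ ≤ 1 ⇒ |τ (c X w Y)| ≤ (|λ X| + η) t`
(`τ (c X w Y) = τ ((w Y c) (q X q))`, `|τ (w Y c q)| ≤ t` by `norm_proj_mul_le`,
`n (w Y c) ≤ n q`).
For `X = x i * alt x v L₁ ∈ 𝒲`, `|λ X| ≤ δ |L₁|` by `left` (and `re τ e ≤ 1`); so if
`|L₁| < m` then `|λ X| + η ≤ β m := δ m / D + η`.
(A) For `c ∈ {w, q}`, `‖Y‖ ≤ 1`, `|L₁| + |L| ≤ m < k`:
`|τ (c (x i alt v L₁) alt v' L Y) - τ (c (x i alt v L₁) alt v L Y)| ≤ |L| β m t`, by induction on
`L` generalizing `L₁` (`alt v' (j :: L') = v x j alt v' L' + w x j alt v' L'`; the first term is the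
case `L₁ ++ [j]`, the second is (E2)).
(B) For `c₀ ∈ {p, v}`, `|L₁| + |L| ≤ m < k`:
`|τ (c₀ (x i alt v L₁) alt v' L) - τ (c₀ (x i alt v L₁) alt v L)| ≤ |L| (η + m β m) t`, same
induction: the second term is `τ (w (x j) alt v' L' (c₀ x i alt v L₁))`, which by (A) is within
`|L'| β m t` of the same with `v`, and that is `≤ η t` by (E1).
With `m = |L|`, `W = x i alt v L`, `W' = x i alt v' L`, the total error
`err = (m (η + m β m) + η + m β m) t ≤ α δ m t`.
`left`: `τ ((p - q) W') = τ (p W') - τ (q W')`, `τ (p W') ≈ τ (p W)` (B), `τ (q W') ≈ τ (q W)` (A),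
`|τ (q W) - λ(W) τ q| ≤ η t`, and `τ (p W) - λ(W) τ q = τ (p W) τ(p - q)/τ p` has norm
`≤ δ m τ(e) τ(p - q)`; `err ≤ δ m t τ(p - q)` as `α ≤ re τ (p - q)`.
`right`: `τ (v W') ≈ τ (v W)` (B), `τ (w W') ≈ τ (w W)` (A), (E1); `err ≤ δ m t` as `α ≤ 1`. -/
theorem patch_step {P : StarSubalgebra ℂ A} (h : Setup τ P) {ι : Type*} [Finite ι] {x : ι → A}
    (hx : ∀ i, ‖x i‖ ≤ 1) {k : ℕ} {α δ₀ : ℝ} (hα : 0 < α) (hα1 : α ≤ 1) (hδ : 0 < δ₀) {v : A}
    (hv : PInv τ P x k α (fun m => δ₀ * (2 * ((k : ℝ) + 1) ^ 2 / α) ^ m) v)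
    (hlt : α < (τ (1 - v * v)).re) :
    ∃ w, w ≠ 0 ∧ v * w = 0 ∧
      PInv τ P x k α (fun m => δ₀ * (2 * ((k : ℝ) + 1) ^ 2 / α) ^ m) (v + w) := by
  classical
  set D : ℝ := 2 * ((k : ℝ) + 1) ^ 2 / α with hD
  set η : ℝ := α * δ₀ / (2 * ((k : ℝ) + 1) ^ 2) with hη
  have hη0 : 0 < η := by positivity
  have hD1 : 1 ≤ D := by
    rw [hD, le_div_iff₀ hα]
    nlinarith [(Nat.cast_nonneg k : (0 : ℝ) ≤ k)]
  have hv1 : ‖v‖ ≤ 1 := hv.psym.norm_le
  have he : IsStarProjection (v * v) := hv.psym.proj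
  have hp : IsStarProjection (1 - v * v) := he.one_sub
  set p : A := 1 - v * v with hpdef
  have hpP : p ∈ P := P.sub_mem P.one_mem (P.mul_mem hv.mem hv.mem)
  have ha0 : 0 < (τ p).re := hα.trans hlt
  have hp0 : p ≠ 0 := by
    intro h0
    rw [h0, map_zero, Complex.zero_re] at ha0
    exact lt_irrefl _ ha0
  have hvp : v * p = 0 := by rw [hpdef, mul_sub, mul_one, ← mul_assoc, hv.psym.2, sub_self]
  -- the finite set of words
  let 𝒲 : Set A := (fun z : ι × List ι => x z.1 * alt x v z.2) ''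
    (Set.univ ×ˢ {L : List ι | L.length < k})
  have h𝒲 : 𝒲.Finite := (Set.finite_univ.prod (List.finite_length_lt ι k)).image _
  have hmem𝒲 : ∀ i L, L.length < k → x i * alt x v L ∈ 𝒲 := fun i L hL =>
    ⟨(i, L), ⟨trivial, hL⟩, rfl⟩
  obtain ⟨q, hqP, hq, hpq, hq0, ht, hQ⟩ := local_quant h hp hpP hp0
    ((h𝒲.union (h𝒲.image2 (fun X X' => X * p * X') h𝒲)).union
      (h𝒲.image2 (fun X X' => X * v * X') h𝒲)) hη0 (sub_pos.2 hlt)
  have ht0 : 0 ≤ (τ q).re := τ.proj_nonneg hq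
  obtain ⟨q₁, hq₁P, hq₁, hqq₁, hq₁t⟩ := exact_trace h hq hqP (t := (τ q).re / 2)
    (by linarith) (by linarith)
  have hq₁q : q₁ * q = q₁ := proj_mul_comm hq hq₁ hqq₁
  obtain ⟨w, hwP, hws, hww, hqw, hτw⟩ : ∃ w ∈ P, star w = w ∧ w * w = q ∧ q * w = w ∧ τ w = 0 := by
    refine ⟨(2 : ℂ) • q₁ - q, P.sub_mem (P.smul_mem hq₁P _) hqP, ?_, ?_, ?_, ?_⟩
    · rw [star_sub, star_smul, hq₁.isSelfAdjoint.star_eq, hq.isSelfAdjoint.star_eq]; simp
    · rw [sub_mul, mul_sub, mul_sub, smul_mul_smul_comm, hq₁.isIdempotentElem.eq,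
        hq.isIdempotentElem.eq, smul_mul_assoc, mul_smul_comm, hqq₁, hq₁q]
      module
    · rw [mul_sub, mul_smul_comm, hqq₁, hq.isIdempotentElem.eq]
    · rw [map_sub, map_smul, τ.proj_eq_re hq₁, hq₁t, τ.proj_eq_re hq, Complex.ofReal_re]
      simp only [smul_eq_mul]
      push_cast
      ring
  have hwq : w * q = w := by
    have := congrArg star hqw
    rwa [star_mul, hws, hq.isSelfAdjoint.star_eq] at this
  have hw : IsPSym w := ⟨hws, by rw [hww, hqw]⟩
  have hw1 : ‖w‖ ≤ 1 := hw.norm_le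
  have hvw : v * w = 0 := by rw [← hqw, ← hpq, ← mul_assoc, ← mul_assoc, hvp, zero_mul, zero_mul]
  have hwv : w * v = 0 := by
    have := congrArg star hvw
    rwa [star_mul, hws, hv.psym.1, star_zero] at this
  have hv' : IsPSym (v + w) := hv.psym.add hw hvw
  have hv'1 : ‖v + w‖ ≤ 1 := hv'.norm_le
  have hsq : (v + w) * (v + w) = v * v + q := by
    rw [add_mul, mul_add, mul_add, hvw, hwv, hww, add_zero, zero_add]
  have hsq' : 1 - (v + w) * (v + w) = p - q := by rw [hsq, hpdef, sub_sub]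
  have hnw : τ.n w ≤ τ.n q := by
    rw [← hqw]; exact τ.n_mul_le_of_le_one' _ hw1
  have halt : ∀ L, ‖alt x v L‖ ≤ 1 := fun L => (n_alt_sub_le τ hx hv1 hv1 L).1
  have halt' : ∀ L, ‖alt x (v + w) L‖ ≤ 1 := fun L => (n_alt_sub_le τ hx hv'1 hv'1 L).1
  have he0 : 0 ≤ (τ (v * v)).re := τ.proj_nonneg he
  have he1 : (τ (v * v)).re ≤ 1 := τ.proj_le_one he
  have hτp : τ p ≠ 0 := by
    intro h0
    rw [h0, Complex.zero_re] at ha0
    exact lt_irrefl _ ha0
  -- the bound on `λ`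
  have hlam : ∀ i L, L.length < k →
      ‖τ (p * (x i * alt x v L)) / τ p‖ ≤ δ₀ * D ^ L.length * (τ (v * v)).re := by
    intro i L hL
    rw [norm_div, τ.norm_proj hp, div_le_iff₀ ha0]
    exact hv.left i L hL
  have hlam' : ∀ m, m < k → ∀ i L, L.length < m →
      ‖τ (p * (x i * alt x v L)) / τ p‖ ≤ δ₀ * D ^ m / D := by
    intro m hm i L hL
    refine (hlam i L (hL.trans hm)).trans ((mul_le_of_le_one_right (by positivity) he1).trans ?_)
    rw [le_div_iff₀ (by positivity), mul_assoc, ← pow_succ]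
    exact mul_le_mul_of_nonneg_left (pow_le_pow_right₀ hD1 hL) hδ.le
  -- (A)
  have hA : ∀ m, m < k → ∀ c, c * q = c → ‖c‖ ≤ 1 → ∀ Y, ‖Y‖ ≤ 1 → ∀ i L, L.length ≤ m →
      ‖τ (c * (x i * alt x (v + w) L) * Y) - τ (c * (x i * alt x v L) * Y)‖ ≤
        m * ((δ₀ * D ^ m / D + η) * (τ q).re) := by
    intro m hm c hcq hc Y hY i L hL
    refine patch_tele' x v w (fun Z => τ (c * (x i * Z) * Y))
      (fun a b => by rw [mul_add, mul_add, add_mul, map_add]) m (by positivity) ?_ L hL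
    intro L₁ j L' hlen
    have h1 := patch_E2 (τ := τ) (X := x i * alt x v L₁) (Y := x j * alt x (v + w) L' * Y) hq hqw
      hw1 hcq hc (patch_norm_mul (patch_norm_mul (hx j) (halt' L')) hY)
      (hQ _ (Or.inl (Or.inl (hmem𝒲 i L₁ (by omega)))))
    have e : c * (x i * (alt x v L₁ * (w * x j * alt x (v + w) L'))) * Y =
        c * (x i * alt x v L₁) * w * (x j * alt x (v + w) L' * Y) := by noncomm_ring
    rw [e]
    refine h1.trans (mul_le_mul_of_nonneg_right ?_ ht0)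
    have := hlam' m hm i L₁ (by omega)
    linarith
  -- (E1)
  have hE1 : ∀ X (l : ℂ), τ.n (q * X * q - l • q) ≤ η * τ.n q → ‖τ (w * X)‖ ≤ η * (τ q).re := by
    intro X l hX
    have := patch_E1 hq hqw hwq hnw hX
    rwa [hτw, mul_zero, sub_zero] at this
  -- (B)
  have hB : ∀ m, m < k → ∀ c, (c = p ∨ c = v) → ∀ i L, L.length ≤ m →
      ‖τ (c * (x i * alt x (v + w) L)) - τ (c * (x i * alt x v L))‖ ≤
        m * ((η + m * (δ₀ * D ^ m / D + η)) * (τ q).re) := by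
    intro m hm c hc i L hL
    have hc1 : ‖c‖ ≤ 1 := by
      rcases hc with rfl | rfl
      exacts [hp.norm_le, hv1]
    refine patch_tele' x v w (fun Z => τ (c * (x i * Z)))
      (fun a b => by rw [mul_add, mul_add, map_add]) m (by positivity) ?_ L hL
    intro L₁ j L' hlen
    have h1 := hA m hm w hwq hw1 (c * (x i * alt x v L₁))
      (patch_norm_mul hc1 (patch_norm_mul (hx i) (halt L₁))) j L' (by omega)
    have h2 : ‖τ (w * (x j * alt x v L' * c * (x i * alt x v L₁)))‖ ≤ η * (τ q).re := by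
      refine hE1 _ _ (hQ _ ?_)
      rcases hc with rfl | rfl
      · exact Or.inl (Or.inr ⟨_, hmem𝒲 j L' (by omega), _, hmem𝒲 i L₁ (by omega), rfl⟩)
      · exact Or.inr ⟨_, hmem𝒲 j L' (by omega), _, hmem𝒲 i L₁ (by omega), rfl⟩
    have e1 : c * (x i * (alt x v L₁ * (w * x j * alt x (v + w) L'))) =
        (c * (x i * alt x v L₁)) * (w * (x j * alt x (v + w) L')) := by noncomm_ring
    have e2 : w * (x j * alt x v L' * c * (x i * alt x v L₁)) =
        w * (x j * alt x v L') * (c * (x i * alt x v L₁)) := by noncomm_ring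
    rw [e2] at h2
    rw [e1, τ.comm]
    have h3 := norm_le_norm_add_norm_sub' (τ (w * (x j * alt x (v + w) L') *
      (c * (x i * alt x v L₁)))) (τ (w * (x j * alt x v L') * (c * (x i * alt x v L₁))))
    linarith
  have herr : ∀ m, m < k → m * ((η + m * (δ₀ * D ^ m / D + η)) * (τ q).re) +
      m * ((δ₀ * D ^ m / D + η) * (τ q).re) + η * (τ q).re ≤ α * (δ₀ * D ^ m) * (τ q).re := by
    intro m hm
    have := mul_le_mul_of_nonneg_right (patch_err hm hα hδ (δ := δ₀ * D ^ m)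
      (le_mul_of_one_le_right hδ.le (one_le_pow₀ hD1))) ht0
    rw [← hD, ← hη] at this
    linarith
  have h1 : ‖(1 : A)‖ ≤ 1 := norm_le_one_of_unitary (one_mem (unitary A))
  refine ⟨w, fun h0 => hq0 (by rw [← hww, h0, mul_zero]), hvw, P.add_mem hv.mem hwP, hv', ?_,
    ?_, fun i L hL => ?_, fun i L hL => ?_⟩
  · rw [map_add, hv.tr, hτw, add_zero]
  · rw [hsq', map_sub, Complex.sub_re]; linarith
  · have a1 := hB _ hL p (Or.inl rfl) i L le_rfl
    have a2 := hA _ hL q hq.isIdempotentElem.eq hq.norm_le 1 h1 i L le_rfl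
    rw [mul_one, mul_one] at a2
    have a3 := patch_E1 hq hq.isIdempotentElem.eq hq.isIdempotentElem.eq le_rfl
      (hQ _ (Or.inl (Or.inl (hmem𝒲 i L hL))))
    have a4 := hlam i L hL
    have a5 := herr _ hL
    set l := τ (p * (x i * alt x v L)) / τ p with hl
    have e : τ ((p - q) * (x i * alt x (v + w) L)) =
        (τ (p * (x i * alt x (v + w) L)) - τ (p * (x i * alt x v L))) -
        (τ (q * (x i * alt x (v + w) L)) - τ (q * (x i * alt x v L))) -
        (τ (q * (x i * alt x v L)) - l * τ q) + l * τ (p - q) := by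
      rw [sub_mul, map_sub, map_sub, mul_sub, hl, div_mul_cancel₀ _ hτp]; ring
    have hpq' : IsStarProjection (p - q) := proj_sub hp hq hpq
    have a6 : α ≤ (τ (p - q)).re := by rw [map_sub, Complex.sub_re]; linarith
    have a7 : ‖l * τ (p - q)‖ ≤ δ₀ * D ^ L.length * (τ (v * v)).re * (τ (p - q)).re := by
      rw [norm_mul, τ.norm_proj hpq']
      exact mul_le_mul_of_nonneg_right a4 (τ.proj_nonneg hpq')
    have a8 : α * (δ₀ * D ^ L.length) * (τ q).re ≤
        (τ (p - q)).re * (δ₀ * D ^ L.length) * (τ q).re := by gcongr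
    rw [hsq', hsq, e, map_add, Complex.add_re]
    refine (norm_add_le _ _).trans ((add_le_add_left ((norm_sub_le _ _).trans
      (add_le_add_left (norm_sub_le _ _) _)) _).trans ?_)
    linarith
  · have a1 := hB _ hL v (Or.inr rfl) i L le_rfl
    have a2 := hA _ hL w hwq hw1 1 h1 i L le_rfl
    rw [mul_one, mul_one] at a2
    have a3 := hE1 _ _ (hQ _ (Or.inl (Or.inl (hmem𝒲 i L hL))))
    have a4 := hv.right i L hL
    have a5 := herr _ hL
    have e : τ ((v + w) * (x i * alt x (v + w) L)) =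
        (τ (v * (x i * alt x (v + w) L)) - τ (v * (x i * alt x v L))) +
        (τ (w * (x i * alt x (v + w) L)) - τ (w * (x i * alt x v L))) +
        τ (w * (x i * alt x v L)) + τ (v * (x i * alt x v L)) := by
      rw [add_mul, map_add]; ring
    have a8 : α * (δ₀ * D ^ L.length) * (τ q).re ≤ 1 * (δ₀ * D ^ L.length) * (τ q).re := by
      gcongr
    rw [hsq, e, map_add, Complex.add_re]
    refine (norm_add_le _ _).trans ((add_le_add_left ((norm_add_le _ _).trans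
      (add_le_add_left (norm_add_le _ _) _)) _).trans ?_)
    linarith

end Crest.Agent.R95
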