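import Crest.Agent.R95.Patch

/-! # rid 95: Popa's theorem on almost free symmetries in an irreducible subfactor -/

set_option autoImplicit false

open Filter Topology

namespace Crest.Agent.R95

variable {A : Type*} [CStarAlgebra A] {τ : Tr A}

theorem popa_lim_alt {ι : Type*} {x : ι → A} (hx : ∀ i, ‖x i‖ ≤ 1) {v : ℕ → A} {w : A}
    (hv : ∀ k, ‖v k‖ ≤ 1) (hw : ‖w‖ ≤ 1) (hl : τ.Lim v w) (L : List ι) :
    τ.Lim (fun k => alt x (v k) L) (alt x w L) :=
  Tr.Lim.of_le (fun k => (n_alt_sub_le τ hx (hv k) hw L).2)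
    (by simpa using Tendsto.const_mul (L.length : ℝ) hl)

theorem popa_zero {P : StarSubalgebra ℂ A} {ι : Type*} {x : ι → A} (hx0 : ∀ i, τ (x i) = 0)
    (k : ℕ) {α : ℝ} (hα1 : α ≤ 1) (δ : ℕ → ℝ) : PInv τ P x k α δ 0 where
  mem := zero_mem _
  psym := ⟨star_zero _, by simp⟩
  tr := map_zero _
  big := by simpa using hα1
  left i L _ := by cases L <;> simp [hx0]
  right i L _ := by simp

theorem popa_closed {P : StarSubalgebra ℂ A} (h : Setup τ P) {ι : Type*} {x : ι → A}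
    (hx : ∀ i, ‖x i‖ ≤ 1) {k : ℕ} {α : ℝ} {δ : ℕ → ℝ} {v : ℕ → A} {w : A}
    (hv : ∀ j, PInv τ P x k α δ (v j)) (hl : τ.Lim v w) (hw : IsPSym w) :
    PInv τ P x k α δ w := by
  have hn : ∀ j, ‖v j‖ ≤ 1 := fun j => (hv j).psym.norm_le
  have he : τ.Lim (fun j => v j * v j) (w * w) := hl.mul hl hn
  have hp : τ.Lim (fun j => 1 - v j * v j) (1 - w * w) := (Tr.Lim.const 1).sub he
  have he' := (Complex.continuous_re.tendsto _).comp he.tr
  have hp' := (Complex.continuous_re.tendsto _).comp hp.tr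
  have hW : ∀ i L, τ.Lim (fun j => x i * alt x (v j) L) (x i * alt x w L) := fun i L =>
    (popa_lim_alt hx hn hw.norm_le hl L).const_mul _
  refine ⟨h.closed.mem_of_lim (fun j => (hv j).mem) hl, hw, ?_, ?_, fun i L hL => ?_,
    fun i L hL => ?_⟩
  · have h1 := hl.tr
    simp only [fun j => (hv j).tr] at h1
    exact tendsto_nhds_unique h1 tendsto_const_nhds
  · exact ge_of_tendsto' hp' fun j => (hv j).big
  · exact le_of_tendsto_of_tendsto'
      (hp.mul (hW i L) fun j => (hv j).psym.proj.one_sub.norm_le).tr.norm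
      ((he'.const_mul _).mul hp') fun j => (hv j).left i L hL
  · exact le_of_tendsto_of_tendsto' (hl.mul (hW i L) hn).tr.norm (he'.const_mul _)
      fun j => (hv j).right i L hL

theorem popa_alt_smul {ι : Type*} (x : ι → A) (c : ℂ) (s : A) (L : List ι) :
    alt (fun i => c • x i) s L = c ^ L.length • alt x s L := by
  induction L with
  | nil => simp
  | cons i L ih =>
    rw [alt_cons, alt_cons, ih, mul_smul_comm, mul_smul_comm, smul_mul_assoc, smul_smul,
      List.length_cons, pow_succ]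

/-- **Popa's theorem, contractions.** Proof. Choose `α ∈ (0,1]` with `α ≤ ε`, `k √α ≤ ε/2`, and
`δ₀ > 0` with `δ₀ D^k ≤ ε/2`.  `S = {v | PInv … v}` contains `0` (`alt x 0 (j :: L) = 0`,
`τ (x i) = 0`) and is closed under limits (`n_alt_sub_le`, `Lim.mul`, `Lim.tr`,
`le_of_tendsto_of_tendsto'`).  The maximal `v` of `exists_maximal_psym` has
`re τ p = α`, `p = 1 - v v`, by `patch_step`.  `s = v + p` is a symmetry in `P`, `τ s = τ p`, and
`|τ (alt x s (i :: L))| ≤ |τ (alt x v (i :: L))| + k n p ≤ δ |L| + k √α`. -/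
theorem popa_contr {P : StarSubalgebra ℂ A} (h : Setup τ P) {ι : Type*} [Finite ι] {x : ι → A}
    (hx : ∀ i, ‖x i‖ ≤ 1) (hx0 : ∀ i, τ (x i) = 0) (k : ℕ) {ε : ℝ} (hε : 0 < ε) :
    ∃ s ∈ P, IsSym s ∧ ‖τ s‖ ≤ ε ∧ ∀ L, L ≠ [] → L.length ≤ k → ‖τ (alt x s L)‖ ≤ ε := by
  set β : ℝ := ε / (2 * ((k : ℝ) + 1)) with hβ
  have hβ0 : 0 < β := by positivity
  set α : ℝ := min 1 (min ε (β ^ 2)) with hα
  have hα0 : 0 < α := lt_min one_pos (lt_min hε (by positivity))
  have hα1 : α ≤ 1 := min_le_left _ _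
  have hαε : α ≤ ε := (min_le_right _ _).trans (min_le_left _ _)
  have hαβ : α ≤ β ^ 2 := (min_le_right _ _).trans (min_le_right _ _)
  set D : ℝ := 2 * ((k : ℝ) + 1) ^ 2 / α with hD
  have hD1 : 1 ≤ D := by
    rw [hD, le_div_iff₀ hα0]
    have : (0 : ℝ) ≤ k := by positivity
    nlinarith
  have hδ : 0 < ε / 2 / D ^ k := by positivity
  obtain ⟨v, hv, hmax⟩ := exists_maximal_psym h.W
    {v | PInv τ P x k α (fun m => ε / 2 / D ^ k * D ^ m) v} (fun v hv => hv.psym)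
    ⟨0, popa_zero hx0 k hα1 _⟩ (fun v w hv hl hw => popa_closed h hx hv hl hw)
  have hle : (τ (1 - v * v)).re ≤ α := by
    by_contra hc
    obtain ⟨w, hw0, hvw, hw⟩ := patch_step h hx hα0 hα1 hδ hv (not_le.1 hc)
    exact hw0 (hmax w hw hvw)
  have hp : IsStarProjection (1 - v * v) := hv.psym.proj.one_sub
  have hs : IsSym (v + (1 - v * v)) := by
    refine ⟨by rw [star_add, hv.psym.1, hp.isSelfAdjoint.star_eq], ?_⟩
    have h1 : v * (1 - v * v) = 0 := by rw [mul_sub, mul_one, ← mul_assoc, hv.psym.2, sub_self]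
    have h2 : (1 - v * v) * v = 0 := by rw [sub_mul, one_mul, hv.psym.2, sub_self]
    rw [add_mul, mul_add, mul_add, h1, h2, hp.isIdempotentElem.eq]
    abel
  refine ⟨v + (1 - v * v), add_mem hv.mem (sub_mem (one_mem _) (mul_mem hv.mem hv.mem)), hs, ?_,
    fun L hL0 hL => ?_⟩
  · rw [map_add, hv.tr, zero_add, τ.norm_proj hp]
    exact hle.trans hαε
  · obtain ⟨i, L, rfl⟩ := List.exists_cons_of_ne_nil hL0
    have hL' : L.length < k := by simpa using hL
    have h1 := hv.right i L hL'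
    rw [← mul_assoc, ← alt_cons] at h1
    have h2 := (n_alt_sub_le τ hx hs.norm_le hv.psym.norm_le (i :: L)).2
    rw [add_sub_cancel_left] at h2
    have h3 : τ.n (1 - v * v) ≤ β :=
      (abs_le_of_sq_le_sq' (by rw [τ.n_proj_sq hp]; linarith) hβ0.le).2
    have h4 : ((i :: L).length : ℝ) * τ.n (1 - v * v) ≤ ε / 2 := by
      have h5 : ((i :: L).length : ℝ) ≤ k + 1 := by exact_mod_cast hL.trans (Nat.le_succ k)
      calc _ ≤ ((k : ℝ) + 1) * β := mul_le_mul h5 h3 (τ.n_nonneg _) (by positivity)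
        _ = ε / 2 := by rw [hβ]; field_simp
    have h5 : ε / 2 / D ^ k * D ^ L.length * (τ (v * v)).re ≤ ε / 2 := by
      calc _ ≤ ε / 2 / D ^ k * D ^ k * 1 :=
            mul_le_mul (mul_le_mul_of_nonneg_left (pow_le_pow_right₀ hD1 hL'.le) hδ.le)
              (τ.proj_le_one hv.psym.proj) (τ.proj_nonneg hv.psym.proj) (by positivity)
        _ = ε / 2 := by field_simp
    have h6 := τ.norm_le_n (alt x (v + (1 - v * v)) (i :: L) - alt x v (i :: L))
    rw [map_sub] at h6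
    have h7 := norm_le_norm_add_norm_sub' (τ (alt x (v + (1 - v * v)) (i :: L)))
      (τ (alt x v (i :: L)))
    linarith

/-- **Popa's theorem.** Proof. Take `C ≥ 1` with `‖x i‖ ≤ C`, apply `popa_contr` to `C⁻¹ • x i`
and `ε / C^k`; `alt x s L = C^|L| • alt (C⁻¹ • x) s L`. -/
theorem popa {P : StarSubalgebra ℂ A} (h : Setup τ P) {ι : Type*} [Finite ι] {x : ι → A}
    (hx0 : ∀ i, τ (x i) = 0) (k : ℕ) {ε : ℝ} (hε : 0 < ε) :
    ∃ s ∈ P, IsSym s ∧ ‖τ s‖ ≤ ε ∧ ∀ L, L ≠ [] → L.length ≤ k → ‖τ (alt x s L)‖ ≤ ε := by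
  obtain ⟨C₀, hC₀⟩ := (Set.finite_range fun i => ‖x i‖).bddAbove
  set C : ℝ := max 1 C₀ with hC
  have hC1 : 1 ≤ C := le_max_left _ _
  have hC0 : 0 < C := by linarith
  have hxC : ∀ i, ‖x i‖ ≤ C := fun i => (hC₀ ⟨i, rfl⟩).trans (le_max_right _ _)
  have hCk : 1 ≤ C ^ k := one_le_pow₀ hC1
  obtain ⟨s, hsP, hs, h1, h2⟩ := popa_contr h (x := fun i => ((C⁻¹ : ℝ) : ℂ) • x i)
    (fun i => by
      rw [norm_smul, Complex.norm_real, Real.norm_of_nonneg (by positivity),
        inv_mul_le_iff₀ hC0, mul_one]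
      exact hxC i)
    (fun i => by rw [map_smul, hx0, smul_zero]) k (ε := ε / C ^ k) (by positivity)
  refine ⟨s, hsP, hs, h1.trans (div_le_self hε.le hCk), fun L hL0 hL => ?_⟩
  have h3 := h2 L hL0 hL
  rw [popa_alt_smul, map_smul, norm_smul, norm_pow, Complex.norm_real,
    Real.norm_of_nonneg (by positivity), inv_pow, inv_mul_le_iff₀ (by positivity)] at h3
  refine h3.trans ?_
  calc C ^ L.length * (ε / C ^ k) ≤ C ^ k * (ε / C ^ k) :=
        mul_le_mul_of_nonneg_right (pow_le_pow_right₀ hC1 hL) (by positivity)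
    _ = ε := by field_simp

end Crest.Agent.R95
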