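import Crest.Agent.R95.Sign
import Crest.Agent.R95.Dixmier

/-! # rid 95: maximal partial symmetries; projections of every trace -/

set_option autoImplicit false

open Filter Topology

namespace Crest.Agent.R95

variable {A : Type*} [CStarAlgebra A] {τ : Tr A}

/-- Brezis–Browder principle.  Proof. Choose `u (k+1)` above `u k` with
`f (u (k+1)) ≥ sup {f y | r (u k) y} - 1/(k+1)`; let `b` be an upper bound.  If `r b y` then
`r (u k) y`, so `f y ≤ f (u (k+1)) + 1/(k+1) ≤ f b + 1/(k+1)` for all `k`. -/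
theorem brezis_browder {S : Type*} [Nonempty S] (r : S → S → Prop) (hrefl : ∀ x, r x x)
    (htrans : ∀ x y z, r x y → r y z → r x z) (f : S → ℝ) (hmono : ∀ x y, r x y → f x ≤ f y)
    (B : ℝ) (hB : ∀ x, f x ≤ B)
    (hub : ∀ u : ℕ → S, (∀ k, r (u k) (u (k + 1))) → ∃ b, ∀ k, r (u k) b) :
    ∃ x, ∀ y, r x y → f y ≤ f x := by
  classical
  have step : ∀ (x : S) (ε : ℝ), 0 < ε → ∃ z, r x z ∧ ∀ y, r x y → f y ≤ f z + ε := by
    intro x ε hε
    have hne : (f '' {y | r x y}).Nonempty := ⟨f x, x, hrefl x, rfl⟩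
    have hbd : BddAbove (f '' {y | r x y}) := ⟨B, by rintro _ ⟨y, -, rfl⟩; exact hB y⟩
    obtain ⟨_, ⟨z, hz, rfl⟩, hlt⟩ := exists_lt_of_lt_csSup hne (sub_lt_self _ hε)
    exact ⟨z, hz, fun y hy => by have := le_csSup hbd ⟨y, hy, rfl⟩; linarith⟩
  choose g hg1 hg2 using fun (k : ℕ) (x : S) => step x (1 / ((k : ℝ) + 1)) (by positivity)
  let u : ℕ → S := fun k => Nat.rec (Classical.arbitrary S) (fun k x => g k x) k
  obtain ⟨b, hb⟩ := hub u (fun k => hg1 k (u k))
  refine ⟨b, fun y hy => le_of_forall_pos_le_add fun ε hε => ?_⟩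
  obtain ⟨k, hk⟩ := exists_nat_one_div_lt hε
  have h1 := hg2 k (u k) y (htrans _ _ _ (hb k) hy)
  have h2 : f (g k (u k)) ≤ f b := hmono _ _ (hb (k + 1))
  linarith

theorem proj_psym_sq {v w : A} (hv : IsPSym v) (hw : IsPSym w) (h : v * w = v * v) :
    τ.n (w - v) ^ 2 = (τ (w * w)).re - (τ (v * v)).re := by
  have h' : w * v = v * v := by
    have := congrArg star h
    rwa [star_mul, star_mul, hv.1, hw.1] at this
  have e : (w - v) * (w - v) = w * w - v * v := by
    rw [sub_mul, mul_sub, mul_sub, h, h', sub_self, sub_zero]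
  rw [τ.n_sq_of_sa (by rw [star_sub, hv.1, hw.1]), e, map_sub, Complex.sub_re]

theorem proj_psym_trans {u v w : A} (hu : IsPSym u) (h1 : u * v = u * u) (h2 : v * w = v * v) :
    u * w = u * u := by
  have e : u * u * v = u := by rw [mul_assoc, h1, ← mul_assoc, hu.2]
  calc u * w = u * u * v * w := by rw [e]
    _ = u * u * v * v := by rw [mul_assoc (u * u), h2, ← mul_assoc]
    _ = u * u := by rw [e, h1]

/-- **Maximal partial symmetries.** Proof. Order `S` by `v ≤ v' ↔ v * v' = v * v`.  If `v ≤ v'`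
then `v' * v = v * v` (star), `v = v * (v * v') = (v*v) * v'`; transitivity: for `v ≤ v' ≤ v''`,
`v v'' = (v v) v' v'' = (v v) v' v' = v v' = v v`.  Also `(v' - v)² = v'v' - v v`, so
`n (v' - v)² = f v' - f v` with `f v = re τ (v v) ≤ 1`.  An increasing sequence has `f` monotone
bounded, so is Cauchy with `‖v k‖ ≤ 1`; its limit `w` is a partial symmetry (`Lim.mul`, `Lim.star`,
`IsW.eq_of_lim`), lies in `S` by `hcl`, and `v k * w = v k * v k`.  Take `v` from
`brezis_browder`; if `v + w ∈ S` and `v * w = 0` then `v ≤ v + w` and `n w ² = f (v+w) - f v ≤ 0`. -/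
theorem exists_maximal_psym (hτ : τ.IsW) (S : Set A) (hS : ∀ v ∈ S, IsPSym v) (hne : S.Nonempty)
    (hcl : ∀ (v : ℕ → A) (w : A), (∀ k, v k ∈ S) → τ.Lim v w → IsPSym w → w ∈ S) :
    ∃ v ∈ S, ∀ w, v + w ∈ S → v * w = 0 → w = 0 := by
  have : Nonempty S := hne.to_subtype
  obtain ⟨v, hv⟩ := brezis_browder (S := S) (fun v w => v.1 * w.1 = v.1 * v.1) (fun _ => rfl)
    (fun x _ _ h1 h2 => proj_psym_trans (hS _ x.2) h1 h2) (fun v => (τ (v.1 * v.1)).re)
    (fun x y h => by
      have := proj_psym_sq (τ := τ) (hS _ x.2) (hS _ y.2) h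
      nlinarith [sq_nonneg (τ.n (y.1 - x.1))])
    1 (fun x => τ.proj_le_one (hS _ x.2).proj) (by
      intro u hu
      have hle : ∀ j k, j ≤ k → (u j).1 * (u k).1 = (u j).1 * (u j).1 := by
        intro j k hjk
        induction k, hjk using Nat.le_induction with
        | base => rfl
        | succ k _ ih => exact proj_psym_trans (hS _ (u j).2) ih (hu k)
      set F : ℕ → ℝ := fun k => (τ ((u k).1 * (u k).1)).re with hF
      have hsq : ∀ j k, j ≤ k → τ.n ((u k).1 - (u j).1) ^ 2 = F k - F j := fun j k hjk =>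
        proj_psym_sq (hS _ (u j).2) (hS _ (u k).2) (hle j k hjk)
      have hmono : Monotone F := fun j k hjk => by
        have := hsq j k hjk
        nlinarith [sq_nonneg (τ.n ((u k).1 - (u j).1))]
      have hbdd : BddAbove (Set.range F) :=
        ⟨1, by rintro _ ⟨k, rfl⟩; exact τ.proj_le_one (hS _ (u k).2).proj⟩
      have hcau := (tendsto_atTop_ciSup hmono hbdd).cauchySeq
      rw [Metric.cauchySeq_iff] at hcau
      have hn : ∀ k, ‖(u k).1‖ ≤ 1 := fun k => (hS _ (u k).2).norm_le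
      obtain ⟨w, -, hw⟩ := hτ.complete (fun k => (u k).1) 1 hn (by
        intro ε hε
        obtain ⟨N, hN⟩ := hcau (ε ^ 2) (by positivity)
        refine ⟨N, fun j hj k hk => ?_⟩
        have h1 := hN j hj k hk
        rw [Real.dist_eq, abs_lt] at h1
        refine lt_of_pow_lt_pow_left₀ 2 hε.le ?_
        rcases le_total j k with hjk | hjk
        · rw [map_sub_rev, hsq j k hjk]; linarith
        · rw [hsq k j hjk]; linarith)
      have hwp : IsPSym w := by
        refine ⟨hτ.eq_of_lim hw.star hw fun k => (hS _ (u k).2).1, ?_⟩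
        refine hτ.eq_of_lim ((hw.mul hw hn).mul hw (C := 1) fun k => ?_) hw
          fun k => (hS _ (u k).2).2
        exact (hS _ (u k).2).proj.norm_le
      refine ⟨⟨w, hcl _ w (fun k => (u k).2) hw hwp⟩, fun k => ?_⟩
      have hw' : τ.Lim (fun j => (u (j + k)).1) w := (tendsto_add_atTop_iff_nat k).2 hw
      exact hτ.eq_of_lim (hw'.const_mul (u k).1) (Tr.Lim.const _)
        fun j => hle k (j + k) (Nat.le_add_left k j))
  refine ⟨v.1, v.2, fun w hw h0 => ?_⟩
  have hle : v.1 * (v.1 + w) = v.1 * v.1 := by rw [mul_add, h0, add_zero]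
  have h1 : (τ ((v.1 + w) * (v.1 + w))).re ≤ (τ (v.1 * v.1)).re := hv ⟨_, hw⟩ hle
  have h2 := proj_psym_sq (τ := τ) (hS _ v.2) (hS _ hw) hle
  rw [add_sub_cancel_left] at h2
  exact hτ.faithful w (by nlinarith [τ.n_nonneg w])

/-- step (1): a minimal projection has a one-dimensional corner -/
theorem proj_min_scalar {P : StarSubalgebra ℂ A} (h : Setup τ P) {r : A} (hr : IsStarProjection r)
    (hrP : r ∈ P) (hr0 : r ≠ 0)
    (hmin : ∀ f ∈ P, IsStarProjection f → r * f = f → f ≠ 0 → f = r) {a : A} (ha : a ∈ P) :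
    ∃ c : ℂ, r * a * r = c • r := by
  have hrr : r * r = r := hr.isIdempotentElem.eq
  have hrs : star r = r := hr.isSelfAdjoint.star_eq
  have hpos := h.W.proj_pos hr hr0
  have ht : τ r ≠ 0 := fun e => by rw [e] at hpos; simp at hpos
  let L : A →ₗ[ℂ] A :=
    { toFun := fun x => r * x * r - (τ (r * x) / τ r) • r
      map_add' := fun x y => by
        rw [mul_add, add_mul, map_add, add_div, add_smul]; abel
      map_smul' := fun c x => by
        rw [mul_smul_comm, smul_mul_assoc, map_smul, smul_eq_mul, mul_div_assoc, mul_smul,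
          RingHom.id_apply, smul_sub] }
  have hL : ∀ x, L x = r * x * r - (τ (r * x) / τ r) • r := fun _ => rfl
  let N : Seminorm ℂ A := τ.n.comp L
  have hN' : ∀ x, N x = τ.n (L x) := fun _ => rfl
  have hN : ∀ x, N x ≤ 2 * ‖x‖ := by
    intro x
    have h1 : τ.n (r * x * r) ≤ ‖x‖ :=
      ((τ.n_mul_le_of_le_one' _ hr.norm_le).trans (τ.n_mul_le_of_le_one hr.norm_le _)).trans
        (τ.n_le_norm x)
    have h2 : ‖τ (r * x) / τ r‖ ≤ ‖x‖ := by
      rw [norm_div, τ.norm_proj hr, div_le_iff₀ hpos]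
      exact τ.norm_proj_mul_le hr x
    have h3 : τ.n r ≤ 1 := (τ.n_le_norm r).trans hr.norm_le
    have h4 : τ.n ((τ (r * x) / τ r) • r) ≤ ‖x‖ := by
      rw [map_smul_eq_mul]
      calc _ ≤ ‖x‖ * 1 := mul_le_mul h2 h3 (τ.n_nonneg _) (norm_nonneg _)
        _ = _ := mul_one _
    rw [hN', hL]
    have := map_sub_le_add τ.n (r * x * r) ((τ (r * x) / τ r) • r)
    linarith
  let Q : StarSubalgebra ℂ A := P ⊓ StarSubalgebra.centralizer ℂ {r}
  have hQ : τ.Closed Q := h.closed.inf (h.W.closed_centralizer _)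
  have hsym : ∀ s ∈ Q, IsSym s → N s = 0 := by
    intro s hs hs'
    obtain ⟨hsP, hc⟩ := (mem_inf_centralizer hrs).1 hs
    have hg := hs'.proj
    have hcomm : Commute r ((2⁻¹ : ℂ) • (1 + s)) :=
      ((Commute.one_right r).add_right hc).smul_right _
    have hrg := hr.mul hg hcomm
    have hmem : r * ((2⁻¹ : ℂ) • (1 + s)) ∈ P :=
      P.mul_mem hrP (P.smul_mem (P.add_mem P.one_mem hsP) _)
    have hexp : r * ((2⁻¹ : ℂ) • (1 + s)) = (2⁻¹ : ℂ) • (r + r * s) := by
      rw [mul_smul_comm, mul_add, mul_one]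
    have key : ∃ c : ℂ, r * s = c • r := by
      by_cases h0 : r * ((2⁻¹ : ℂ) • (1 + s)) = 0
      · refine ⟨-1, ?_⟩
        rw [hexp, smul_eq_zero_iff_right (by norm_num)] at h0
        rw [neg_smul, one_smul]
        exact eq_neg_of_add_eq_zero_right h0
      · refine ⟨1, ?_⟩
        have h1 := hmin _ hmem hrg (by rw [← mul_assoc, hrr]) h0
        rw [hexp] at h1
        have h2 : r * s = (2 : ℂ) • ((2⁻¹ : ℂ) • (r + r * s)) - r := by module
        rw [h2, h1]; module
    obtain ⟨c, hc'⟩ := key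
    rw [hN', hL, hc', map_smul, smul_eq_mul, mul_div_cancel_right₀ _ ht, smul_mul_assoc, hrr,
      sub_self, map_zero]
  set b := r * a * r with hb
  have hb1 : r * b = b := by rw [hb, ← mul_assoc, ← mul_assoc, hrr]
  have hb2 : b * r = b := by rw [hb, mul_assoc, hrr]
  have hbQ : b ∈ Q := (mem_inf_centralizer hrs).2
    ⟨P.mul_mem (P.mul_mem hrP ha) hrP, by rw [hb1, hb2]⟩
  have hNb : N b = 0 := by
    by_contra hne
    have hpos' : 0 < N b := (apply_nonneg N b).lt_of_ne' hne
    have hb0 : 0 < ‖b‖ := by have := hN b; linarith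
    obtain ⟨s, hs, hs', hlt⟩ := exists_sym_seminorm h.W hQ N 2 hN
      (u := ((‖b‖⁻¹ : ℝ) : ℂ) • b) (Q.smul_mem hbQ _)
      (by rw [norm_smul, Complex.norm_real, norm_inv, norm_norm, inv_mul_cancel₀ hb0.ne'])
      (c := 0) (by
        rw [map_smul_eq_mul, Complex.norm_real, norm_inv, norm_norm]
        positivity)
    rw [hsym s hs hs'] at hlt
    exact lt_irrefl _ hlt
  have hLb := h.W.faithful _ (hN' b ▸ hNb)
  rw [hL, hb1, hb2, sub_eq_zero] at hLb
  exact ⟨_, hLb⟩

/-- families of partial isometries with orthogonal ranges and initial projection `r` -/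
def ProjGood (P : StarSubalgebra ℂ A) (r : A) {m : ℕ} (v : Fin m → A) : Prop :=
  (∀ i, v i ∈ P) ∧ (∀ i, v i * r = v i) ∧ ∀ i j, star (v i) * v j = if i = j then r else 0

theorem ProjGood.star_mul_sum {P : StarSubalgebra ℂ A} {r : A} (hr : IsStarProjection r) {m : ℕ}
    {v : Fin m → A} (hv : ProjGood P r v) (i : Fin m) :
    star (v i) * ∑ j, v j * star (v j) = star (v i) := by
  rw [Finset.mul_sum]
  simp only [← mul_assoc, hv.2.2, ite_mul, zero_mul, Finset.sum_ite_eq, Finset.mem_univ, if_true]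
  rw [← hr.isSelfAdjoint.star_eq, ← star_mul, hv.2.1]

theorem ProjGood.proj {P : StarSubalgebra ℂ A} {r : A} (hr : IsStarProjection r) {m : ℕ}
    {v : Fin m → A} (hv : ProjGood P r v) : IsStarProjection (∑ j, v j * star (v j)) := by
  refine ⟨?_, ?_⟩
  · rw [IsIdempotentElem, Finset.sum_mul]
    refine Finset.sum_congr rfl fun i _ => ?_
    rw [mul_assoc, hv.star_mul_sum hr]
  · rw [IsSelfAdjoint, star_sum]
    simp only [star_mul, star_star]

theorem ProjGood.card_le {P : StarSubalgebra ℂ A} {r : A} (hr : IsStarProjection r) {m : ℕ}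
    {v : Fin m → A} (hv : ProjGood P r v) : m * (τ r).re ≤ 1 := by
  have h1 := τ.proj_le_one (hv.proj hr)
  have h2 : ∀ j, τ (v j * star (v j)) = τ r := fun j => by rw [τ.comm, hv.2.2, if_pos rfl]
  rw [map_sum] at h1
  simp only [h2, Finset.sum_const, Finset.card_univ, Fintype.card_fin, nsmul_eq_mul] at h1
  simpa using h1

/-- **No minimal projection.** Proof. Suppose every projection `f ∈ P` with `r f = f` is `0` or
`r`.  (1) `r a r ∈ ℂ r` for `a ∈ P`: let `Q = P ⊓ centralizer {r}` (closed), and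
`N a = n (r a r - (τ (r a)/τ r) • r)` (`τ.n.comp` of a linear map; `N a ≤ 2‖a‖` by
`norm_proj_mul_le`).  For a symmetry `s ∈ Q`, `g = (1+s)/2`, `r g` is a projection below `r`, so
`r s = ± r` and `N s = 0`.  By `exists_sym_seminorm` (with `c = 0`) `N` vanishes on contractions of
`Q`, so on `Q ∋ r a r`.  (2) Call a family `v : Fin m → A` good if `v i ∈ P`, `v i * r = v i`,
`(v i)⋆ (v j) = if i = j then r else 0`.  Then `e = ∑ v i (v i)⋆` is a projection of trace
`m τ(r) ≤ 1`, so there is a good family of maximal size.  If `x = (1 - e) a r ≠ 0` for some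
`a ∈ P`, then `x⋆x = c • r` by (1), with `c = n x²/τ r > 0`, and `x/√c` extends the family
(`(v i)⋆ (1 - e) = 0`; `Fin.cons`).  So `(1 - e) a r = 0` for all `a ∈ P`, `e = 1` by
`factor_lemma`.  (3) For `a ∈ P`, `a = e a e = ∑ v i (r (v i)⋆ a (v j) r) (v j)⋆` is in the span of
the finitely many `v i (v j)⋆`; so `P` is finite-dimensional, contradiction. -/
theorem exists_proj_lt {P : StarSubalgebra ℂ A} (h : Setup τ P) {r : A} (hr : IsStarProjection r)
    (hrP : r ∈ P) (hr0 : r ≠ 0) :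
    ∃ f ∈ P, IsStarProjection f ∧ r * f = f ∧ f ≠ 0 ∧ f ≠ r := by
  by_contra hcon
  have hmin : ∀ f ∈ P, IsStarProjection f → r * f = f → f ≠ 0 → f = r := by
    intro f hf h1 h2 h3
    by_contra h4
    exact hcon ⟨f, hf, h1, h2, h3, h4⟩
  have hsc := fun a (ha : a ∈ P) => proj_min_scalar h hr hrP hr0 hmin ha
  have hrr : r * r = r := hr.isIdempotentElem.eq
  have hrs : star r = r := hr.isSelfAdjoint.star_eq
  have hpos := h.W.proj_pos hr hr0
  have hmax : ∃ (m : ℕ) (v : Fin m → A), ProjGood P r v ∧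
      ∀ w : Fin (m + 1) → A, ¬ ProjGood P r w := by
    by_contra hno
    push Not at hno
    have hall : ∀ m : ℕ, ∃ v : Fin m → A, ProjGood P r v := by
      intro m
      induction m with
      | zero => exact ⟨Fin.elim0, fun i => i.elim0, fun i => i.elim0, fun i => i.elim0⟩
      | succ m ih => obtain ⟨v, hv⟩ := ih; exact hno m v hv
    obtain ⟨m, hm⟩ := exists_nat_gt (1 / (τ r).re)
    obtain ⟨v, hv⟩ := hall m
    have := hv.card_le (τ := τ) hr
    rw [div_lt_iff₀ hpos] at hm
    linarith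
  obtain ⟨m, v, hv, hmax⟩ := hmax
  set e := ∑ j, v j * star (v j) with he
  have heP : e ∈ P := P.sum_mem fun j _ => P.mul_mem (hv.1 j) (star_mem (s := P) (hv.1 j))
  have hep : IsStarProjection e := hv.proj hr
  have hzero : ∀ a ∈ P, (1 - e) * a * r = 0 := by
    intro a ha
    by_contra hx0
    set x := (1 - e) * a * r with hx
    have hxP : x ∈ P := P.mul_mem (P.mul_mem (P.sub_mem P.one_mem heP) ha) hrP
    have hxr : x * r = x := by rw [hx, mul_assoc, hrr]
    have hrx : r * star x = star x := by rw [← hrs, ← star_mul, hxr]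
    obtain ⟨c, hc⟩ := hsc (star x * x) (P.mul_mem (star_mem (s := P) hxP) hxP)
    rw [← mul_assoc, hrx, mul_assoc, hxr] at hc
    have hnx := h.W.n_pos hx0
    have hc' : c = ((τ.n x ^ 2 / (τ r).re : ℝ) : ℂ) := by
      have h1 := τ.star_mul_self x
      rw [hc, map_smul, smul_eq_mul, τ.proj_eq_re hr] at h1
      rw [Complex.ofReal_div, eq_div_iff (by exact_mod_cast hpos.ne'), h1]
    set γ : ℝ := τ.n x ^ 2 / (τ r).re with hγ
    have hγ0 : 0 < γ := by positivity
    set y : A := (((√γ)⁻¹ : ℝ) : ℂ) • x with hy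
    have hyy : star y * y = r := by
      rw [hy, star_smul, smul_mul_smul_comm, hc, hc', smul_smul, Complex.star_def,
        Complex.conj_ofReal, ← Complex.ofReal_mul, ← Complex.ofReal_mul, ← mul_inv,
        Real.mul_self_sqrt hγ0.le, inv_mul_cancel₀ hγ0.ne', Complex.ofReal_one, one_smul]
    have hvy : ∀ i, star (v i) * y = 0 := by
      intro i
      rw [hy, mul_smul_comm, hx, ← mul_assoc, ← mul_assoc, mul_sub, mul_one, he,
        hv.star_mul_sum hr, sub_self, zero_mul, zero_mul, smul_zero]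
    have hyv : ∀ i, star y * v i = 0 := by
      intro i
      have := congrArg star (hvy i)
      rwa [star_mul, star_star, star_zero] at this
    refine hmax (Fin.cons y v) ⟨fun i => ?_, fun i => ?_, fun i j => ?_⟩
    · refine Fin.cases ?_ (fun i => ?_) i
      · exact P.smul_mem hxP _
      · exact hv.1 i
    · refine Fin.cases ?_ (fun i => ?_) i
      · show y * r = y
        rw [hy, smul_mul_assoc, hxr]
      · exact hv.2.1 i
    · refine Fin.cases ?_ (fun i => ?_) i <;> refine Fin.cases ?_ (fun j => ?_) j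
      · simpa using hyy
      · simpa [(Fin.succ_ne_zero j).symm] using hyv j
      · simpa [Fin.succ_ne_zero i] using hvy i
      · simpa using hv.2.2 i j
  have he1 : e = 1 := by
    rcases factor_lemma h hzero with h1 | h1
    · exact (sub_eq_zero.1 h1).symm
    · exact absurd h1 hr0
  apply h.inf
  let V : Submodule ℂ A :=
    Submodule.span ℂ (Set.range fun ij : Fin m × Fin m => v ij.1 * star (v ij.2))
  have : FiniteDimensional ℂ V := FiniteDimensional.span_of_finite ℂ (Set.finite_range _)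
  have hle : P.toSubalgebra.toSubmodule ≤ V := by
    intro a ha
    have ha' : a ∈ P := ha
    have h1 : a = e * a * e := by rw [he1, one_mul, mul_one]
    rw [h1, he, Finset.sum_mul, Finset.sum_mul]
    refine V.sum_mem fun i _ => ?_
    rw [Finset.mul_sum]
    refine V.sum_mem fun j _ => ?_
    obtain ⟨c, hc⟩ := hsc (star (v i) * a * v j)
      (P.mul_mem (P.mul_mem (star_mem (s := P) (hv.1 i)) ha') (hv.1 j))
    have h2 : r * star (v j) = star (v j) := by rw [← hrs, ← star_mul, hv.2.1]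
    have h3 : v i * star (v i) * a * (v j * star (v j)) =
        v i * (r * (star (v i) * a * v j) * r) * star (v j) := by
      calc _ = v i * r * star (v i) * a * (v j * (r * star (v j))) := by rw [hv.2.1, h2]
        _ = _ := by simp only [mul_assoc]
    rw [h3, hc, mul_smul_comm, smul_mul_assoc, hv.2.1]
    exact V.smul_mem _ (Submodule.subset_span ⟨(i, j), rfl⟩)
  exact Submodule.finiteDimensional_of_le hle

/-- Proof. By `exists_proj_lt` and replacing `f` by `r - f` if necessary there is a nonzero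
`f ≤ r` with `τ f ≤ τ r / 2`; iterate (`τ f ≤ 2⁻ᵐ`). -/
theorem exists_small_proj {P : StarSubalgebra ℂ A} (h : Setup τ P) {r : A}
    (hr : IsStarProjection r) (hrP : r ∈ P) (hr0 : r ≠ 0) {γ : ℝ} (hγ : 0 < γ) :
    ∃ f ∈ P, IsStarProjection f ∧ r * f = f ∧ f ≠ 0 ∧ (τ f).re ≤ γ := by
  have hall : ∀ m : ℕ, ∃ f ∈ P, IsStarProjection f ∧ r * f = f ∧ f ≠ 0 ∧
      (τ f).re ≤ (1 / 2) ^ m := by
    intro m
    induction m with
    | zero => exact ⟨r, hrP, hr, hr.isIdempotentElem.eq, hr0, by simpa using τ.proj_le_one hr⟩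
    | succ m ih =>
      obtain ⟨f, hfP, hf, hrf, hf0, hfm⟩ := ih
      obtain ⟨g, hgP, hg, hfg, hg0, hgf⟩ := exists_proj_lt h hf hfP hf0
      have hrg : r * g = g := by rw [← hfg, ← mul_assoc, hrf]
      by_cases hc : (τ g).re ≤ (τ f).re / 2
      · exact ⟨g, hgP, hg, hrg, hg0, by rw [pow_succ]; linarith⟩
      · refine ⟨f - g, P.sub_mem hfP hgP, proj_sub hf hg hfg, by rw [mul_sub, hrf, hrg],
          sub_ne_zero.2 (Ne.symm hgf), ?_⟩
        rw [map_sub, Complex.sub_re, pow_succ]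
        linarith
  obtain ⟨m, hm⟩ := exists_pow_lt_of_lt_one hγ (by norm_num : (1 / 2 : ℝ) < 1)
  obtain ⟨f, hfP, hf, hrf, hf0, hfm⟩ := hall m
  exact ⟨f, hfP, hf, hrf, hf0, hfm.trans hm.le⟩

/-- **Exact trace.** Proof. `exists_maximal_psym` for
`S = {f ∈ P | f projection, r f = f, re τ f ≤ t} ∋ 0`.  If the maximal `f` had `re τ f < t`, then
`r - f ≠ 0` has a nonzero subprojection `w` of trace `≤ t - re τ f`, and `f + w ∈ S`, `f w = 0`. -/
theorem exact_trace {P : StarSubalgebra ℂ A} (h : Setup τ P) {r : A} (hr : IsStarProjection r)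
    (hrP : r ∈ P) {t : ℝ} (ht0 : 0 ≤ t) (ht : t ≤ (τ r).re) :
    ∃ f ∈ P, IsStarProjection f ∧ r * f = f ∧ (τ f).re = t := by
  obtain ⟨f, ⟨hfP, hf, hrf, hft⟩, hmax⟩ := exists_maximal_psym h.W
    {f | f ∈ P ∧ IsStarProjection f ∧ r * f = f ∧ (τ f).re ≤ t}
    (fun v hv => isPSym_of_proj hv.2.1)
    ⟨0, P.zero_mem, IsStarProjection.zero A, mul_zero r, by simpa using ht0⟩ (by
      intro v w hv hw hwp
      refine ⟨h.closed.mem_of_lim (fun k => (hv k).1) hw, ⟨?_, hwp.1⟩, ?_, ?_⟩
      · exact h.W.eq_of_lim (hw.mul hw fun k => (hv k).2.1.norm_le) hw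
          fun k => (hv k).2.1.isIdempotentElem.eq
      · exact h.W.eq_of_lim (hw.const_mul r) hw fun k => (hv k).2.2.1
      · exact le_of_tendsto' ((Complex.continuous_re.tendsto _).comp hw.tr) fun k => (hv k).2.2.2)
  refine ⟨f, hfP, hf, hrf, le_antisymm hft (not_lt.1 fun hlt => ?_)⟩
  have hne : r - f ≠ 0 := fun e => by
    rw [sub_eq_zero] at e
    rw [e] at ht
    linarith
  obtain ⟨w, hwP, hw, hrw, hw0, hwt⟩ := exists_small_proj h (proj_sub hr hf hrf)
    (P.sub_mem hrP hfP) hne (sub_pos.2 hlt)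
  have hfw : f * w = 0 := by
    rw [← hrw, ← mul_assoc, mul_sub, proj_mul_comm hr hf hrf, hf.isIdempotentElem.eq, sub_self,
      zero_mul]
  have hrw' : r * w = w := by
    rw [sub_mul, hfw, sub_zero] at hrw
    exact hrw
  refine hw0 (hmax w ⟨P.add_mem hfP hwP, proj_add hf hw hfw, by rw [mul_add, hrf, hrw'], ?_⟩ hfw)
  rw [map_add, Complex.add_re]
  linarith

end Crest.Agent.R95
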