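import Crest.Agent.R95.Basic

/-! # rid 95: the sign of a self-adjoint element (substitute for spectral projections) -/

set_option autoImplicit false

open Filter Topology

namespace Crest.Agent.R95

variable {A : Type*} [CStarAlgebra A] {τ : Tr A}

/-- auxiliary function `u ↦ 1/√(|u|+e)` -/
noncomputable def sgnG (e u : ℝ) : ℝ := (√(|u| + e))⁻¹

/-- approximate sign `t ↦ t/√(t²+e)` -/
noncomputable def sgnF (e t : ℝ) : ℝ := t * sgnG e (t ^ 2)

theorem sgnG_cont {e : ℝ} (he : 0 < e) : Continuous (sgnG e) := by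
  unfold sgnG
  refine Continuous.inv₀ (by fun_prop) fun u => ?_
  exact (Real.sqrt_pos.mpr (by positivity)).ne'

theorem sgnF_cont {e : ℝ} (he : 0 < e) : Continuous (sgnF e) := by
  unfold sgnF
  exact continuous_id.mul ((sgnG_cont he).comp (continuous_pow 2))

theorem sgnF_eq (e t : ℝ) : sgnF e t = t / √(t ^ 2 + e) := by
  rw [sgnF, sgnG, abs_of_nonneg (sq_nonneg t), div_eq_mul_inv]

theorem sgn_abs_le {e : ℝ} (he : 0 < e) (t : ℝ) : |t| ≤ √(t ^ 2 + e) := by
  rw [← Real.sqrt_sq_eq_abs]; exact Real.sqrt_le_sqrt (by linarith)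

theorem sgn_sqrt_le {e : ℝ} (he : 0 < e) (t : ℝ) : √(t ^ 2 + e) ≤ |t| + √e := by
  refine Real.sqrt_le_iff.mpr ⟨by positivity, ?_⟩
  have h1 := Real.sq_sqrt he.le
  have h2 := sq_abs t
  nlinarith [mul_nonneg (abs_nonneg t) (Real.sqrt_nonneg e)]

theorem sgnF_abs_le {e : ℝ} (he : 0 < e) (t : ℝ) : |sgnF e t| ≤ 1 := by
  have hr : 0 < √(t ^ 2 + e) := Real.sqrt_pos.mpr (by positivity)
  rw [sgnF_eq, abs_div, abs_of_pos hr, div_le_one hr]
  exact sgn_abs_le he t

theorem sgnF_mono {e e' : ℝ} (he' : 0 < e') (h : e' ≤ e) (t : ℝ) :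
    (sgnF e' t - sgnF e t) ^ 2 ≤ sgnF e' t ^ 2 - sgnF e t ^ 2 := by
  have hr' : 0 < √(t ^ 2 + e') := Real.sqrt_pos.mpr (by positivity)
  have hrr : √(t ^ 2 + e') ≤ √(t ^ 2 + e) := Real.sqrt_le_sqrt (by linarith)
  have hr : 0 < √(t ^ 2 + e) := hr'.trans_le hrr
  have hi : (√(t ^ 2 + e))⁻¹ ≤ (√(t ^ 2 + e'))⁻¹ := inv_anti₀ hr' hrr
  rw [sgnF_eq, sgnF_eq, div_eq_mul_inv, div_eq_mul_inv]
  have : 0 ≤ t ^ 2 * (√(t ^ 2 + e))⁻¹ * ((√(t ^ 2 + e'))⁻¹ - (√(t ^ 2 + e))⁻¹) :=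
    mul_nonneg (mul_nonneg (sq_nonneg t) (inv_pos.mpr hr).le) (sub_nonneg.mpr hi)
  nlinarith

theorem sgnF_mul {e : ℝ} (he : 0 < e) (t : ℝ) : abs (sgnF e t * t - |t|) ≤ √e := by
  have hr : 0 < √(t ^ 2 + e) := Real.sqrt_pos.mpr (by positivity)
  have h1 := sgn_abs_le he t
  have h2 := sgn_sqrt_le he t
  have e1 : sgnF e t * t - |t| = -(|t| / √(t ^ 2 + e) * (√(t ^ 2 + e) - |t|)) := by
    rw [sgnF_eq]
    field_simp
    rw [← sq_abs t]; ring
  have h3 : |t| / √(t ^ 2 + e) ≤ 1 := (div_le_one hr).mpr h1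
  have h4 : 0 ≤ |t| / √(t ^ 2 + e) := by positivity
  rw [e1, abs_neg, abs_of_nonneg (mul_nonneg h4 (by linarith))]
  nlinarith

theorem sgnF_sq_mul {e : ℝ} (he : 0 < e) (t : ℝ) : |sgnF e t * sgnF e t * t - t| ≤ √e := by
  have hp : 0 < t ^ 2 + e := by positivity
  have e1 : sgnF e t * sgnF e t * t - t = -(t * e / (t ^ 2 + e)) := by
    rw [sgnF_eq, div_mul_div_comm, Real.mul_self_sqrt hp.le]
    field_simp
    ring
  rw [e1, abs_neg, abs_div, abs_of_pos hp, abs_mul, abs_of_pos he, div_le_iff₀ hp]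
  have h1 := Real.sq_sqrt he.le
  have h2 := sq_abs t
  have h3 := Real.sqrt_nonneg e
  have h4 : |t| * √e ≤ t ^ 2 + e := by nlinarith [sq_nonneg (|t| - √e), abs_nonneg t]
  calc |t| * e = |t| * √e ^ 2 := by rw [h1]
    _ = √e * (|t| * √e) := by ring
    _ ≤ _ := mul_le_mul_of_nonneg_left h4 h3

theorem sgn_cfc_eq {e : ℝ} (he : 0 < e) {a : A} (ha : IsSelfAdjoint a) :
    cfc (sgnF e) a = a * cfc (sgnG e) (a * a) := by
  have hG := sgnG_cont he
  rw [← sq, ← cfc_comp_pow (sgnG e) 2 a hG.continuousOn]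
  conv_rhs => enter [1]; rw [← cfc_id' ℝ a]
  rw [← cfc_mul _ _ a (by fun_prop) (by fun_prop)]
  rfl

theorem sgn_tendsto : Tendsto (fun k : ℕ => √(1 / ((k : ℝ) + 1))) atTop (𝓝 0) := by
  simpa using (tendsto_one_div_add_atTop_nhds_zero_nat (𝕜 := ℝ)).sqrt

theorem sgn_lim (hτ : τ.IsW) (a : A) :
    ∃ s : A, τ.Lim (fun k : ℕ => cfc (sgnF (1 / ((k : ℝ) + 1))) a) s := by
  have he : ∀ k : ℕ, (0 : ℝ) < 1 / ((k : ℝ) + 1) := fun k => by positivity
  set F : ℕ → ℝ → ℝ := fun k => sgnF (1 / ((k : ℝ) + 1)) with hF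
  have hc : ∀ k, Continuous (F k) := fun k => sgnF_cont (he k)
  set b : ℕ → ℝ := fun k => (τ (cfc (fun t => F k t ^ 2) a)).re with hb
  have key : ∀ j k, k ≤ j → τ.n (cfc (F j) a - cfc (F k) a) ^ 2 ≤ b j - b k := by
    intro j k hkj
    have hj := hc j
    have hk := hc k
    have h1 : cfc (F j) a - cfc (F k) a = cfc (fun t => F j t - F k t) a :=
      (cfc_sub _ _ a hj.continuousOn hk.continuousOn).symm
    have h2 := τ.cfc_nonneg (fun t => (F j t ^ 2 - F k t ^ 2) - (F j t - F k t) * (F j t - F k t)) a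
      fun t _ => by
        have := sgnF_mono (he j) (one_div_le_one_div_of_le (a := (k : ℝ) + 1) (by positivity)
          (by exact_mod_cast Nat.succ_le_succ hkj)) t
        simp only [hF]; nlinarith
    rw [cfc_sub _ _ a (by fun_prop) (by fun_prop), cfc_sub _ _ a (by fun_prop) (by fun_prop),
      cfc_mul _ _ a (by fun_prop) (by fun_prop), map_sub, map_sub, Complex.sub_re,
      Complex.sub_re] at h2
    rw [h1, τ.n_sq_of_sa IsSelfAdjoint.cfc.star_eq]
    simp only [hb]; linarith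
  have hmono : Monotone b := fun k j hkj => by
    have := key j k hkj
    nlinarith [sq_nonneg (τ.n (cfc (F j) a - cfc (F k) a))]
  have hbdd : BddAbove (Set.range b) := by
    refine ⟨1, ?_⟩
    rintro _ ⟨k, rfl⟩
    refine (Complex.re_le_norm _).trans ((τ.norm_le _).trans (norm_cfc_le zero_le_one fun t _ => ?_))
    rw [norm_pow, Real.norm_eq_abs]
    exact pow_le_one₀ (abs_nonneg _) (sgnF_abs_le (he k) t)
  have hcau := (tendsto_atTop_ciSup hmono hbdd).cauchySeq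
  obtain ⟨s, -, hs⟩ := hτ.complete (fun k => cfc (F k) a) 1
    (fun k => norm_cfc_le zero_le_one fun t _ => sgnF_abs_le (he k) t) fun ε hε => by
      obtain ⟨N, hN⟩ := Metric.cauchySeq_iff.mp hcau (ε ^ 2) (by positivity)
      refine ⟨N, fun j hj k hk => ?_⟩
      have h0 := hN j hj k hk
      rw [Real.dist_eq, abs_lt] at h0
      refine lt_of_pow_lt_pow_left₀ 2 hε.le ?_
      rcases le_total k j with h | h
      · linarith [key j k h]
      · rw [map_sub_rev]; linarith [key k j h]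
  exact ⟨s, hs⟩

/-- **Sign lemma.** Proof. Put `ε k = 1/(k+1)`, `g k u = 1/√(u + ε k)` (use `1/√(|u| + ε k)` to have
it continuous on all of `ℝ`), `s k = a * cfc (g k) (a*a) = cfc (f k) a` with
`f k t = t/√(t²+ε k)` (`cfc_comp`/`cfc_mul`; either form is used below: the first for the last three
properties, since `z` commutes with `a*a` in the last two cases, `Commute.cfc_real`; membership in
`Q` by `cfc_mem` with `Closed.isClosed`).  `|f k| ≤ 1` so `‖s k‖ ≤ 1` (`norm_cfc_le`).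
`(f k t)² = t²/(t²+ε k)` increases in `k`, and for `j ≥ k` the reals `f j t`, `f k t` have the same
sign and `|f j t| ≥ |f k t|`, so `(f j - f k)² ≤ (f j)² - (f k)²`; by `Tr.cfc_nonneg`,
`n (s j - s k)² ≤ b j - b k` with `b k = re τ (cfc (f k ²) a)` monotone and bounded by `1`, hence
Cauchy.  `IsW.complete` gives the limit `s`.  Identities pass to the limit by `Lim.mul`,
`IsW.eq_of_lim`, `Lim.of_tendsto`:
`|f k t * t - |t|| ≤ √(ε k)` gives `s * a = |a|`;  `|(f k t)² t - t| = |t| ε k/(t²+ε k) ≤ √(ε k)`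
gives `s * s * a = a`, hence `s * s * (s k) = s k` (as `s k = a * cfc ..`), hence `s*s*s = s`. -/
theorem exists_sign (hτ : τ.IsW) {a : A} (ha : star a = a) :
    ∃ s : A, IsPSym s ∧ s * s * a = a ∧ s * a = cfc (fun t : ℝ => |t|) a ∧
      (∀ Q : StarSubalgebra ℂ A, τ.Closed Q → a ∈ Q → s ∈ Q) ∧
      (∀ z, z * a = 0 → z * s = 0) ∧ (∀ z, z * a = a * z → z * s = s * z) ∧
      (∀ z, z * a = -(a * z) → z * s = -(s * z)) := by
  have ha' : IsSelfAdjoint a := ha
  have he : ∀ k : ℕ, (0 : ℝ) < 1 / ((k : ℝ) + 1) := fun k => by positivity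
  obtain ⟨s, hs⟩ := sgn_lim hτ a
  set u : ℕ → A := fun k => cfc (sgnF (1 / ((k : ℝ) + 1))) a with hu
  have hc := fun k => sgnF_cont (he k)
  have hu1 : ∀ k, ‖u k‖ ≤ 1 := fun k => norm_cfc_le zero_le_one fun t _ => sgnF_abs_le (he k) t
  have hue : ∀ k, u k = a * cfc (sgnG (1 / ((k : ℝ) + 1))) (a * a) := fun k => sgn_cfc_eq (he k) ha'
  have hstar : star s = s := hτ.eq_of_lim hs.star hs fun k => IsSelfAdjoint.cfc.star_eq
  have h2 : s * s * a = a := by
    refine hτ.lim_unique ((hs.mul hs hu1).mul_const a) (Tr.Lim.of_le (fun k => ?_) sgn_tendsto)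
    have := hc k
    refine (τ.n_le_norm _).trans ?_
    have e : u k * u k * a - a = cfc (fun t => sgnF (1 / ((k : ℝ) + 1)) t *
        sgnF (1 / ((k : ℝ) + 1)) t * t - t) a := by
      rw [cfc_sub _ _ a (by fun_prop) (by fun_prop), cfc_mul _ _ a (by fun_prop) (by fun_prop),
        cfc_mul _ _ a (by fun_prop) (by fun_prop), cfc_id' ℝ a]
    rw [e]
    exact norm_cfc_le (Real.sqrt_nonneg _) fun t _ => sgnF_sq_mul (he k) t
  have h3 : s * a = cfc (fun t : ℝ => |t|) a := by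
    refine hτ.lim_unique (hs.mul_const a) (Tr.Lim.of_le (fun k => ?_) sgn_tendsto)
    have := hc k
    refine (τ.n_le_norm _).trans ?_
    have e : u k * a - cfc (fun t : ℝ => |t|) a
        = cfc (fun t => sgnF (1 / ((k : ℝ) + 1)) t * t - |t|) a := by
      rw [cfc_sub _ _ a (by fun_prop) (by fun_prop), cfc_mul _ _ a (by fun_prop) (by fun_prop),
        cfc_id' ℝ a]
    rw [e]
    exact norm_cfc_le (Real.sqrt_nonneg _) fun t _ => sgnF_mul (he k) t
  refine ⟨s, ⟨hstar, ?_⟩, h2, h3, fun Q hQ haQ => ?_, fun z hz => ?_, fun z hz => ?_,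
    fun z hz => ?_⟩
  · refine hτ.eq_of_lim (hs.const_mul (s * s)) hs fun k => ?_
    rw [hue, ← mul_assoc, h2]
  · have := hQ.isClosed
    exact hQ.mem_of_lim (fun k => cfc_mem (𝕜' := ℂ) _ haQ) hs
  · refine hτ.eq_of_lim (hs.const_mul z) (Tr.Lim.const 0) fun k => ?_
    rw [hue, ← mul_assoc, hz, zero_mul]
  · refine hτ.eq_of_lim (hs.const_mul z) (hs.mul_const z) fun k => ?_
    exact ((show Commute a z from hz.symm).cfc_real _).eq.symm
  · refine hτ.eq_of_lim (hs.const_mul z) (hs.mul_const z).neg fun k => ?_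
    have hc2 : Commute (a * a) z := by
      have h' : a * z = -(z * a) := by rw [hz, neg_neg]
      change a * a * z = z * (a * a)
      rw [mul_assoc, h', mul_neg, ← mul_assoc, h', neg_mul, neg_neg, mul_assoc]
    rw [hue, ← mul_assoc, hz, neg_mul, mul_assoc, mul_assoc, (hc2.cfc_real _).eq]

/-- Symmetry version. Proof. Let `s₀` be as in `exists_sign`, `s = s₀ + (1 - s₀*s₀)`; then `s` is a
symmetry (`s₀ * (1 - s₀*s₀) = 0`), `s * a = s₀ * a = |a|` and `a * s = |a|` (take `star`).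
`b = 2a - s` is self-adjoint with `b*b = 4a² - 4|a| + 1 = cfc (fun t => (2|t|-1)²) a`, of norm
`≤ 1` as the spectrum lies in `[-1,1]` (`spectrum.norm_le_norm_of_mem`, `τ.nontrivial`); C⋆-identity.
Finally `re τ(|a|) - re τ(a*a) = re τ (cfc (fun t => |t| - t*t) a) ≥ 0`. -/
theorem exists_sym (hτ : τ.IsW) {Q : StarSubalgebra ℂ A} (hQ : τ.Closed Q) {a : A} (haQ : a ∈ Q)
    (ha : star a = a) (h1 : ‖a‖ ≤ 1) :
    ∃ s ∈ Q, IsSym s ∧ ‖(2 : ℂ) • a - s‖ ≤ 1 ∧ τ.n a ^ 2 ≤ (τ (s * a)).re := by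
  have ha' : IsSelfAdjoint a := ha
  have := τ.nontrivial
  obtain ⟨v, hv, h2, h3, hmem, -⟩ := exists_sign hτ ha
  have hvQ := hmem Q hQ haQ
  have hspec : ∀ t ∈ spectrum ℝ a, |t| ≤ 1 := fun t ht =>
    (spectrum.norm_le_norm_of_mem ht).trans h1
  have hstar : star (v + (1 - v * v)) = v + (1 - v * v) := by
    rw [star_add, star_sub, star_one, star_mul, hv.1]
  have hsym : IsSym (v + (1 - v * v)) := by
    refine ⟨hstar, ?_⟩
    have e : (v + (1 - v * v)) * (v + (1 - v * v))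
        = 1 + 2 * (v - v * v * v) + (v * v * v - v) * v := by noncomm_ring
    rw [e, hv.2]; simp
  have hsa : (v + (1 - v * v)) * a = cfc (fun t : ℝ => |t|) a := by
    rw [add_mul, sub_mul, one_mul, h2, sub_self, add_zero, h3]
  have has : a * (v + (1 - v * v)) = cfc (fun t : ℝ => |t|) a := by
    have := congrArg star hsa
    rwa [star_mul, hstar, ha, IsSelfAdjoint.cfc.star_eq] at this
  have haa : a * a = cfc (fun t : ℝ => t * t) a := by
    rw [cfc_mul _ _ a (by fun_prop) (by fun_prop), cfc_id' ℝ a]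
  refine ⟨v + (1 - v * v), add_mem hvQ (sub_mem (one_mem _) (mul_mem hvQ hvQ)), hsym, ?_, ?_⟩
  · set s := v + (1 - v * v)
    have hb : star ((2 : ℂ) • a - s) = (2 : ℂ) • a - s := by
      rw [star_sub, star_smul, ha, hstar]; simp
    have e : ((2 : ℂ) • a - s) * ((2 : ℂ) • a - s)
        = cfc (fun t : ℝ => (4 : ℝ) • (t * t) - (4 : ℝ) • |t| + 1) a := by
      rw [cfc_add _ _ _ (by fun_prop) (by fun_prop), cfc_sub _ _ a (by fun_prop) (by fun_prop),
        cfc_smul _ _ a (by fun_prop), cfc_smul _ _ a (by fun_prop), cfc_const_one ℝ a, ← haa,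
        sub_mul, mul_sub, mul_sub, smul_mul_smul_comm, smul_mul_assoc, mul_smul_comm, hsa, has,
        hsym.2, ← Complex.coe_smul, ← Complex.coe_smul]
      push_cast
      module
    have hn : ‖((2 : ℂ) • a - s) * ((2 : ℂ) • a - s)‖ ≤ 1 := by
      rw [e]
      refine norm_cfc_le zero_le_one fun t ht => ?_
      have h4 := hspec t ht
      have h5 := abs_nonneg t
      have h6 := abs_mul_abs_self t
      rw [Real.norm_eq_abs, smul_eq_mul, smul_eq_mul, abs_le]
      constructor <;> nlinarith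
    have h7 : ‖star ((2 : ℂ) • a - s) * ((2 : ℂ) • a - s)‖ = ‖(2 : ℂ) • a - s‖ * ‖(2 : ℂ) • a - s‖ :=
      CStarRing.norm_star_mul_self
    rw [hb] at h7
    nlinarith [norm_nonneg ((2 : ℂ) • a - s)]
  · have h := τ.cfc_nonneg (fun t : ℝ => |t| - t * t) a fun t ht => by
      have h4 := hspec t ht
      have h5 := abs_nonneg t
      have h6 := abs_mul_abs_self t
      nlinarith
    rw [cfc_sub _ _ a (by fun_prop) (by fun_prop), ← haa, map_sub, Complex.sub_re] at h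
    rw [hsa, τ.n_sq_of_sa ha]; linarith

/-- **Seminorm trick.** Proof. `u = a + I • b` with `a = (u + u⋆)/2`, `b = (u - u⋆)/(2I)` self-adjoint
contractions in `Q`, so one of them has `N ≥ N u / 2 > c`.  Let `K` be the supremum of `N` over
self-adjoint contractions of `Q` (bounded by `|C|`); `K > c`.  If `N s ≤ c` for all symmetries
`s ∈ Q`, then for every self-adjoint contraction `a ∈ Q` and `s` from `exists_sym`,
`2 N a = N (s + (2a - s)) ≤ c + K`, so `2K ≤ c + K`, contradiction. -/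
theorem exists_sym_seminorm (hτ : τ.IsW) {Q : StarSubalgebra ℂ A} (hQ : τ.Closed Q)
    (N : Seminorm ℂ A) (C : ℝ) (hN : ∀ x, N x ≤ C * ‖x‖) {u : A} (huQ : u ∈ Q) (hu : ‖u‖ ≤ 1)
    {c : ℝ} (hc : c < N u / 2) : ∃ s ∈ Q, IsSym s ∧ c < N s := by
  by_contra hcon
  push Not at hcon
  set S : Set ℝ := {r | ∃ a ∈ Q, star a = a ∧ ‖a‖ ≤ 1 ∧ N a = r} with hS
  have hbdd : BddAbove S := by
    refine ⟨|C|, ?_⟩
    rintro _ ⟨a, -, -, h1, rfl⟩
    calc N a ≤ C * ‖a‖ := hN a
      _ ≤ |C| * ‖a‖ := mul_le_mul_of_nonneg_right (le_abs_self C) (norm_nonneg _)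
      _ ≤ |C| := mul_le_of_le_one_right (abs_nonneg C) h1
  have hne : S.Nonempty := ⟨N 0, 0, zero_mem _, star_zero _, by simp, rfl⟩
  have hK : sSup S ≤ (c + sSup S) / 2 := by
    refine csSup_le hne ?_
    rintro _ ⟨a, haQ, ha, h1, rfl⟩
    obtain ⟨s, hsQ, hs, hs1, -⟩ := exists_sym hτ hQ haQ ha h1
    have h2 : N ((2 : ℂ) • a - s) ≤ sSup S := by
      refine le_csSup hbdd ⟨_, sub_mem (SMulMemClass.smul_mem _ haQ) hsQ, ?_, hs1, rfl⟩
      rw [star_sub, star_smul, ha, hs.1]; simp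
    have h3 : N ((2 : ℂ) • a) ≤ N s + N ((2 : ℂ) • a - s) := by
      simpa using map_add_le_add N s ((2 : ℂ) • a - s)
    rw [map_smul_eq_mul] at h3
    have h4 := hcon s hsQ hs
    simp only [Complex.norm_ofNat] at h3
    linarith
  have hn2 : ∀ x y : A, ‖x‖ ≤ 1 → ‖y‖ ≤ 1 → ∀ z : ℂ, ‖z‖ = 2⁻¹ → ‖z • (x + y)‖ ≤ 1 := by
    intro x y hx hy z hz
    rw [norm_smul, hz]
    linarith [norm_add_le x y]
  have hus : ‖star u‖ ≤ 1 := by rwa [norm_star]
  have ha : N ((2⁻¹ : ℂ) • (u + star u)) ≤ sSup S := by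
    refine le_csSup hbdd ⟨_, SMulMemClass.smul_mem _ (add_mem huQ (star_mem huQ)), ?_,
      hn2 _ _ hu hus _ (by simp), rfl⟩
    rw [star_smul, star_add, star_star, add_comm]; simp
  have hb : N ((2⁻¹ * Complex.I : ℂ) • (u + -star u)) ≤ sSup S := by
    refine le_csSup hbdd ⟨_, SMulMemClass.smul_mem _ (add_mem huQ (neg_mem (star_mem huQ))), ?_,
      hn2 _ _ hu (by rwa [norm_neg]) _ (by simp), rfl⟩
    rw [star_smul, star_add, star_neg, star_star]
    simp only [star_mul', star_inv₀, star_ofNat, RCLike.star_def, Complex.conj_I]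
    module
  have hu2 : N u ≤ N ((2⁻¹ : ℂ) • (u + star u)) + N ((2⁻¹ : ℂ) • (u + -star u)) := by
    refine le_trans (le_of_eq ?_) (map_add_le_add N _ _)
    congr 1; module
  rw [map_smul_eq_mul] at hb
  rw [map_smul_eq_mul N _ (u + -star u)] at hu2
  simp only [norm_mul, Complex.norm_I, mul_one] at hb
  linarith

/-- **Truncation.** Proof. Let `f t = max (-1) (min 1 t)`, `b = cfc f a` (norm `≤ 1`, in `Q` by
`cfc_mem`), `g₊ t = max (t-1) 0`, `g₋ t = max (-t-1) 0`, so `t - f t = g₊ t - g₋ t`,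
`f * g₊ = g₊`, `f * g₋ = -g₋`.  `x - a = (x - b) - (a - b)`, so by `n_sub_sq` it suffices that
`re τ ((x - b) * (a - b)) ≤ 0`.  It equals `re τ ((x - 1) G₊) - re τ ((x + 1) G₋)` with
`G± = cfc g± a = c⋆c`, `c = cfc (√g±) a`, and `|τ (x c⋆c)| ≤ n c ^ 2 = re τ (c⋆ c)` by
`norm_mul_star_mul_self_le`. -/
theorem exists_trunc (τ : Tr A) {Q : StarSubalgebra ℂ A} (hQ : IsClosed (Q : Set A)) {x a : A}
    (hx : star x = x) (hx1 : ‖x‖ ≤ 1) (haQ : a ∈ Q) (ha : star a = a) :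
    ∃ b ∈ Q, star b = b ∧ ‖b‖ ≤ 1 ∧ τ.n (x - b) ≤ τ.n (x - a) := by
  have ha' : IsSelfAdjoint a := ha
  have key : ∀ g : ℝ → ℝ, Continuous g → (∀ t, 0 ≤ g t) →
      ‖τ (x * cfc g a)‖ ≤ (τ (cfc g a)).re := by
    intro g hg h0
    have e : cfc g a = star (cfc (fun t => √(g t)) a) * cfc (fun t => √(g t)) a := by
      rw [IsSelfAdjoint.cfc.star_eq, ← cfc_mul _ _ a (by fun_prop) (by fun_prop)]
      exact cfc_congr fun t _ => (Real.mul_self_sqrt (h0 t)).symm
    rw [e, ← τ.n_sq]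
    exact (τ.norm_mul_star_mul_self_le x _).trans (mul_le_of_le_one_left (sq_nonneg _) hx1)
  set f : ℝ → ℝ := fun t => max (-1) (min 1 t) with hf
  set gp : ℝ → ℝ := fun t => max (t - 1) 0 with hgp
  set gm : ℝ → ℝ := fun t => max (-t - 1) 0 with hgm
  have hfc : Continuous f := by fun_prop
  have hpc : Continuous gp := by fun_prop
  have hmc : Continuous gm := by fun_prop
  have h1 : a - cfc f a = cfc gp a - cfc gm a := by
    conv_lhs => enter [1]; rw [← cfc_id' ℝ a]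
    rw [← cfc_sub _ _ a (by fun_prop) (by fun_prop), ← cfc_sub _ _ a (by fun_prop) (by fun_prop)]
    refine cfc_congr fun t _ => ?_
    simp only [hf, hgp, hgm, max_def, min_def]
    split_ifs <;> linarith
  have h2 : cfc f a * (cfc gp a - cfc gm a) = cfc gp a + cfc gm a := by
    rw [← cfc_sub _ _ a (by fun_prop) (by fun_prop), ← cfc_mul _ _ a (by fun_prop) (by fun_prop),
      ← cfc_add a _ _ (by fun_prop) (by fun_prop)]
    refine cfc_congr fun t _ => ?_
    simp only [hf, hgp, hgm, max_def, min_def]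
    split_ifs <;> linarith
  refine ⟨cfc f a, cfc_mem (𝕜' := ℂ) _ haQ, IsSelfAdjoint.cfc.star_eq,
    norm_cfc_le zero_le_one fun t _ => ?_, ?_⟩
  · rw [Real.norm_eq_abs, abs_le]
    exact ⟨le_max_left _ _, max_le (by norm_num) (min_le_left _ _)⟩
  · have h3 := τ.n_sub_sq (x - cfc f a) (a - cfc f a)
    rw [sub_sub_sub_cancel_right, star_sub, hx, IsSelfAdjoint.cfc.star_eq, h1, sub_mul, h2,
      mul_sub, map_sub τ.toLin, map_sub τ.toLin, map_add τ.toLin] at h3
    simp only [Complex.sub_re, Complex.add_re] at h3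
    have h4 := (Complex.re_le_norm _).trans (key gp hpc fun t => le_max_right _ _)
    have h5 := (Complex.abs_re_le_norm _).trans (key gm hmc fun t => le_max_right _ _)
    have h6 := (abs_le.mp h5).1
    refine (abs_le_of_sq_le_sq' ?_ (τ.n_nonneg _)).2
    nlinarith [sq_nonneg (τ.n (cfc gp a - cfc gm a))]

end Crest.Agent.R95
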