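import Crest.Agent.R95.Popa
import Crest.Agent.R95.Free

/-! # rid 95: the ultrapower trace on `ℓ^∞(ℕ, A) = ℕ →ᵇ A` and exactly free symmetries -/

set_option autoImplicit false

open Filter Topology BoundedContinuousFunction

namespace Crest.Agent.R95

variable {A : Type*} [CStarAlgebra A] {τ : Tr A}

/-- **Ultrapower trace.** Proof. The sequence `τ (x m)` is bounded by `‖x‖`, so it converges along
the ultrafilter `hyperfilter ℕ` (`IsCompact.ultrafilter_le_nhds` for a closed ball); choose the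
limit `φ x`; all axioms follow from uniqueness of limits (`tendsto_nhds_unique`, `ge_of_tendsto'`);
operations on `ℕ →ᵇ A` are pointwise by `rfl`/`simp`. -/
theorem exists_ultra (τ : Tr A) :
    ∃ φ : Tr (ℕ →ᵇ A), ∀ x : ℕ →ᵇ A,
      Tendsto (fun m => τ (x m)) (hyperfilter ℕ : Filter ℕ) (𝓝 (φ x)) := by
  have key : ∀ x : ℕ →ᵇ A, ∃ c : ℂ,
      Tendsto (fun m => τ (x m)) (hyperfilter ℕ : Filter ℕ) (𝓝 c) := by
    intro x
    have hc : IsCompact (Metric.closedBall (0 : ℂ) ‖x‖) := isCompact_closedBall _ _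
    obtain ⟨c, -, hc'⟩ := hc.ultrafilter_le_nhds ((hyperfilter ℕ).map fun m => τ (x m)) (by
      rw [le_principal_iff, Ultrafilter.coe_map, mem_map]
      refine Eventually.of_forall fun m => ?_
      simpa using (τ.norm_le _).trans (x.norm_coe_le_norm m))
    exact ⟨c, hc'⟩
  choose f hf using key
  have uniq : ∀ (x : ℕ →ᵇ A) (c : ℂ),
      Tendsto (fun m => τ (x m)) (hyperfilter ℕ : Filter ℕ) (𝓝 c) → f x = c :=
    fun x c h => tendsto_nhds_unique (hf x) h
  refine ⟨{ toLin := { toFun := f, map_add' := fun x y => ?_, map_smul' := fun c x => ?_ }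
            one' := ?_, comm' := fun x y => ?_, star' := fun x => ?_, nonneg' := fun x => ?_ }, hf⟩
  · exact uniq _ _ (by simpa using (hf x).add (hf y))
  · exact uniq _ _ (by simpa using (hf x).const_mul c)
  · exact uniq _ _ (by simp)
  · refine uniq _ _ ((hf (y * x)).congr fun m => ?_)
    exact τ.comm _ _
  · refine uniq _ _ (((Complex.continuous_conj.tendsto _).comp (hf x)).congr fun m => ?_)
    exact (τ.map_star _).symm
  · exact ge_of_tendsto' ((Complex.continuous_re.tendsto _).comp (hf (star x * x)))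
      fun m => τ.nonneg' (x m)

/-- `φ.n` is the ultralimit of `τ.n`.  Proof. `n_sq`, `Real.sqrt`. -/
theorem tendsto_n_ultra {φ : Tr (ℕ →ᵇ A)} (hφ : ∀ x : ℕ →ᵇ A,
      Tendsto (fun m => τ (x m)) (hyperfilter ℕ : Filter ℕ) (𝓝 (φ x))) (x : ℕ →ᵇ A) :
    Tendsto (fun m => τ.n (x m)) (hyperfilter ℕ : Filter ℕ) (𝓝 (φ.n x)) := by
  have h := ((Complex.continuous_re.tendsto _).comp (hφ (star x * x))).sqrt
  rw [← φ.n_sq, Real.sqrt_sq (φ.n_nonneg x)] at h
  refine h.congr fun m => ?_
  have : (τ ((star x * x) m)).re = τ.n (x m) ^ 2 := (τ.n_sq (x m)).symm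
  simp only [Function.comp_apply, this, Real.sqrt_sq (τ.n_nonneg _)]

/-- replacing factors by `‖·‖₂`-equivalent ones does not change a product modulo `‖·‖₂` -/
theorem ultra_n_prod {B : Type*} [CStarAlgebra B] (φ : Tr B) {ι : Type*} (f g : ι → B)
    (L : List ι) (h : ∀ i ∈ L, φ.n (f i - g i) = 0) :
    φ.n ((L.map f).prod - (L.map g).prod) = 0 := by
  induction L with
  | nil => simp
  | cons i L ih =>
    have h1 := h i (by simp)
    have h2 := ih fun j hj => h j (by simp [hj])
    refine le_antisymm ?_ (φ.n_nonneg _)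
    have e : ((i :: L).map f).prod - ((i :: L).map g).prod
        = f i * ((L.map f).prod - (L.map g).prod) + (f i - g i) * (L.map g).prod := by
      simp only [List.map_cons, List.prod_cons]; noncomm_ring
    rw [e]
    refine (map_add_le_add _ _ _).trans ?_
    have h3 := φ.n_mul_le (f i) ((L.map f).prod - (L.map g).prod)
    have h4 := φ.n_mul_le' (f i - g i) (L.map g).prod
    rw [h2] at h3
    rw [h1] at h4
    linarith

theorem ultra_prod_apply {ι : Type*} (f : ι → ℕ →ᵇ A) (L : List ι) (m : ℕ) :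
    (L.map f).prod m = (L.map fun i => f i m).prod := by
  induction L with
  | nil => simp
  | cons i L ih => simp [ih]

/-- **Exactly free symmetries.** Proof. Enumerate `S ⊆ range y`, `y : ℕ → ℕ →ᵇ A` (e.g.
`(hS.insert 0).exists_eq_range`).  For each `m` apply `popa` to the family
`i : Fin (m+1) ↦ y i m - τ (y i m) • 1`, `k = m`, `ε = 1/(m+1)`, getting `s m`; `s` is a bounded
sequence (`ofNormedAddCommGroupDiscrete`), `φ s = 0` (`Nat.hyperfilter_le_atTop`).  Let
`c x = x - (m ↦ τ (x m) • 1)` (bounded sequence).  For a list `L = I.map y`, for all large `m` the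
`m`-th coordinate of `∏ s * c x` is an `alt` word of the `m`-th family (lift `I` to
`List (Fin (m+1))`), so `φ (∏ s * c x) = 0`.  Finally `φ.n (c x - (x - φ x • 1)) = 0`
(`tendsto_n_ultra`, `n_smul_one`), and replacing factors by `φ.n`-equivalent ones does not change a
product modulo `φ.n` (induction with `n_mul_le`, `n_mul_le'`), nor `φ` (`norm_le_n`). -/
theorem exists_free {P : StarSubalgebra ℂ A} (h : Setup τ P) {φ : Tr (ℕ →ᵇ A)}
    (hφ : ∀ x : ℕ →ᵇ A, Tendsto (fun m => τ (x m)) (hyperfilter ℕ : Filter ℕ) (𝓝 (φ x)))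
    {S : Set (ℕ →ᵇ A)} (hS : S.Countable) : ∃ s : ℕ →ᵇ A, (∀ m, s m ∈ P) ∧ φ.Free s S := by
  obtain ⟨y, hy⟩ := (hS.insert 0).exists_eq_range (Set.insert_nonempty _ _)
  have hidx : ∀ x : ℕ →ᵇ A, ∃ i : ℕ, x ∈ S → y i = x := by
    intro x
    by_cases hx : x ∈ S
    · obtain ⟨i, hi⟩ : x ∈ Set.range y := hy ▸ Set.mem_insert_of_mem _ hx
      exact ⟨i, fun _ => hi⟩
    · exact ⟨0, fun h => absurd h hx⟩
  choose idx hidx using hidx
  choose s hsP hs hτ hL using fun m : ℕ =>
    popa h (x := fun i : Fin (m + 1) => y i m - τ (y i m) • (1 : A)) (fun i => by simp) m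
      (ε := 1 / ((m : ℝ) + 1)) (by positivity)
  let σ : ℕ →ᵇ A := ofNormedAddCommGroupDiscrete s 1 fun m => (hs m).norm_le
  have hσ : ∀ m, σ m = s m := fun _ => rfl
  let c : (ℕ →ᵇ A) → ℕ →ᵇ A := fun x =>
    ofNormedAddCommGroupDiscrete (fun m => τ (x m) • (1 : A)) ‖x‖ fun m => by
      have := τ.nontrivial
      simpa [norm_smul] using (τ.norm_le _).trans (x.norm_coe_le_norm m)
  have hc : ∀ x m, c x m = τ (x m) • (1 : A) := fun _ _ => rfl
  have hz : ∀ w : ℕ →ᵇ A, (∀ᶠ m in atTop, ‖τ (w m)‖ ≤ 1 / ((m : ℝ) + 1)) → φ w = 0 := by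
    intro w hw
    refine tendsto_nhds_unique (hφ w) (Tendsto.mono_left ?_ Nat.hyperfilter_le_atTop)
    exact squeeze_zero_norm' hw tendsto_one_div_add_atTop_nhds_zero_nat
  refine ⟨σ, hsP, ⟨⟨?_, ?_⟩, hz σ (Eventually.of_forall hτ), fun L hL0 hLS => ?_⟩⟩
  · ext m; exact (hs m).1
  · ext m; exact (hs m).2
  have h1 : φ (L.map fun x => σ * (x - c x)).prod = 0 := by
    refine hz _ ?_
    filter_upwards [eventually_ge_atTop L.length, eventually_ge_atTop (L.map idx).sum]
      with m hm1 hm2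
    have := hL m (L.map fun x => Fin.ofNat (m + 1) (idx x)) (by simpa using hL0) (by simpa using hm1)
    rw [alt, List.map_map] at this
    rw [ultra_prod_apply]
    convert this using 4
    refine List.map_congr_left fun x hx => ?_
    have hi : idx x ≤ m := (List.single_le_sum (fun _ _ => Nat.zero_le _) _
      (List.mem_map_of_mem hx)).trans hm2
    simp [Nat.mod_eq_of_lt (Nat.lt_succ_of_le hi), hidx x (hLS x hx), hσ, hc]
  have h2 : ∀ x : ℕ →ᵇ A, φ.n (σ * (x - φ x • 1) - σ * (x - c x)) = 0 := by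
    intro x
    have h3 : φ.n (c x - φ x • 1) = 0 := by
      refine tendsto_nhds_unique (tendsto_n_ultra hφ _) ?_
      refine (tendsto_iff_norm_sub_tendsto_zero.mp (hφ x)).congr fun m => ?_
      rw [← τ.n_smul_one, sub_smul]
      rfl
    refine le_antisymm ?_ (φ.n_nonneg _)
    have h4 := φ.n_mul_le σ (c x - φ x • 1)
    rw [h3, mul_zero] at h4
    have e : σ * (x - φ x • 1) - σ * (x - c x) = σ * (c x - φ x • 1) := by
      rw [← mul_sub, sub_sub_sub_cancel_left]
    rwa [e]
  have h5 := (φ.norm_le_n _).trans (ultra_n_prod φ _ _ L fun x _ => h2 x).le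
  rw [map_sub, h1, sub_zero] at h5
  exact norm_le_zero_iff.mp h5

end Crest.Agent.R95
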